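import Vale.Agent.P179.R2.H854.Ph3
import Vale.Agent.P179.R2.H443.Defs
import Vale.Agent.P179.H166.KN4
import Vale.Agent.P179.H525.QuotS

/-!
# The Knörr–Robinson sum of a block as a sum over chains
-/

namespace P179H854

open Subgroup P179A P179N P179R P179C P179H524 P179H443 P179K RegularWreathProduct

open P179B (NChain chainStab)

open scoped Classical Pointwise

universe u

section Congr

variable {k : Type u} [Field k] {H H' : Type} [Group H] [Group H']

theorem asAlgebraHom_comp {V : Type*} [AddCommGroup V] [Module k V] (f : H →* H')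
    (ρ : Representation k H' V) (z : MonoidAlgebra k H) :
    Representation.asAlgebraHom (ρ.comp f : Representation k H V) z =
      ρ.asAlgebraHom (MonoidAlgebra.mapDomainAlgHom k k f z) := by
  induction z using MonoidAlgebra.induction_linear with
  | zero => rw [map_zero, map_zero, map_zero]
  | add a b ha hb => rw [map_add, ha, hb, map_add, map_add]
  | single g a =>
    rw [Representation.asAlgebraHom_single]
    have h1 : MonoidAlgebra.mapDomainAlgHom k k f (MonoidAlgebra.single g a) =
        MonoidAlgebra.single (f g) a := by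
      simp
    rw [h1, Representation.asAlgebraHom_single]
    rfl

/-- restriction of irreducible representations along an isomorphism -/
def IrrRep.res (f : H ≃* H') (a : IrrRep k H') : IrrRep k H :=
  ⟨⟨a.1.1, a.1.2.comp f.toMonoidHom⟩,
    (isIrreducible_comp_iff a.1.2 f.toMonoidHom f.surjective).mpr a.2⟩

theorem IrrRep.res_res (f : H ≃* H') (b : IrrRep k H) :
    IrrRep.res f (IrrRep.res f.symm b) = b := by
  obtain ⟨⟨n, ρ⟩, hρ⟩ := b
  apply Subtype.ext
  have h : (ρ.comp f.symm.toMonoidHom).comp f.toMonoidHom = ρ := by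
    ext g : 1
    exact congrArg ρ (f.symm_apply_apply g)
  exact congrArg (Sigma.mk n) h

theorem numSimpleIn_of_equiv (f : H ≃* H') (z : MonoidAlgebra k H) (z' : MonoidAlgebra k H')
    (h : MonoidAlgebra.mapDomainAlgHom k k (f : H →* H') z = z') :
    numSimpleIn z' = numSimpleIn z := by
  have hin : ∀ a : IrrRep k H', InBlock (IrrRep.res f a) z ↔ InBlock a z' := by
    intro a
    unfold InBlock
    rw [← h, ← asAlgebraHom_comp]
    rfl
  unfold numSimpleIn
  refine Nat.card_congr (Quot.congr
    { toFun := fun a => ⟨IrrRep.res f a.1, (hin a.1).2 a.2⟩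
      invFun := fun b => ⟨IrrRep.res f.symm b.1, by
        rw [← hin, IrrRep.res_res]
        exact b.2⟩
      left_inv := fun a => Subtype.ext (IrrRep.res_res f.symm a.1)
      right_inv := fun b => Subtype.ext (IrrRep.res_res f b.1) } ?_)
  intro a b
  constructor
  · rintro ⟨e⟩
    exact ⟨Representation.Equiv.mk e.toLinearEquiv fun g => e.isIntertwining' (f g)⟩
  · rintro ⟨e⟩
    refine ⟨Representation.Equiv.mk e.toLinearEquiv fun g => ?_⟩
    obtain ⟨g, rfl⟩ := f.surjective g
    exact e.isIntertwining' g

theorem coeff_mapDomain_equiv (f : H ≃* H') (z : MonoidAlgebra k H) (x : H) :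
    (MonoidAlgebra.mapDomainAlgHom k k (f : H →* H') z).coeff (f x) = z.coeff x := by
  induction z using MonoidAlgebra.induction_linear with
  | zero => rw [map_zero]; rfl
  | add a b ha hb =>
    rw [map_add, MonoidAlgebra.coeff_add, MonoidAlgebra.coeff_add, Finsupp.add_apply,
      Finsupp.add_apply, ha, hb]
  | single g a =>
    have h1 : MonoidAlgebra.mapDomainAlgHom k k (f : H →* H') (MonoidAlgebra.single g a) =
        MonoidAlgebra.single (f g) a := by
      simp
    rw [h1, MonoidAlgebra.coeff_single, MonoidAlgebra.coeff_single, Finsupp.single_apply,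
      Finsupp.single_apply]
    simp only [f.injective.eq_iff]

end Congr

section Card

variable {p : ℕ} [hp : Fact p.Prime] {k : Type u} [Field k] [IsAlgClosed k] [CharP k p]
  {G : Type} [Group G] [Finite G]

omit hp [IsAlgClosed k] [CharP k p] in
/-- the number of simple modules below `e` is invariant under conjugation -/
theorem nT_cj {e : MonoidAlgebra k G} (he : e ∈ Subalgebra.center k (MonoidAlgebra k G)) (g : G)
    (K : Subgroup G) : nT e (cj g K) = nT e K := by
  have := Fintype.ofFinite G
  let f : K ≃* cj g K := K.equivMapOfInjective _ (MulAut.conj g).injective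
  refine numSimpleIn_of_equiv f _ _ ?_
  ext y
  obtain ⟨x, rfl⟩ := f.surjective y
  rw [coeff_mapDomain_equiv, coeff_trunc, coeff_trunc]
  have h1 := (P179C.mem_center_iff _).1 he
  exact (h1 g x).symm

omit hp [IsAlgClosed k] [CharP k p] in
theorem wt_cj {e : MonoidAlgebra k G} (he : e ∈ Subalgebra.center k (MonoidAlgebra k G)) (g : G)
    (K : Subgroup G) : wt e (cj g K) = wt e K := by
  rw [wt, wt, nT_cj he]
  congr 2
  exact (Nat.card_congr (K.equivMapOfInjective _ (MulAut.conj g).injective).toEquiv).symm

/-- **(T)** the Knörr–Robinson sum of a block as a sum over the chains -/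
theorem card_mul_krSum {B : MonoidAlgebra k G} (hB : IsBlock B) :
    (Nat.card G : ℤ) * P179B.krSum p B = Phi p (wt B) ⊤ ⊤ ⊥ := by
  have := Fintype.ofFinite (NChain p G)
  have := Fintype.ofFinite (Quot (NChain.Conj (p := p) (G := G)))
  rw [Phi_top']
  have h1 : (chains p G).filter Nml = insert ∅ ((Finset.univ : Finset (NChain p G)).map
      ⟨Subtype.val, Subtype.val_injective⟩) := by
    ext s
    rw [Finset.mem_filter, mem_chains, Finset.mem_insert, Finset.mem_map]
    constructor
    · rintro ⟨hs, hn⟩
      rcases s.eq_empty_or_nonempty with h | h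
      · exact Or.inl h
      · exact Or.inr ⟨⟨s, (isNormalChain_iff s).2 ⟨⟨hs, hn⟩, h⟩⟩, Finset.mem_univ _, rfl⟩
    · rintro (rfl | ⟨t, -, rfl⟩)
      · exact ⟨P179A.isPChain_empty p, fun Q hQ => absurd hQ (Finset.notMem_empty Q)⟩
      · exact ((isNormalChain_iff _).1 t.2).1
  have hne : (∅ : Finset (Subgroup G)) ∉ ((Finset.univ : Finset (NChain p G)).map
      ⟨Subtype.val, Subtype.val_injective⟩) := by
    rw [Finset.mem_map]
    rintro ⟨t, -, h⟩
    have := t.2.1
    have h2 : (t : Finset (Subgroup G)) = ∅ := h
    rw [h2] at this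
    exact Finset.not_nonempty_empty this
  have hB' := hB.1
  rw [h1, Finset.sum_insert hne, Finset.sum_map, P179B.krSum, mul_add, finsum_eq_sum_of_fintype]
  congr 1
  · rw [Finset.card_empty, pow_zero, one_mul]
    have h2 : stab (∅ : Finset (Subgroup G)) = ⊤ := by simp [stab]
    rw [h2, wt, Subgroup.card_top]
    congr 2
    rw [P179B.numSimpleIn_eq]
    refine numSimpleIn_of_equiv (topEquiv (G := G)) _ _ ?_
    ext y
    obtain ⟨x, rfl⟩ := (topEquiv (G := G)).surjective y
    rw [coeff_mapDomain_equiv, coeff_trunc]
    rfl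
  · rw [← sum_quot (G := G) (R := ℤ) (NChain.Conj (p := p) (G := G)) conj_iff
      (fun s => (-1 : ℤ) ^ s.1.card * (P179B.numSimpleOver (chainStab s.1) B : ℤ)) (fun g s => by
        rw [numSimpleOver_eq hB, numSimpleOver_eq hB, val_smul, card_smul]
        congr 2
        have h3 : stab (g • s.1) = cj g (stab s.1) := by
          ext x
          rw [mem_cj, ← mem_stab_smul g (g⁻¹ * x * g) s.1]
          have : g * (g⁻¹ * x * g) * g⁻¹ = x := by group
          rw [this]
        change nT B (stab (g • s.1)) = nT B (stab s.1)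
        rw [h3, nT_cj hB'])]
    refine Finset.sum_congr rfl fun s _ => ?_
    rw [stabilizer_nCh, numSimpleOver_eq hB]
    change _ = (-1 : ℤ) ^ s.1.card * wt B (stab s.1)
    rw [wt, nT]
    ring

end Card

end P179H854
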