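import Vale.Agent.P179.R2.H854.Ph2

/-!
# Sums over the normal `p`-chains of a wreath product: the formula
-/

namespace P179H854

open Subgroup P179A P179N P179R P179H524 RegularWreathProduct

open scoped Classical

section Orbit

variable {p : ℕ} {G : Type*} [Group G] [Finite G]

/-- conjugacy under `K` -/
def CJ (K a b : Subgroup G) : Prop := ∃ k ∈ K, b = cj k a

omit [Finite G] in
theorem CJ.refl (K a : Subgroup G) : CJ K a a := ⟨1, one_mem K, (cj_one a).symm⟩

omit [Finite G] in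
theorem CJ.symm {K a b : Subgroup G} (h : CJ K a b) : CJ K b a := by
  obtain ⟨k, hk, rfl⟩ := h
  exact ⟨k⁻¹, inv_mem hk, by rw [cj_cj, inv_mul_cancel, cj_one]⟩

omit [Finite G] in
theorem CJ.trans {K a b c : Subgroup G} (h : CJ K a b) (h' : CJ K b c) : CJ K a c := by
  obtain ⟨k, hk, rfl⟩ := h
  obtain ⟨l, hl, rfl⟩ := h'
  exact ⟨l * k, mul_mem hl hk, cj_cj l k a⟩

/-- the `K`-conjugates of `a` -/
noncomputable def orb (K a : Subgroup G) : Finset (Subgroup G) :=
  (Set.toFinite {b : Subgroup G | CJ K a b}).toFinset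

theorem mem_orb {K a b : Subgroup G} : b ∈ orb K a ↔ CJ K a b := by
  simp [orb]

/-- the action of `K` by conjugation -/
def actK (K : Subgroup G) : MulAction K (Subgroup G) where
  smul k a := cj (k : G) a
  one_smul a := cj_one a
  mul_smul k l a := (cj_cj (k : G) l a).symm

/-- orbits and stabilisers -/
theorem card_orb (K a : Subgroup G) :
    (orb K a).card * Nat.card (K ⊓ normalizer (a : Set G) : Subgroup G) = Nat.card K := by
  have := Fintype.ofFinite K
  let _ : MulAction K (Subgroup G) := actK K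
  have := Fintype.ofFinite (MulAction.orbit K a)
  have := Fintype.ofFinite (MulAction.stabilizer K a)
  have h := MulAction.card_orbit_mul_card_stabilizer_eq_card_group K a
  rw [← Nat.card_eq_fintype_card, ← Nat.card_eq_fintype_card, ← Nat.card_eq_fintype_card] at h
  rw [← h]
  congr 1
  · rw [Nat.card_eq_fintype_card, ← Set.toFinset_card]
    congr 1
    ext b
    rw [mem_orb, Set.mem_toFinset, MulAction.mem_orbit_iff]
    constructor
    · rintro ⟨k, hk, rfl⟩
      exact ⟨⟨k, hk⟩, rfl⟩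
    · rintro ⟨k, rfl⟩
      exact ⟨k, k.2, rfl⟩
  · refine Nat.card_congr
      { toFun := fun g => ⟨⟨g.1, g.2.1⟩, ?_⟩
        invFun := fun k => ⟨k.1.1, k.1.2, ?_⟩
        left_inv := fun _ => rfl
        right_inv := fun _ => rfl }
    · rw [MulAction.mem_stabilizer_iff]
      exact mem_normalizer_iff_cj.1 g.2.2
    · have h1 := MulAction.mem_stabilizer_iff.1 k.2
      exact mem_normalizer_iff_cj.2 h1

theorem orb_subset_upe {K x a : Subgroup G} (h : Good p K x) (ha : a ∈ upe p K x) :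
    orb K a ⊆ upe p K x := by
  intro b hb
  obtain ⟨k, hk, rfl⟩ := mem_orb.1 hb
  rw [mem_upe] at ha ⊢
  refine ⟨cj_pgroup.2 ha.1, ?_, ?_⟩
  · have h1 := mem_normalizer_iff_cj.1 (h.2.2.1 hk)
    rw [← h1]
    exact cj_le_cj.2 ha.2.1
  · have h1 := mem_normalizer_iff_cj.1 (le_normalizer (H := K) hk)
    rw [← h1]
    exact cj_le_cj.2 ha.2.2

/-- sums over the tuples of conjugate subgroups -/
theorem sum_conj_tuples {Q : Type} [Fintype Q] (q0 : Q) {K x : Subgroup G} (h : Good p K x)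
    (g : Subgroup G → ℤ) :
    ∑ y ∈ (Fintype.piFinset fun _ : Q => upe p K x).filter (fun y => ∀ q, CJ K (y q0) (y q)),
      g (y q0) = ∑ a ∈ upe p K x, ((orb K a).card : ℤ) ^ (Fintype.card Q - 1) * g a := by
  rw [← Finset.sum_fiberwise_of_maps_to (t := upe p K x) (g := fun y : Q → Subgroup G => y q0)
    (fun y hy => by
      rw [Finset.mem_filter, Fintype.mem_piFinset] at hy
      exact hy.1 q0)]
  refine Finset.sum_congr rfl fun a ha => ?_
  rw [Finset.sum_congr rfl (g := fun _ => g a) (fun y hy => by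
    rw [Finset.mem_filter] at hy
    rw [hy.2]), Finset.sum_const, nsmul_eq_mul]
  congr 1
  have h1 : ((Fintype.piFinset fun _ : Q => upe p K x).filter
      (fun y => ∀ q, CJ K (y q0) (y q))).filter (fun y => y q0 = a) =
      Fintype.piFinset fun q => if q = q0 then {a} else orb K a := by
    ext y
    rw [Finset.mem_filter, Finset.mem_filter, Fintype.mem_piFinset, Fintype.mem_piFinset]
    constructor
    · rintro ⟨⟨_, h3⟩, h4⟩ q
      by_cases hq : q = q0
      · rw [if_pos hq, hq, Finset.mem_singleton, h4]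
      · rw [if_neg hq, mem_orb, ← h4]
        exact h3 q
    · intro h2
      have h4 : y q0 = a := by
        have := h2 q0
        rwa [if_pos rfl, Finset.mem_singleton] at this
      have h3 : ∀ q, CJ K a (y q) := by
        intro q
        by_cases hq : q = q0
        · rw [hq, h4]
          exact CJ.refl K a
        · have := h2 q
          rwa [if_neg hq, mem_orb] at this
      exact ⟨⟨fun q => orb_subset_upe h ha (mem_orb.2 (h3 q)), fun q => h4.symm ▸ h3 q⟩, h4⟩
  rw [h1, Fintype.card_piFinset, ← Finset.mul_prod_erase _ _ (Finset.mem_univ q0), if_pos rfl,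
    Finset.card_singleton, one_mul]
  rw [Finset.prod_congr rfl (g := fun _ => (orb K a).card) (fun q hq => by
    rw [if_neg (Finset.ne_of_mem_erase hq)]), Finset.prod_const, Finset.card_erase_of_mem
    (Finset.mem_univ q0), Finset.card_univ]
  push_cast
  rfl

end Orbit

section Wr

variable {p : ℕ} [hp : Fact p.Prime] {G Q : Type} [Group G] [Finite G] [Group Q] [Fintype Q]

omit [Finite G] in
theorem cj_bR {K : Subgroup G} {w : G ≀ᵣ Q} (hw : w ∈ bR Q K) : cj w (bR Q K) = bR Q K :=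
  mem_normalizer_iff_cj.1 (le_normalizer hw)

theorem cj_base (w : G ≀ᵣ Q) : cj w (incl G Q).range = (incl G Q).range := by
  have := Fintype.ofFinite G
  refine mem_normalizer_iff_cj.1 ?_
  have h : (incl G Q).range.Normal := incl_normal
  rw [normalizer_eq_top_iff.2 h]
  exact mem_top w

omit [Finite G] in
/-- elements of `K ≀ Q` outside of the base group normalising a product subgroup -/
theorem conj_of_right_ne (hQ : Nat.card Q = p) {K : Subgroup G} {y : Q → Subgroup G}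
    {w : G ≀ᵣ Q} (hw : w ∈ bR Q K) (hwy : w ∈ normalizer (PP y : Set (G ≀ᵣ Q)))
    (hr : w.right ≠ 1) (q q' : Q) : CJ K (y q) (y q') := by
  rw [mem_normalizer_PP] at hwy
  have h1 : ∀ q, CJ K (y (w.right⁻¹ * q)) (y q) := fun q => ⟨w.left q, hw q, (hwy q).symm⟩
  have h2 : ∀ (n : ℕ) (q : Q), CJ K (y (w.right⁻¹ ^ n * q)) (y q) := by
    intro n
    induction n with
    | zero => intro q; rw [pow_zero, one_mul]; exact CJ.refl K _
    | succ n ih =>
      intro q
      rw [pow_succ', mul_assoc]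
      exact (h1 _).trans (ih q)
  have h3 : w.right⁻¹ ≠ 1 := fun h => hr (inv_eq_one.1 h)
  have h4 : Subgroup.zpowers (w.right⁻¹) = ⊤ :=
    zpowers_eq_top_of_prime_card (p := p) hQ h3
  have h5 : q * q'⁻¹ ∈ Subgroup.zpowers (w.right⁻¹) := h4 ▸ mem_top _
  rw [← mem_powers_iff_mem_zpowers] at h5
  obtain ⟨n, hn⟩ := h5
  have h6 := h2 n q'
  have h7 : w.right⁻¹ ^ n = q * q'⁻¹ := hn
  rw [h7, inv_mul_cancel_right] at h6
  exact h6

/-- **(W)** the formula for `K ≀ Q`, chains in the base group -/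
theorem Phi_wr (hQ : Nat.card Q = p) (φ : Subgroup G → ℤ) (φ' : Subgroup (G ≀ᵣ Q) → ℤ)
    (h0 : ∀ g K, φ (cj g K) = φ K) (h0' : ∀ g K, φ' (cj g K) = φ' K)
    (h1 : ∀ K x : Q → Subgroup G, (∀ q, Good p (K q) (x q)) → φ' (PP K) = ∏ q, φ (K q))
    (h2 : ∀ K x : Subgroup G, Good p K x →
      φ' (bR Q K) = φ K ^ p + ((p : ℤ) - 1) * (Nat.card K : ℤ) ^ (p - 1) * φ K) :
    ∀ (n : ℕ) (K x : Subgroup G), Nat.card (G ≀ᵣ Q) - Nat.card (PP fun _ : Q => x) = n →
      Good p K x →
      Phi p φ' (incl G Q).range (bR Q K) (PP fun _ => x) =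
        Phi p φ ⊤ K x ^ p + ((p : ℤ) - 1) * (Nat.card K : ℤ) ^ (p - 1) * Phi p φ ⊤ K x := by
  intro n
  induction n using Nat.strong_induction_on with
  | _ n ih =>
  intro K x hn hg
  have hcQ : Fintype.card Q = p := by rw [← Nat.card_eq_fintype_card, hQ]
  set f : Subgroup G → ℤ := fun a => Phi p φ ⊤ (K ⊓ normalizer (a : Set G)) a with hf
  set U := Fintype.piFinset fun _ : Q => upe p K x with hU
  have hxU : (fun _ : Q => x) ∈ U := by
    rw [hU, Fintype.mem_piFinset]
    exact fun q => mem_upe.2 ⟨hg.1, le_rfl, hg.2.1⟩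
  have hfx : f x = Phi p φ ⊤ K x := by rw [hf]; beta_reduce; rw [inf_eq_left.2 hg.2.2.1]
  set ε : Subgroup G → ℤ := fun a => ((p : ℤ) - 1) *
    (Nat.card (K ⊓ normalizer (a : Set G) : Subgroup G) : ℤ) ^ (p - 1) * f a with hε
  -- conjugation invariance of `f`
  have hfc : ∀ a ∈ upe p K x, ∀ b, CJ K a b → f b = f a := by
    rintro a ha b ⟨k, hk, rfl⟩
    rw [hf]
    beta_reduce
    have hKk : cj k K = K := mem_normalizer_iff_cj.1 (le_normalizer (H := K) hk)
    have h3 : K ⊓ normalizer (cj k a : Set G) = cj k (K ⊓ normalizer (a : Set G)) := by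
      rw [cj_inf, cj_normalizer, hKk]
    rw [h3]
    have htop : cj k (⊤ : Subgroup G) = ⊤ := by
      rw [eq_top_iff]
      intro z _
      rw [mem_cj]
      exact mem_top _
    exact Phi_cj φ h0 ⊤ k htop _ a
  -- the terms
  have key : ∀ y ∈ U.erase (fun _ => x), Phi p φ' (incl G Q).range
      (bR Q K ⊓ normalizer (PP y : Set (G ≀ᵣ Q))) (PP y) =
      ∏ q, f (y q) + if ∀ q, CJ K (y 1) (y q) then ε (y 1) else 0 := by
    intro y hy
    rw [Finset.mem_erase, hU, Fintype.mem_piFinset] at hy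
    obtain ⟨hyne, hy⟩ := hy
    by_cases hc : ∀ q, CJ K (y 1) (y q)
    · rw [if_pos hc]
      have hprod : ∏ q, f (y q) = f (y 1) ^ p := by
        rw [Finset.prod_congr rfl fun q _ => hfc (y 1) (hy 1) (y q) (hc q), Finset.prod_const,
          Finset.card_univ, hcQ]
      choose c hcK hc' using hc
      have hw : incl G Q c ∈ bR Q K := fun q => hcK q
      have e1 : PP y = cj (incl G Q c) (PP fun _ => y 1) := by
        rw [cj_PP]
        congr 1
        funext q
        exact hc' q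
      have e2 : bR Q K ⊓ normalizer (PP y : Set (G ≀ᵣ Q)) =
          cj (incl G Q c) (bR Q (K ⊓ normalizer (y 1 : Set G))) := by
        rw [e1, cj_normalizer, ← bR_inf_normalizer, cj_inf, cj_bR hw]
      rw [e2, e1, Phi_cj φ' h0' _ _ (cj_base _), hprod]
      have hne : x ≠ y 1 := by
        rintro h
        apply hyne
        funext q
        have h3 := hc' q
        have h4 := mem_normalizer_iff_cj.1 (hg.2.2.1 (hcK q))
        rw [← h, h4] at h3
        exact h3
      have h3 := mem_upe.1 (hy 1)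
      have hlt : (PP fun _ : Q => x) < PP fun _ => y 1 :=
        PP_lt_PP (fun _ => h3.2.1) (fun h => hne (congrFun h 1))
      have h4 : Nat.card (PP fun _ : Q => x) < Nat.card (PP fun _ : Q => y 1) :=
        Set.Finite.card_lt_card (Set.toFinite _) hlt
      have h5 : Nat.card (PP fun _ : Q => y 1) ≤ Nat.card (G ≀ᵣ Q) :=
        Subgroup.card_le_card_group _
      exact ih _ (by omega) _ (y 1) rfl (hg.next' (hy 1))
    · rw [if_neg hc, add_zero]
      have e1 : bR Q K ⊓ normalizer (PP y : Set (G ≀ᵣ Q)) =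
          PP fun q => K ⊓ normalizer (y q : Set G) := by
        rw [← PP_inf_normalizer, ← bR_inf_base]
        refine le_antisymm (le_inf (le_inf inf_le_left ?_) inf_le_right)
          (inf_le_inf_right _ inf_le_left)
        intro w hw
        rw [mem_incl_range]
        by_contra hr
        exact hc fun q => conj_of_right_ne hQ hw.1 hw.2 hr 1 q
      rw [e1]
      exact Phi_prod φ φ' h1 _ _ y rfl fun q => hg.next' (hy q)
  rw [Phi_base φ' (bR Q K) (fun _ => K) (fun _ => x) (bR_inf_base K), Finset.sum_congr rfl key,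
    Finset.sum_add_distrib, h2 K x hg]
  have hA : ∑ y ∈ U.erase (fun _ => x), ∏ q, f (y q) = φ K ^ p - Phi p φ ⊤ K x ^ p := by
    have h3 := Finset.add_sum_erase U (fun y => ∏ q, f (y q)) hxU
    have h4 : ∑ y ∈ U, ∏ q, f (y q) = φ K ^ p := by
      have h5 := Finset.prod_univ_sum (fun _ : Q => upe p K x) (fun _ a => f a)
      rw [hU, ← h5, Finset.prod_const, Finset.card_univ, hcQ, ← phi_eq_sum φ hg]
    have h6 : ∏ q : Q, f ((fun _ => x) q) = Phi p φ ⊤ K x ^ p := by
      rw [Finset.prod_const, Finset.card_univ, hcQ, hfx]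
    rw [h4] at h3
    beta_reduce at h3
    beta_reduce at h6
    rw [h6] at h3
    linarith
  have hB : ∑ y ∈ U.erase (fun _ => x), (if ∀ q, CJ K (y 1) (y q) then ε (y 1) else 0) =
      ((p : ℤ) - 1) * (Nat.card K : ℤ) ^ (p - 1) * (φ K - Phi p φ ⊤ K x) := by
    have h3 := Finset.add_sum_erase U (fun y => if ∀ q, CJ K (y 1) (y q) then ε (y 1) else 0) hxU
    have h4 : ∑ y ∈ U, (if ∀ q, CJ K (y 1) (y q) then ε (y 1) else 0) =
        ((p : ℤ) - 1) * (Nat.card K : ℤ) ^ (p - 1) * φ K := by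
      rw [← Finset.sum_filter, hU, sum_conj_tuples 1 hg ε, hcQ, phi_eq_sum φ hg, Finset.mul_sum]
      refine Finset.sum_congr rfl fun a _ => ?_
      rw [hε]
      beta_reduce
      have h5 := card_orb K a
      have h6 : (Nat.card K : ℤ) = ((orb K a).card : ℤ) *
          (Nat.card (K ⊓ normalizer (a : Set G) : Subgroup G) : ℤ) := by
        exact_mod_cast h5.symm
      rw [h6, mul_pow]
      ring
    have h7 : (if ∀ _ : Q, CJ K x x then ε x else 0) =
        ((p : ℤ) - 1) * (Nat.card K : ℤ) ^ (p - 1) * Phi p φ ⊤ K x := by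
      rw [if_pos fun _ => CJ.refl K x, hε]
      beta_reduce
      rw [hfx, inf_eq_left.2 hg.2.2.1]
    beta_reduce at h3
    rw [h4, h7] at h3
    linarith
  rw [hA, hB]
  ring

end Wr

section Compl

variable {p : ℕ} [hp : Fact p.Prime] {G Q : Type} [Group G] [Group Q]

/-- the constant functions with values in `K`, together with `Q` -/
def dD (Q : Type) [Group Q] (K : Subgroup G) : Subgroup (G ≀ᵣ Q) where
  carrier := {w | ∃ k ∈ K, ∀ q, w.left q = k}
  mul_mem' := by
    rintro a b ⟨k, hk, ha⟩ ⟨l, hl, hb⟩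
    exact ⟨k * l, mul_mem hk hl, fun q => by rw [mul_left', ha, hb]⟩
  one_mem' := ⟨1, one_mem K, fun _ => rfl⟩
  inv_mem' := by
    rintro a ⟨k, hk, ha⟩
    exact ⟨k⁻¹, inv_mem hk, fun q => by rw [inv_left', ha]⟩

theorem mem_dD {K : Subgroup G} {w : G ≀ᵣ Q} : w ∈ dD Q K ↔ ∃ k ∈ K, ∀ q, w.left q = k := Iff.rfl

theorem mem_dD' {K : Subgroup G} {w : G ≀ᵣ Q} :
    w ∈ dD Q K ↔ w.left 1 ∈ K ∧ ∀ q, w.left q = w.left 1 := by
  rw [mem_dD]
  constructor
  · rintro ⟨k, hk, h⟩
    exact ⟨(h 1).symm ▸ hk, fun q => (h q).trans (h 1).symm⟩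
  · rintro ⟨h1, h2⟩
    exact ⟨_, h1, h2⟩

theorem dD_le_dD {K K' : Subgroup G} : dD Q K ≤ dD Q K' ↔ K ≤ K' := by
  constructor
  · intro h k hk
    have h1 : dg G Q k ∈ dD Q K := ⟨k, hk, fun _ => rfl⟩
    exact (mem_dD'.1 (h h1)).1
  · intro h w hw
    rw [mem_dD'] at hw ⊢
    exact ⟨h hw.1, hw.2⟩

theorem dD_pgroup (hQ : Nat.card Q = p) {K : Subgroup G} :
    IsPGroup p (dD Q K) ↔ IsPGroup p K := by
  constructor
  · intro h a
    have h1 : dg G Q (a : G) ∈ dD Q K := ⟨a, a.2, fun _ => rfl⟩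
    obtain ⟨n, hn⟩ := h ⟨_, h1⟩
    refine ⟨n, Subtype.ext ?_⟩
    have h2 : dg G Q (a : G) ^ p ^ n = 1 := congrArg Subtype.val hn
    rw [← map_pow] at h2
    have h3 := congrArg (fun w : G ≀ᵣ Q => w.left 1) h2
    exact h3
  · intro h w
    obtain ⟨k, hk, hw⟩ := w.2
    obtain ⟨n, hn⟩ := h ⟨k, hk⟩
    have hn' : k ^ p ^ n = 1 := congrArg Subtype.val hn
    have h1 : ∀ m : ℕ, ∀ q, ((w : G ≀ᵣ Q) ^ m).left q = k ^ m := by
      intro m
      induction m with
      | zero => intro q; rw [pow_zero, pow_zero]; rfl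
      | succ m ih => intro q; rw [pow_succ, mul_left', ih, hw, pow_succ]
    have h2 : ∀ m : ℕ, ((w : G ≀ᵣ Q) ^ m).right = (w : G ≀ᵣ Q).right ^ m :=
      fun m => map_pow (rightHom : G ≀ᵣ Q →* Q) _ _
    refine ⟨n + 1, Subtype.ext ?_⟩
    change (w : G ≀ᵣ Q) ^ p ^ (n + 1) = 1
    ext q
    · rw [h1, pow_succ, pow_mul, hn', one_pow]
      rfl
    · rw [h2, pow_succ', pow_mul, ← hQ, pow_card_eq_one', one_pow]
      rfl

theorem dD_inf_normalizer (K y : Subgroup G) :
    dD Q K ⊓ normalizer (dD Q y : Set (G ≀ᵣ Q)) = dD Q (K ⊓ normalizer (y : Set G)) := by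
  ext w
  rw [mem_inf]
  constructor
  · rintro ⟨hw, hn⟩
    rw [mem_dD'] at hw ⊢
    refine ⟨mem_inf.2 ⟨hw.1, ?_⟩, hw.2⟩
    rw [mem_normalizer_iff]
    intro a
    have h1 := mem_normalizer_iff.1 hn (dg G Q a)
    have h2 : ∀ a : G, dg G Q a ∈ dD Q y ↔ a ∈ y := fun a => by
      rw [mem_dD']
      exact ⟨fun h => h.1, fun h => ⟨h, fun _ => rfl⟩⟩
    have h3 : w * dg G Q a * w⁻¹ = dg G Q (w.left 1 * a * (w.left 1)⁻¹) := by
      ext q
      · rw [conj_left', dg_left, dg_left, hw.2 q, hw.2 (w.right * _)]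
      · simp
    rw [h2, h3, h2] at h1
    exact h1
  · intro hw
    rw [mem_dD', mem_inf] at hw
    obtain ⟨⟨hw1, hw2⟩, hw3⟩ := hw
    refine ⟨mem_dD'.2 ⟨hw1, hw3⟩, ?_⟩
    rw [mem_normalizer_iff]
    intro u
    have key : ∀ q, (w * u * w⁻¹).left q = w.left 1 * u.left (w.right⁻¹ * q) * (w.left 1)⁻¹ := by
      intro q
      rw [conj_left', hw3 q, hw3 (w.right * _)]
    constructor
    · rintro ⟨k, hk, hu⟩
      exact ⟨w.left 1 * k * (w.left 1)⁻¹, (mem_normalizer_iff.1 hw2 k).1 hk, fun q => by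
        rw [key, hu]⟩
    · rintro ⟨k, hk, hu⟩
      have h1 : ∀ q, u.left q = (w.left 1)⁻¹ * k * w.left 1 := by
        intro q
        have h2 := hu (w.right * q)
        rw [key, inv_mul_cancel_left] at h2
        rw [← h2]
        group
      refine ⟨_, ?_, h1⟩
      have h2 := (mem_normalizer_iff.1 (inv_mem hw2) k).1 hk
      rwa [inv_inv] at h2

/-- the complements of the base group -/
theorem exists_cj (hQ : Nat.card Q = p) {z : Subgroup (G ≀ᵣ Q)} (hz1 : ¬ z ≤ (incl G Q).range)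
    (hz2 : z ⊓ (incl G Q).range = ⊥) : ∃ g : G ≀ᵣ Q, z = cj g (dD Q (⊥ : Subgroup G)) := by
  have hQf : Finite Q := Nat.finite_of_card_ne_zero (by rw [hQ]; exact hp.out.ne_zero)
  -- the projection to `Q` is bijective on `z`
  let r : z →* Q := (rightHom : G ≀ᵣ Q →* Q).comp z.subtype
  have hr : ∀ w : z, r w = (w : G ≀ᵣ Q).right := fun _ => rfl
  have hinj : Function.Injective r := by
    rw [injective_iff_map_eq_one]
    intro w hw
    have h1 : (w : G ≀ᵣ Q) ∈ z ⊓ (incl G Q).range := ⟨w.2, (mem_incl_range _).2 hw⟩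
    rw [hz2, mem_bot] at h1
    exact Subtype.ext h1
  have hsurj : Function.Surjective r := by
    rw [← MonoidHom.range_eq_top]
    have : Fact (Nat.card Q).Prime := ⟨by rw [hQ]; exact hp.out⟩
    rcases Subgroup.eq_bot_or_eq_top_of_prime_card r.range with h | h
    · exfalso
      apply hz1
      intro w hw
      rw [mem_incl_range]
      have h1 : r ⟨w, hw⟩ ∈ r.range := ⟨_, rfl⟩
      rw [h, mem_bot] at h1
      exact h1
    · exact h
  choose s hs using hsurj
  have hmul : ∀ a b, s (a * b) = s a * s b := by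
    intro a b
    apply hinj
    rw [map_mul, hs, hs, hs]
  have hright : ∀ q, ((s q : z) : G ≀ᵣ Q).right = q := fun q => hs q
  let h : Q → G := fun t => ((s t : z) : G ≀ᵣ Q).left t
  have hh : ∀ q t, ((s q : z) : G ≀ᵣ Q).left t = h t * (h (q⁻¹ * t))⁻¹ := by
    intro q t
    have h1 := congrArg (fun w : z => (w : G ≀ᵣ Q).left t) (hmul q (q⁻¹ * t))
    beta_reduce at h1
    rw [mul_inv_cancel_left] at h1
    have h2 : ((s q * s (q⁻¹ * t) : z) : G ≀ᵣ Q).left t =
        ((s q : z) : G ≀ᵣ Q).left t * ((s (q⁻¹ * t) : z) : G ≀ᵣ Q).left (q⁻¹ * t) := by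
      change (((s q : z) : G ≀ᵣ Q) * ((s (q⁻¹ * t) : z) : G ≀ᵣ Q)).left t = _
      rw [mul_left', hright]
    rw [h2] at h1
    exact eq_mul_inv_of_mul_eq h1.symm
  refine ⟨incl G Q h, ?_⟩
  have hconj : ∀ u : G ≀ᵣ Q, ∀ q, ((incl G Q h)⁻¹ * u * incl G Q h).left q =
      (h q)⁻¹ * u.left q * h (u.right⁻¹ * q) := by
    intro u q
    change (h ((1 : Q) * q))⁻¹ * u.left (((1 : Q)⁻¹)⁻¹ * q) * h (((1 : Q)⁻¹ * u.right)⁻¹ * q) = _
    simp
  ext u
  rw [mem_cj, mem_dD]
  constructor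
  · intro hu
    have h1 : s u.right = ⟨u, hu⟩ := hinj (by rw [hs]; rfl)
    refine ⟨1, mem_bot.2 rfl, fun q => ?_⟩
    rw [hconj]
    have h2 := hh u.right q
    rw [h1] at h2
    change u.left q = _ at h2
    rw [h2]
    group
  · rintro ⟨k, hk, hu⟩
    rw [mem_bot] at hk
    subst hk
    have h1 : u = s u.right := by
      ext q
      · have h2 := hu q
        rw [hconj] at h2
        rw [hh]
        rw [mul_assoc, inv_mul_eq_one] at h2
        rw [h2]
        group
      · exact (hright _).symm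
    rw [h1]
    exact (s u.right).2

omit hp in
theorem normalizer_dD_bot : normalizer (dD Q (⊥ : Subgroup G) : Set (G ≀ᵣ Q)) = dD Q ⊤ := by
  have h1 : dD Q (⊥ : Subgroup G) = bR Q ⊥ := by
    ext w
    rw [mem_dD, mem_bR]
    constructor
    · rintro ⟨k, hk, h⟩ q
      rw [h q]
      exact hk
    · intro h
      exact ⟨1, one_mem _, fun q => mem_bot.1 (h q)⟩
  ext w
  rw [h1, mem_norm_bR, mem_dD']
  constructor
  · intro h
    refine ⟨mem_top _, fun q => ?_⟩
    have h2 := mem_bot.1 (h q).2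
    rw [inv_mul_eq_one] at h2
    exact h2.symm
  · rintro ⟨-, h⟩ q
    refine ⟨?_, ?_⟩
    · rw [mem_normalizer_iff]
      intro a
      rw [mem_bot, mem_bot, conj_eq_one_iff]
    · rw [mem_bot, inv_mul_eq_one]
      exact (h q).symm

omit hp in
theorem card_dD_top : Nat.card (dD Q (⊤ : Subgroup G)) = Nat.card G * Nat.card Q := by
  rw [← Nat.card_prod]
  refine Nat.card_congr
    { toFun := fun w => (w.1.left 1, w.1.right)
      invFun := fun t => ⟨⟨fun _ => t.1, t.2⟩, ⟨t.1, mem_top _, fun _ => rfl⟩⟩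
      left_inv := fun w => ?_
      right_inv := fun _ => rfl }
  apply Subtype.ext
  have h := (mem_dD'.1 w.2).2
  ext q
  · exact (h q).symm
  · rfl

omit hp in
theorem card_wr [Finite Q] : Nat.card (G ≀ᵣ Q) = Nat.card G ^ Nat.card Q * Nat.card Q := by
  have h1 : Nat.card (Q → G) = Nat.card G ^ Nat.card Q := by
    rw [Nat.card_fun]
  rw [← h1, ← Nat.card_prod]
  exact Nat.card_congr
    { toFun := fun w => (w.left, w.right)
      invFun := fun t => ⟨t.1, t.2⟩
      left_inv := fun _ => rfl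
      right_inv := fun _ => rfl }

theorem outs_eq [Finite G] [Fintype Q] (hQ : Nat.card Q = p) :
    outs p (incl G Q).range ⊤ ⊥ = orb ⊤ (dD Q (⊥ : Subgroup G)) := by
  ext z
  rw [mem_outs, mem_orb]
  constructor
  · rintro ⟨-, -, h1, h2⟩
    obtain ⟨g, hg⟩ := exists_cj hQ h1 h2
    exact ⟨g, mem_top _, hg⟩
  · rintro ⟨g, -, rfl⟩
    refine ⟨cj_pgroup.2 ((dD_pgroup hQ).2 IsPGroup.of_bot), le_top, ?_, ?_⟩
    · intro h
      rw [← cj_base g, cj_le_cj] at h
      have h1 : Nontrivial Q := by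
        rw [← Finite.one_lt_card_iff_nontrivial, hQ]
        exact hp.out.one_lt
      obtain ⟨q, hq⟩ := exists_ne (1 : Q)
      have h2 : (⟨1, q⟩ : G ≀ᵣ Q) ∈ dD Q (⊥ : Subgroup G) := ⟨1, one_mem _, fun _ => rfl⟩
      exact hq ((mem_incl_range _).1 (h h2))
    · rw [← cj_base g, ← cj_inf]
      have h1 : dD Q (⊥ : Subgroup G) ⊓ (incl G Q).range = ⊥ := by
        rw [eq_bot_iff]
        intro w hw
        rw [mem_inf, mem_incl_range] at hw
        obtain ⟨⟨k, hk, h2⟩, h3⟩ := hw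
        rw [mem_bot] at hk ⊢
        subst hk
        ext q
        · exact h2 q
        · exact h3
      rw [h1]
      unfold cj
      exact Subgroup.map_bot _

theorem card_outs [Finite G] [Fintype Q] (hQ : Nat.card Q = p) :
    (orb (⊤ : Subgroup (G ≀ᵣ Q)) (dD Q (⊥ : Subgroup G))).card = Nat.card G ^ (p - 1) := by
  have h1 := card_orb (⊤ : Subgroup (G ≀ᵣ Q)) (dD Q (⊥ : Subgroup G))
  rw [top_inf_eq, normalizer_dD_bot, card_dD_top, Subgroup.card_top, card_wr, hQ] at h1
  have hp0 : 0 < p := hp.out.pos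
  have hG : 0 < Nat.card G := Nat.card_pos
  have h2 : Nat.card G ^ p * p = Nat.card G ^ (p - 1) * (Nat.card G * p) := by
    rw [← mul_assoc, ← pow_succ, Nat.sub_add_cancel hp0]
  rw [h2] at h1
  exact Nat.eq_of_mul_eq_mul_right (Nat.mul_pos hG hp0) h1

/-- **The formula for the wreath product with a group of order `p`.** -/
theorem Phi_wreath [Finite G] [Fintype Q] (hQ : Nat.card Q = p) (φ : Subgroup G → ℤ)
    (φ' : Subgroup (G ≀ᵣ Q) → ℤ)
    (h0 : ∀ g K, φ (cj g K) = φ K) (h0' : ∀ g K, φ' (cj g K) = φ' K)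
    (h1 : ∀ K x : Q → Subgroup G, (∀ q, Good p (K q) (x q)) → φ' (PP K) = ∏ q, φ (K q))
    (h2 : ∀ K x : Subgroup G, Good p K x →
      φ' (bR Q K) = φ K ^ p + ((p : ℤ) - 1) * (Nat.card K : ℤ) ^ (p - 1) * φ K)
    (h3 : ∀ K x : Subgroup G, Good p K x → φ' (dD Q K) = p * φ K) :
    Phi p φ' ⊤ ⊤ ⊥ = Phi p φ ⊤ ⊤ ⊥ ^ p - (Nat.card G : ℤ) ^ (p - 1) * Phi p φ ⊤ ⊤ ⊥ := by
  have hgood : Good p (⊤ : Subgroup G) ⊥ := by
    refine ⟨IsPGroup.of_bot, bot_le, ?_, le_top⟩
    intro g _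
    rw [mem_normalizer_iff]
    intro a
    rw [mem_bot, mem_bot, conj_eq_one_iff]
  have : (incl G Q).range.Normal := by
    have := Fintype.ofFinite G
    exact incl_normal
  rw [Phi_elim φ' (incl G Q).range _ ⊤ ⊥ le_rfl bot_le, outs_eq hQ]
  have hA : Phi p φ' (incl G Q).range ⊤ ⊥ =
      Phi p φ ⊤ ⊤ ⊥ ^ p + ((p : ℤ) - 1) * (Nat.card G : ℤ) ^ (p - 1) * Phi p φ ⊤ ⊤ ⊥ := by
    have e1 : bR Q (⊤ : Subgroup G) = ⊤ := by
      rw [eq_top_iff]
      exact fun w _ q => mem_top _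
    have e2 : (PP fun _ : Q => (⊥ : Subgroup G)) = ⊥ := by
      rw [eq_bot_iff]
      intro w hw
      rw [mem_PP] at hw
      rw [mem_bot]
      ext q
      · exact mem_bot.1 (hw.2 q)
      · exact hw.1
    have h4 := Phi_wr hQ φ φ' h0 h0' h1 h2 _ ⊤ ⊥ rfl hgood
    rwa [e1, e2, Subgroup.card_top] at h4
  have hB : ∑ z ∈ orb (⊤ : Subgroup (G ≀ᵣ Q)) (dD Q (⊥ : Subgroup G)),
      Phi p φ' ⊤ (⊤ ⊓ normalizer (z : Set (G ≀ᵣ Q))) z =
      (Nat.card G : ℤ) ^ (p - 1) * (p * Phi p φ ⊤ ⊤ ⊥) := by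
    have h4 : Phi p φ' ⊤ (dD Q ⊤) (dD Q (⊥ : Subgroup G)) = p * Phi p φ ⊤ ⊤ ⊥ := by
      refine Phi_transport (p := p) (dD Q) ⊤ ⊤ φ φ' p (fun _ _ => dD_le_dD)
        (fun _ => dD_pgroup hQ) (fun _ => ⟨fun _ => le_top, fun _ => le_top⟩) ?_
        dD_inf_normalizer (Good p) (fun K x y h hy h5 h6 => h.next hy h5 h6) h3 _ ⊤ ⊥ le_rfl hgood
      intro K x y' hxy hyK
      refine ⟨y'.comap (dg G Q), ?_⟩
      ext w
      have h7 : ∀ q : Q, (⟨1, q⟩ : G ≀ᵣ Q) ∈ y' := fun q => hxy ⟨1, one_mem _, fun _ => rfl⟩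
      have h8 : ∀ k : G, (∀ q, w.left q = k) → w = dg G Q k * ⟨1, w.right⟩ := by
        intro k hk
        ext q
        · rw [mul_left', dg_left, hk]
          simp
        · simp
      constructor
      · rintro ⟨k, hk, hw⟩
        rw [h8 k hw]
        exact mul_mem hk (h7 _)
      · intro hw
        obtain ⟨k, -, hwk⟩ := hyK hw
        refine ⟨k, ?_, hwk⟩
        have h9 := mul_mem hw (inv_mem (h7 w.right))
        have h10 := h8 k hwk
        rw [mem_comap]
        have h11 : dg G Q k = w * (⟨1, w.right⟩ : G ≀ᵣ Q)⁻¹ := by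
          conv_rhs => rw [h10]
          simp
        rw [h11]
        exact h9
    rw [Finset.sum_congr rfl (g := fun _ => (p : ℤ) * Phi p φ ⊤ ⊤ ⊥) (fun z hz => by
      obtain ⟨g, -, rfl⟩ := mem_orb.1 hz
      have htop : cj g (⊤ : Subgroup (G ≀ᵣ Q)) = ⊤ := by
        rw [eq_top_iff]
        intro z _
        rw [mem_cj]
        exact mem_top _
      rw [top_inf_eq, cj_normalizer, Phi_cj φ' h0' ⊤ g htop, normalizer_dD_bot, h4]),
      Finset.sum_const, nsmul_eq_mul, card_outs hQ]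
    push_cast
    rfl
  rw [hA, hB]
  ring

end Compl

section Top

variable {p : ℕ} [hp : Fact p.Prime] {G : Type*} [Group G] [Finite G]

omit hp in
theorem Phi_top' (φ : Subgroup G → ℤ) : Phi p φ ⊤ ⊤ ⊥ =
    ∑ s ∈ (chains p G).filter Nml, (-1 : ℤ) ^ s.card * φ (stab s) := by
  unfold Phi
  have h1 : above p (⊤ ⊓ ⊤ : Subgroup G) ⊥ = (chains p G).filter Nml := by
    ext s
    rw [mem_above, Finset.mem_filter, mem_chains]
    constructor
    · rintro ⟨h2, h3, -⟩
      exact ⟨h2, h3⟩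
    · rintro ⟨h2, h3⟩
      exact ⟨h2, h3, fun Q hQ => ⟨bot_lt_iff_ne_bot.2 (h2.1 Q hQ).2, by simp⟩⟩
  rw [h1]
  exact Finset.sum_congr rfl fun s _ => by rw [top_inf_eq]

/-- the sum over all chains -/
theorem Phi_top (φ : Subgroup G → ℤ) : Phi p φ ⊤ ⊤ ⊥ =
    ∑ s ∈ chains p G, (-1 : ℤ) ^ s.card * φ (stab s) := by
  rw [Phi_top', sum_normal (p := p) (fun s => φ (stab s)) fun s t h => by rw [h]]

end Top

end P179H854
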