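import Mathlib

/-!
# Euclid's algorithm on commuting pairs acting on an abelian `p`-group
-/

namespace P179H854

open Subgroup

/-- a finite commutative group `K` acting on a finite commutative group `D` with an invariant proper
subgroup `P`: a subgroup `N` with cyclic quotient all of whose elements fix a coset of `P`
outside `P` -/
theorem exists_cyclic_quot_rel {K D : Type*} [CommGroup K] [Finite K] [CommGroup D] [Finite D]
    (act : K →* MulAut D) (P : Subgroup D) (hP : ∀ k, ∀ d ∈ P, act k d ∈ P) (hne : P ≠ ⊤) :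
    ∃ N : Subgroup K, (∀ k ∈ N, ∃ d : D, d ∉ P ∧ act k d * d⁻¹ ∈ P) ∧
      ∃ c : K, ∀ k : K, ∃ i : ℕ, k⁻¹ * c ^ i ∈ N := by
  classical
  let V := Additive D
  let ρ : K →* AddMonoid.End V :=
    { toFun := fun k => MonoidHom.toAdditive (act k).toMonoidHom
      map_one' := by
        ext v
        rw [map_one]
        rfl
      map_mul' := fun a b => by
        ext v
        rw [map_mul]
        rfl }
  let R := MonoidAlgebra ℤ K
  let φ : R →ₐ[ℤ] AddMonoid.End V := MonoidAlgebra.lift ℤ (AddMonoid.End V) K ρ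
  let _ : Module R V := Module.compHom V (φ : R →+* AddMonoid.End V)
  have hsm : ∀ (r : R) (v : V), r • v = φ r v := fun _ _ => rfl
  have : Finite V := inferInstanceAs (Finite D)
  -- `P` as a submodule
  have hPφ : ∀ (r : R) (v : V), Additive.toMul v ∈ P → Additive.toMul (φ r v) ∈ P := by
    intro r v hv
    induction r using MonoidAlgebra.induction_on with
    | of k =>
      have h6 : φ (MonoidAlgebra.of ℤ K k) = ρ k := MonoidAlgebra.lift_of _ _
      rw [h6]
      exact hP k _ hv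
    | add a b ha hb =>
      rw [map_add]
      exact mul_mem ha hb
    | smul n a ha =>
      rw [map_zsmul]
      exact zpow_mem ha n
  let P' : Submodule R V :=
    { carrier := {v | Additive.toMul v ∈ P}
      add_mem' := fun {a b} ha hb => P.mul_mem ha hb
      zero_mem' := P.one_mem
      smul_mem' := fun r v hv => hPφ r v hv }
  have hP'mem : ∀ v : V, v ∈ P' ↔ Additive.toMul v ∈ P := fun _ => Iff.rfl
  have hP'ne : P' ≠ ⊤ := by
    intro h
    apply hne
    rw [eq_top_iff]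
    intro d _
    have : (Additive.ofMul d : V) ∈ P' := by
      rw [h]
      exact Submodule.mem_top
    exact this
  have : Nontrivial (V ⧸ P') := Submodule.Quotient.nontrivial_iff.2 hP'ne
  have : Finite (V ⧸ P') := Finite.of_surjective _ (Submodule.Quotient.mk_surjective P')
  have : Finite (Submodule R (V ⧸ P')) :=
    Finite.of_injective (fun W : Submodule R (V ⧸ P') => (W : Set (V ⧸ P')))
      SetLike.coe_injective
  obtain ⟨W, hW, -⟩ :=
    (eq_bot_or_exists_atom_le (⊤ : Submodule R (V ⧸ P'))).resolve_left top_ne_bot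
  have hWs : IsSimpleModule R W := isSimpleModule_iff_isAtom.2 hW
  have hmax : (Module.annihilator R W).IsMaximal := IsSimpleModule.annihilator_isMaximal
  let I := Module.annihilator R W
  have hdom : IsDomain (R ⧸ I) := Ideal.Quotient.isDomain I
  let θ : K →* R ⧸ I := ((Ideal.Quotient.mk I : R →+* R ⧸ I) : R →* R ⧸ I).comp
    (MonoidAlgebra.of ℤ K)
  let θu : K →* (R ⧸ I)ˣ := θ.toHomUnits
  have hfin : Finite θu.range := Finite.of_surjective _ θu.rangeRestrict_surjective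
  obtain ⟨⟨_, c, rfl⟩, hc⟩ := IsCyclic.exists_generator (α := θu.range)
  obtain ⟨w, hw, hw0⟩ := Submodule.exists_mem_ne_zero_of_ne_bot hW.1
  refine ⟨θu.ker, fun n h1 => ?_, c, fun k => ?_⟩
  · rw [MonoidHom.mem_ker] at h1
    have h2 : θ n = 1 := by
      have := congrArg Units.val h1
      simpa [θu] using this
    have h3 : MonoidAlgebra.of ℤ K n - 1 ∈ I := by
      rw [← Ideal.Quotient.eq, map_one]
      exact h2
    have h4 : (MonoidAlgebra.of ℤ K n - 1) • (⟨w, hw⟩ : W) = 0 := Module.mem_annihilator.1 h3 _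
    have h5 : (MonoidAlgebra.of ℤ K n - 1) • w = 0 := congrArg Subtype.val h4
    obtain ⟨v, rfl⟩ := Submodule.Quotient.mk_surjective P' w
    refine ⟨Additive.toMul v, fun h => hw0 ?_, ?_⟩
    · rw [Submodule.Quotient.mk_eq_zero]
      exact h
    · rw [← Submodule.Quotient.mk_smul, Submodule.Quotient.mk_eq_zero, sub_smul, one_smul,
        hsm] at h5
      have h6 : φ (MonoidAlgebra.of ℤ K n) = ρ n := MonoidAlgebra.lift_of _ _
      rw [h6, hP'mem] at h5
      have h7 : Additive.toMul (ρ n v - v) = act n (Additive.toMul v) * (Additive.toMul v)⁻¹ := by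
        rw [sub_eq_add_neg]
        rfl
      rwa [h7] at h5
  · obtain ⟨i, hi⟩ := (IsOfFinOrder.mem_powers_iff_mem_zpowers
      (isOfFinOrder_of_finite _)).2 (hc ⟨θu k, k, rfl⟩)
    have hi' : θu c ^ i = θu k := congrArg Subtype.val hi
    refine ⟨i, ?_⟩
    rw [MonoidHom.mem_ker, map_mul, map_pow, map_inv, hi', inv_mul_cancel]

/-- averaging: a fixed coset outside `P` contains, up to a power prime to `p`, a fixed element -/
theorem exists_fixed_of_coset {p : ℕ} [hp : Fact p.Prime] {G : Type*} [Group G]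
    {P D : Subgroup G} (hDp : IsPGroup p D) (hab : D ≤ centralizer (D : Set G))
    {z : G} (hzD : z ∈ normalizer (D : Set G)) (hzP : z ∈ normalizer (P : Set G))
    {m : ℕ} (hm : ¬ p ∣ m) (hzm : z ^ m ∈ centralizer (D : Set G))
    {x : G} (hxD : x ∈ D) (hxP : x ∉ P) (hx : z * x * z⁻¹ * x⁻¹ ∈ P) :
    ∃ y ∈ D, y ∉ P ∧ z * y * z⁻¹ = y := by
  have hcD : ∀ a ∈ D, ∀ b ∈ D, a * b = b * a := fun a ha b hb =>
    ((mem_centralizer_iff.1 (hab ha)) b hb).symm
  -- the partial products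
  let y : ℕ → G := fun n => Nat.rec 1 (fun i a => a * (z ^ i * x * (z ^ i)⁻¹)) n
  have hy0 : y 0 = 1 := rfl
  have hys : ∀ n, y (n + 1) = y n * (z ^ n * x * (z ^ n)⁻¹) := fun _ => rfl
  have hzn : ∀ n, z ^ n ∈ normalizer (D : Set G) := fun n => pow_mem hzD n
  have hzx : ∀ n, z ^ n * x * (z ^ n)⁻¹ ∈ D := fun n => ((hzn n) x).1 hxD
  have hyD : ∀ n, y n ∈ D := by
    intro n
    induction n with
    | zero => exact one_mem _
    | succ n ih => exact mul_mem ih (hzx n)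
  -- modulo `P`
  have hzxP : ∀ n, x⁻¹ * (z ^ n * x * (z ^ n)⁻¹) ∈ P := by
    intro n
    induction n with
    | zero => simp [one_mem]
    | succ n ih =>
      have h1 : z * (x⁻¹ * (z ^ n * x * (z ^ n)⁻¹)) * z⁻¹ ∈ P := (hzP _).1 ih
      have h2 : x⁻¹ * (z ^ (n + 1) * x * (z ^ (n + 1))⁻¹) =
          (x⁻¹ * (z * x * z⁻¹)) * (z * (x⁻¹ * (z ^ n * x * (z ^ n)⁻¹)) * z⁻¹) := by
        rw [pow_succ']
        group
      have h3 : x⁻¹ * (z * x * z⁻¹) = z * x * z⁻¹ * x⁻¹ :=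
        hcD _ (inv_mem hxD) _ ((hzD x).1 hxD)
      rw [h2, h3]
      exact mul_mem hx h1
  have hyP : ∀ n, (x ^ n)⁻¹ * y n ∈ P := by
    intro n
    induction n with
    | zero => simp [hy0, one_mem]
    | succ n ih =>
      have h1 : (x ^ (n + 1))⁻¹ * y (n + 1) =
          ((x ^ n)⁻¹ * y n) * (x⁻¹ * (z ^ n * x * (z ^ n)⁻¹)) := by
        have h2 : x⁻¹ * ((x ^ n)⁻¹ * y n) = ((x ^ n)⁻¹ * y n) * x⁻¹ :=
          hcD _ (inv_mem hxD) _ (mul_mem (inv_mem (pow_mem hxD n)) (hyD n))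
        rw [hys, pow_succ, mul_inv_rev]
        calc x⁻¹ * (x ^ n)⁻¹ * (y n * (z ^ n * x * (z ^ n)⁻¹))
            = (x⁻¹ * ((x ^ n)⁻¹ * y n)) * (z ^ n * x * (z ^ n)⁻¹) := by group
          _ = (((x ^ n)⁻¹ * y n) * x⁻¹) * (z ^ n * x * (z ^ n)⁻¹) := by rw [h2]
          _ = ((x ^ n)⁻¹ * y n) * (x⁻¹ * (z ^ n * x * (z ^ n)⁻¹)) := by group
      rw [h1]
      exact mul_mem ih (hzxP n)
  -- the shift
  have hzy : ∀ n, z * y n * z⁻¹ * x = y n * (z ^ n * x * (z ^ n)⁻¹) := by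
    intro n
    induction n with
    | zero => simp [hy0]
    | succ n ih =>
      have h1 : z * y (n + 1) * z⁻¹ * x =
          (z * y n * z⁻¹ * x) * (z ^ (n + 1) * x * (z ^ (n + 1))⁻¹) := by
        have h2 : (z ^ (n + 1) * x * (z ^ (n + 1))⁻¹) * x = x *
            (z ^ (n + 1) * x * (z ^ (n + 1))⁻¹) := hcD _ (hzx _) _ hxD
        calc z * y (n + 1) * z⁻¹ * x
            = (z * y n * z⁻¹) * ((z ^ (n + 1) * x * (z ^ (n + 1))⁻¹) * x) := by
              rw [hys, pow_succ']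
              group
          _ = (z * y n * z⁻¹) * (x * (z ^ (n + 1) * x * (z ^ (n + 1))⁻¹)) := by rw [h2]
          _ = _ := by group
      rw [h1, ih, ← hys]
  refine ⟨y m, hyD m, fun h => ?_, ?_⟩
  · -- `x ^ m ∈ P` forces `x ∈ P`
    have h1 : x ^ m ∈ P := by
      have h2 := hyP m
      have h3 : (x ^ m)⁻¹ = ((x ^ m)⁻¹ * y m) * (y m)⁻¹ := by group
      rw [← inv_mem_iff, h3]
      exact mul_mem h2 (inv_mem h)
    obtain ⟨a, ha⟩ := hDp ⟨x, hxD⟩
    have ha' : x ^ p ^ a = 1 := congrArg Subtype.val ha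
    have hco : Nat.Coprime m (p ^ a) :=
      Nat.Coprime.pow_right _ ((Nat.Prime.coprime_iff_not_dvd hp.out).2 hm).symm
    have h4 : x ∈ P := by
      have hbez := Nat.gcd_eq_gcd_ab m (p ^ a)
      rw [hco.gcd_eq_one] at hbez
      have h5 : x = (x ^ m) ^ (Nat.gcdA m (p ^ a)) * (x ^ p ^ a) ^ (Nat.gcdB m (p ^ a)) := by
        rw [← zpow_natCast, ← zpow_natCast x (p ^ a), ← zpow_mul, ← zpow_mul, ← zpow_add, ← hbez]
        simp
      rw [h5, ha', one_zpow, mul_one]
      exact zpow_mem h1 _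
    exact hxP h4
  · have h1 := hzy m
    have h2 : z ^ m * x * (z ^ m)⁻¹ = x := by
      have := mem_centralizer_iff.1 hzm x hxD
      rw [← this, mul_inv_cancel_right]
    rw [h2] at h1
    exact mul_right_cancel h1

/-- the conjugation action of a subgroup of the normaliser -/
def cact {G : Type*} [Group G] (D S : Subgroup G) (hSD : S ≤ normalizer (D : Set G)) :
    S →* MulAut D := (D.normalizerMonoidHom).comp (inclusion hSD)

theorem cact_apply {G : Type*} [Group G] (D S : Subgroup G) (hSD : S ≤ normalizer (D : Set G))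
    (s : S) (d : D) : ((cact D S hSD s d : D) : G) = s * d * (s : G)⁻¹ := rfl

theorem cact_eq_one {G : Type*} [Group G] (D S : Subgroup G) (hSD : S ≤ normalizer (D : Set G))
    (s : S) : cact D S hSD s = 1 ↔ (s : G) ∈ centralizer (D : Set G) := by
  rw [mem_centralizer_iff]
  constructor
  · intro h d hd
    have h1 := congrArg Subtype.val (DFunLike.congr_fun h (⟨d, hd⟩ : D))
    rw [cact_apply] at h1
    have h2 : (s : G) * d * (s : G)⁻¹ = d := h1
    exact (mul_inv_eq_iff_eq_mul.1 h2).symm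
  · intro h
    ext d
    rw [cact_apply]
    have h2 : (s : G) * d * (s : G)⁻¹ = d := mul_inv_eq_iff_eq_mul.2 (h d d.2).symm
    rw [h2]
    rfl

theorem cact_comm {G : Type*} [Group G] (D S : Subgroup G) (hSD : S ≤ normalizer (D : Set G))
    (y z : S) (h : (y : G) * z * (y : G)⁻¹ * (z : G)⁻¹ ∈ centralizer (D : Set G)) :
    cact D S hSD y * cact D S hSD z = cact D S hSD z * cact D S hSD y := by
  have h1 : cact D S hSD (y * z * y⁻¹ * z⁻¹) = 1 := (cact_eq_one D S hSD _).2 h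
  rw [map_mul, map_mul, map_mul, map_inv, map_inv, mul_inv_eq_one, mul_inv_eq_iff_eq_mul] at h1
  exact h1

/-- commuting elements of a group generate a commutative subgroup -/
theorem closure_pair_comm {A : Type*} [Group A] {a b : A} (h : a * b = b * a) :
    ∀ x ∈ closure {a, b}, ∀ y ∈ closure {a, b}, x * y = y * x := by
  have h1 : ∀ x ∈ ({a, b} : Set A), ∀ y ∈ ({a, b} : Set A), x * y = y * x := by
    rintro x (rfl | rfl) y (rfl | rfl)
    · rfl
    · exact h
    · exact h.symm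
    · rfl
  intro x hx y hy
  have h2 := (isMulCommutative_closure h1).is_comm.comm (⟨x, hx⟩ : closure {a, b}) ⟨y, hy⟩
  exact congrArg Subtype.val h2

theorem euc_id {A : Type*} [CommGroup A] (a b u v : A) :
    (b * a⁻¹)⁻¹ * u = (b⁻¹ * (u * v)) * (a⁻¹ * v)⁻¹ := by
  calc (b * a⁻¹)⁻¹ * u = a * (b⁻¹ * u) := by group
    _ = (b⁻¹ * u) * a := mul_comm _ _
    _ = (b⁻¹ * (u * v)) * (a⁻¹ * v)⁻¹ := by group

/-- **Euclid's algorithm on commuting pairs** -/
theorem euclid_pairs {p : ℕ} [hp : Fact p.Prime] {G : Type*} [Group G] [Finite G]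
    {P D S : Subgroup G} (hPD : P < D) (hDp : IsPGroup p D) (hab : D ≤ centralizer (D : Set G))
    (hSD : S ≤ normalizer (D : Set G)) (hSP : S ≤ normalizer (P : Set G))
    (hm : ∀ z ∈ S, ∃ m : ℕ, ¬ p ∣ m ∧ z ^ m ∈ centralizer (D : Set G))
    (Pr : G → G → Prop)
    (hsymm : ∀ y ∈ S, ∀ z ∈ S, y * z * y⁻¹ * z⁻¹ ∈ centralizer (D : Set G) → Pr z y → Pr y z)
    (hmul : ∀ y ∈ S, ∀ z ∈ S, y * z * y⁻¹ * z⁻¹ ∈ centralizer (D : Set G) →
      Pr y (z * y⁻¹) → Pr y z)
    (hfix : ∀ y ∈ S, ∀ z ∈ S, y * z * y⁻¹ * z⁻¹ ∈ centralizer (D : Set G) →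
      (∃ x ∈ D, x ∉ P ∧ z * x * z⁻¹ = x) → Pr y z) :
    ∀ y ∈ S, ∀ z ∈ S, y * z * y⁻¹ * z⁻¹ ∈ centralizer (D : Set G) → Pr y z := by
  classical
  intro y0 hy0 z0 hz0 hyz0
  let _ : CommGroup D :=
    { (inferInstance : Group D) with
      mul_comm := fun a b => Subtype.ext ((mem_centralizer_iff.1 (hab a.2)) b b.2).symm }
  have hcomm0 := cact_comm D S hSD ⟨y0, hy0⟩ ⟨z0, hz0⟩ hyz0
  let K : Subgroup (MulAut D) := closure {cact D S hSD ⟨y0, hy0⟩, cact D S hSD ⟨z0, hz0⟩}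
  let _ : CommGroup K :=
    { (inferInstance : Group K) with
      mul_comm := fun a b => Subtype.ext (closure_pair_comm hcomm0 a a.2 b b.2) }
  have hKS : ∀ k : K, ∃ s : S, cact D S hSD s = k := by
    intro k
    have h1 : K ≤ (cact D S hSD).range := by
      rw [closure_le]
      rintro _ (rfl | rfl)
      · exact ⟨_, rfl⟩
      · exact ⟨_, rfl⟩
    obtain ⟨s, hs⟩ := h1 k.2
    exact ⟨s, hs⟩
  have hKP : ∀ k : K, ∀ d ∈ P.subgroupOf D, K.subtype k d ∈ P.subgroupOf D := by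
    intro k d hd
    obtain ⟨s, hs⟩ := hKS k
    rw [mem_subgroupOf] at hd ⊢
    have h1 : ((K.subtype k d : D) : G) = s * d * (s : G)⁻¹ := by
      have : K.subtype k = cact D S hSD s := hs.symm
      rw [this, cact_apply]
    rw [h1]
    exact ((hSP s.2) _).1 hd
  have hne : P.subgroupOf D ≠ ⊤ := by
    rw [Ne, subgroupOf_eq_top]
    exact not_le_of_gt hPD
  obtain ⟨N, hN, c, hc⟩ := exists_cyclic_quot_rel K.subtype (P.subgroupOf D) hKP hne
  -- an element of `N`
  have hfix' : ∀ y ∈ S, ∀ z, ∀ hz : z ∈ S, y * z * y⁻¹ * z⁻¹ ∈ centralizer (D : Set G) →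
      ∀ kb : K, cact D S hSD ⟨z, hz⟩ = kb → kb ∈ N → Pr y z := by
    intro y hy z hz hyz kb hkb hkN
    obtain ⟨d, hd, hd'⟩ := hN kb hkN
    obtain ⟨m, hpm, hzm⟩ := hm z hz
    have h1 : z * d * z⁻¹ * (d : G)⁻¹ ∈ P := by
      rw [mem_subgroupOf] at hd'
      have h2 : ((K.subtype kb d : D) : G) = z * d * z⁻¹ := by
        have : K.subtype kb = cact D S hSD ⟨z, hz⟩ := hkb.symm
        rw [this, cact_apply]
      have h3 : (((K.subtype kb d * d⁻¹ : D)) : G) = z * d * z⁻¹ * (d : G)⁻¹ := by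
        rw [← h2]
        rfl
      rwa [h3] at hd'
    obtain ⟨x, hxD, hxP, hx⟩ := exists_fixed_of_coset hDp hab (hSD hz) (hSP hz) hpm hzm d.2
      (fun h => hd (mem_subgroupOf.2 h)) h1
    exact hfix y hy z hz hyz ⟨x, hxD, hxP, hx⟩
  have hswap : ∀ y z : G, y * z * y⁻¹ * z⁻¹ ∈ centralizer (D : Set G) →
      z * y * z⁻¹ * y⁻¹ ∈ centralizer (D : Set G) := by
    intro y z h
    have h1 : z * y * z⁻¹ * y⁻¹ = (y * z * y⁻¹ * z⁻¹)⁻¹ := by group
    rw [h1]
    exact inv_mem h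
  have key : ∀ n i j : ℕ, i + j ≤ n → i ≤ j → ∀ y, ∀ hy : y ∈ S, ∀ z, ∀ hz : z ∈ S,
      y * z * y⁻¹ * z⁻¹ ∈ centralizer (D : Set G) → ∀ ka kb : K,
      cact D S hSD ⟨y, hy⟩ = ka → cact D S hSD ⟨z, hz⟩ = kb →
      ka⁻¹ * c ^ i ∈ N → kb⁻¹ * c ^ j ∈ N → Pr y z := by
    intro n
    induction n with
    | zero =>
      intro i j hij hle y hy z hz hyz ka kb hka hkb hi hj
      have hj0 : j = 0 := by omega
      subst hj0
      rw [pow_zero, mul_one, inv_mem_iff] at hj
      exact hfix' y hy z hz hyz kb hkb hj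
    | succ n ih =>
      intro i j hij hle y hy z hz hyz ka kb hka hkb hi hj
      rcases Nat.eq_zero_or_pos i with h0 | h0
      · subst h0
        rw [pow_zero, mul_one, inv_mem_iff] at hi
        exact hsymm y hy z hz hyz (hfix' z hz y hy (hswap _ _ hyz) ka hka hi)
      · have hz' : z * y⁻¹ ∈ S := mul_mem hz (inv_mem hy)
        have hyz' : y * (z * y⁻¹) * y⁻¹ * (z * y⁻¹)⁻¹ ∈ centralizer (D : Set G) := by
          have h1 : y * (z * y⁻¹) * y⁻¹ * (z * y⁻¹)⁻¹ = y * z * y⁻¹ * z⁻¹ := by group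
          rw [h1]
          exact hyz
        have hkb' : cact D S hSD ⟨z * y⁻¹, hz'⟩ = ((kb * ka⁻¹ : K) : MulAut D) := by
          have h1 : (⟨z * y⁻¹, hz'⟩ : S) = ⟨z, hz⟩ * ⟨y, hy⟩⁻¹ := rfl
          rw [h1, map_mul, map_inv, hka, hkb]
          rfl
        have hj' : (kb * ka⁻¹)⁻¹ * c ^ (j - i) ∈ N := by
          have h2 : c ^ j = c ^ (j - i) * c ^ i := by rw [← pow_add, Nat.sub_add_cancel hle]
          have h1 : (kb * ka⁻¹)⁻¹ * c ^ (j - i) = (kb⁻¹ * c ^ j) * (ka⁻¹ * c ^ i)⁻¹ := by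
            rw [h2]
            exact euc_id _ _ _ _
          rw [h1]
          exact mul_mem hj (inv_mem hi)
        refine hmul y hy z hz hyz ?_
        rcases le_total i (j - i) with h | h
        · exact ih i (j - i) (by omega) h y hy _ hz' hyz' ka _ hka hkb' hi hj'
        · exact hsymm y hy _ hz' hyz' (ih (j - i) i (by omega) h _ hz' y hy (hswap _ _ hyz')
            _ ka hkb' hka hj' hi)
  obtain ⟨i, hi⟩ := hc ⟨_, subset_closure (Set.mem_insert _ _)⟩
  obtain ⟨j, hj⟩ := hc ⟨_, subset_closure (Set.mem_insert_of_mem _ rfl)⟩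
  rcases le_total i j with h | h
  · exact key _ i j le_rfl h y0 hy0 z0 hz0 hyz0 _ _ rfl rfl hi hj
  · exact hsymm y0 hy0 z0 hz0 hyz0
      (key _ j i le_rfl h z0 hz0 y0 hy0 (hswap _ _ hyz0) _ _ rfl rfl hj hi)

/-- two commuting elements (modulo the centraliser) of a group acting freely on `D` lie in a
subgroup which is cyclic modulo the centraliser -/
theorem free_cyc_aux {G : Type*} [Group G] [Finite G] {D S : Subgroup G} (hD : D ≠ ⊥)
    (hab : D ≤ centralizer (D : Set G)) (hSD : S ≤ normalizer (D : Set G))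
    (hfree : ∀ s ∈ S, ∀ u ∈ D, u ≠ 1 → s * u * s⁻¹ = u → s ∈ centralizer (D : Set G)) :
    ∀ x ∈ S, ∀ y ∈ S, x * y * x⁻¹ * y⁻¹ ∈ centralizer (D : Set G) →
      ∃ w ∈ S, x ∈ centralizer (D : Set G) ⊔ zpowers w ∧
        y ∈ centralizer (D : Set G) ⊔ zpowers w := by
  classical
  intro x hx y hy hxy
  let _ : CommGroup D :=
    { (inferInstance : Group D) with
      mul_comm := fun a b => Subtype.ext ((mem_centralizer_iff.1 (hab a.2)) b b.2).symm }
  have hcomm0 := cact_comm D S hSD ⟨x, hx⟩ ⟨y, hy⟩ hxy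
  let K : Subgroup (MulAut D) := closure {cact D S hSD ⟨x, hx⟩, cact D S hSD ⟨y, hy⟩}
  let _ : CommGroup K :=
    { (inferInstance : Group K) with
      mul_comm := fun a b => Subtype.ext (closure_pair_comm hcomm0 a a.2 b b.2) }
  have hKS : ∀ k : K, ∃ s : S, cact D S hSD s = k := by
    intro k
    have h1 : K ≤ (cact D S hSD).range := by
      rw [closure_le]
      rintro _ (rfl | rfl)
      · exact ⟨_, rfl⟩
      · exact ⟨_, rfl⟩
    obtain ⟨s, hs⟩ := h1 k.2
    exact ⟨s, hs⟩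
  have hne : (⊥ : Subgroup D) ≠ ⊤ := by
    intro h
    apply hD
    rw [eq_bot_iff]
    intro d hd
    have h1 : (⟨d, hd⟩ : D) ∈ (⊥ : Subgroup D) := by
      rw [h]
      exact mem_top _
    exact mem_bot.2 (congrArg Subtype.val (mem_bot.1 h1))
  obtain ⟨N, hN, c, hc⟩ := exists_cyclic_quot_rel K.subtype ⊥ (fun k d hd => by
    rw [mem_bot] at hd ⊢
    rw [hd, map_one]) hne
  obtain ⟨w, hw⟩ := hKS c
  have hmem : ∀ s, ∀ hs : s ∈ S, ∀ ks : K, cact D S hSD ⟨s, hs⟩ = ks →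
      s ∈ centralizer (D : Set G) ⊔ zpowers (w : G) := by
    intro s hs ks hks
    obtain ⟨i, hi⟩ := hc ks
    obtain ⟨d, hd, hd'⟩ := hN _ hi
    have h1 : ((s⁻¹ * (w : G) ^ i : G)) ∈ S := mul_mem (inv_mem hs) (pow_mem w.2 i)
    have h2 : cact D S hSD ⟨s⁻¹ * (w : G) ^ i, h1⟩ = ((ks⁻¹ * c ^ i : K) : MulAut D) := by
      have h3 : (⟨s⁻¹ * (w : G) ^ i, h1⟩ : S) = ⟨s, hs⟩⁻¹ * w ^ i := rfl
      rw [h3, map_mul, map_inv, map_pow, hks, hw]
      rfl
    have h3 : (s⁻¹ * (w : G) ^ i) * d * (s⁻¹ * (w : G) ^ i)⁻¹ = d := by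
      rw [mem_bot, mul_inv_eq_one] at hd'
      have h4 : cact D S hSD ⟨s⁻¹ * (w : G) ^ i, h1⟩ d = d := by
        rw [h2]
        exact hd'
      exact congrArg Subtype.val h4
    have h4 : s⁻¹ * (w : G) ^ i ∈ centralizer (D : Set G) := by
      refine hfree _ h1 d d.2 (fun h => hd ?_) h3
      rw [mem_bot]
      exact Subtype.ext h
    have h5 : s = (w : G) ^ i * (s⁻¹ * (w : G) ^ i)⁻¹ := by group
    rw [h5]
    exact mul_mem ((le_sup_right : zpowers (w : G) ≤ centralizer (D : Set G) ⊔ zpowers (w : G))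
      (pow_mem (mem_zpowers _) i))
      ((le_sup_left : centralizer (D : Set G) ≤ centralizer (D : Set G) ⊔ zpowers (w : G))
        (inv_mem h4))
  exact ⟨w, w.2, hmem x hx ⟨_, subset_closure (Set.mem_insert _ _)⟩ rfl,
    hmem y hy ⟨_, subset_closure (Set.mem_insert_of_mem _ rfl)⟩ rfl⟩

end P179H854
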