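import Vale.Agent.P179.R2.H854.Qu1
import Vale.Agent.P179.R2.H443.Surj

/-!
# The Knörr–Robinson recursion above a normal `p`-subgroup
-/

namespace P179H854

open Subgroup P179H524 P179A P179K P179R P179C P179N

open P179B (IsNormalChain NChain chainStab)

open scoped Classical Pointwise

universe u

section Quo

variable {p : ℕ} [hp : Fact p.Prime] {k : Type u} [Field k] [IsAlgClosed k] [CharP k p]
  (red : integralClosure ℤ ℂ →+* k) {G : Type} [Group G] [Finite G] (R : Subgroup G) [R.Normal]

/-- the preimage of a chain -/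
noncomputable def pre (s : Finset (Subgroup (G ⧸ R))) : Finset (Subgroup G) :=
  s.image fun Q => Q.comap (QuotientGroup.mk' R)

omit [Finite G] in
theorem le_comap_mk (Q : Subgroup (G ⧸ R)) : R ≤ Q.comap (QuotientGroup.mk' R) := by
  intro r hr
  rw [mem_comap, QuotientGroup.mk'_apply, (QuotientGroup.eq_one_iff r).2 hr]
  exact one_mem Q

theorem stab_pre (s : Finset (Subgroup (G ⧸ R))) :
    stab (pre R s) = (stab s).comap (QuotientGroup.mk' R) := by
  ext g
  rw [mem_stab, mem_comap, mem_stab]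
  constructor
  · intro h Q hQ
    have h1 := h _ (Finset.mem_image_of_mem _ hQ)
    rw [normalizer_comap_mk] at h1
    exact h1
  · intro h Q' hQ'
    obtain ⟨Q, hQ, rfl⟩ := Finset.mem_image.1 hQ'
    rw [normalizer_comap_mk]
    exact h Q hQ

omit hp in
/-- the preimage of a normal chain is a normal chain -/
theorem isNormalChain_pre (hR : IsPGroup p R) {s : Finset (Subgroup (G ⧸ R))}
    (hs : IsNormalChain p s) : IsNormalChain p (pre R s) := by
  obtain ⟨h1, h2, h3⟩ := hs
  refine ⟨h1.image _, ?_, ?_⟩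
  · intro Q' hQ'
    obtain ⟨Q, hQ, rfl⟩ := Finset.mem_image.1 hQ'
    refine ⟨(h2 Q hQ).1.comap_of_ker_isPGroup _ (by rw [QuotientGroup.ker_mk']; exact hR), ?_⟩
    intro h
    apply (h2 Q hQ).2
    rw [eq_bot_iff]
    intro c hc
    obtain ⟨g, rfl⟩ := QuotientGroup.mk'_surjective R c
    have h4 : g ∈ Q.comap (QuotientGroup.mk' R) := hc
    rw [h, mem_bot] at h4
    rw [h4, map_one]
    exact one_mem _
  · intro Q' hQ' S' hS'
    obtain ⟨Q, hQ, rfl⟩ := Finset.mem_image.1 hQ'
    obtain ⟨S, hS, rfl⟩ := Finset.mem_image.1 hS'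
    refine ⟨?_, ?_⟩
    · rcases (h3 Q hQ S hS).1 with h | h
      · exact Or.inl (comap_mono h)
      · exact Or.inr (comap_mono h)
    · rw [normalizer_comap_mk]
      exact comap_mono (h3 Q hQ S hS).2

variable {R}

/-- the stabiliser of the preimage modulo `R` -/
noncomputable def quoEquiv (H : Subgroup (G ⧸ R)) :
    (H.comap (QuotientGroup.mk' R) : Subgroup G) ⧸
      R.subgroupOf (H.comap (QuotientGroup.mk' R)) ≃* H := by
  let φ : (H.comap (QuotientGroup.mk' R) : Subgroup G) →* H :=
    (QuotientGroup.mk' R).subgroupComap H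
  have hsurj : Function.Surjective φ :=
    MonoidHom.subgroupComap_surjective_of_surjective _ H (QuotientGroup.mk'_surjective R)
  have hker : φ.ker = R.subgroupOf (H.comap (QuotientGroup.mk' R)) := by
    ext x
    rw [MonoidHom.mem_ker, mem_subgroupOf, Subtype.ext_iff]
    exact QuotientGroup.eq_one_iff (x : G)
  exact (QuotientGroup.quotientMulEquivOfEq hker.symm).trans
    (QuotientGroup.quotientKerEquivOfSurjective φ hsurj)

omit [Finite G] in
theorem quoEquiv_mk (H : Subgroup (G ⧸ R)) (x : (H.comap (QuotientGroup.mk' R) : Subgroup G)) :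
    ((quoEquiv H (QuotientGroup.mk x) : H) : G ⧸ R) = ((x : G) : G ⧸ R) := rfl

omit [IsAlgClosed k] in
/-- the coefficients of the image of the truncation -/
theorem coeff_quo_trunc (B : MonoidAlgebra k G) (H : Subgroup (G ⧸ R))
    (x : (H.comap (QuotientGroup.mk' R) : Subgroup G) ⧸
      R.subgroupOf (H.comap (QuotientGroup.mk' R))) :
    (quo (R.subgroupOf (H.comap (QuotientGroup.mk' R)))
      (trunc (H.comap (QuotientGroup.mk' R)) B)).coeff x =
      (trunc H (quo R B)).coeff (quoEquiv H x) := by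
  have := Fintype.ofFinite G
  obtain ⟨h, rfl⟩ := QuotientGroup.mk_surjective x
  rw [coeff_quo, coeff_trunc, quoEquiv_mk, coeff_quo]
  have h1 : ∀ f : G → k, (∀ g, g ∉ H.comap (QuotientGroup.mk' R) → f g = 0) →
      ∑ g, f g = ∑ n : (H.comap (QuotientGroup.mk' R) : Subgroup G), f n := by
    intro f hf
    have h2 : ∑ g ∈ Finset.univ.filter (fun g => g ∈ H.comap (QuotientGroup.mk' R)), f g =
        ∑ n : (H.comap (QuotientGroup.mk' R) : Subgroup G), f n :=
      Finset.sum_subtype _ (fun g => by simp) f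
    rw [Finset.sum_filter_of_ne (fun g _ hg => by
      by_contra hgN
      exact hg (hf g hgN))] at h2
    exact h2
  rw [h1]
  · refine Finset.sum_congr rfl fun n _ => ?_
    rw [coeff_trunc]
    have h2 : ((n : (H.comap (QuotientGroup.mk' R) : Subgroup G) ⧸
        R.subgroupOf (H.comap (QuotientGroup.mk' R))) = (h : _ ⧸ _)) ↔
        ((n : G) : G ⧸ R) = ((h : G) : G ⧸ R) := by
      rw [QuotientGroup.eq, QuotientGroup.eq, mem_subgroupOf]
      rfl
    simp only [h2]
  · intro g hg
    rw [if_neg]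
    intro h2
    apply hg
    rw [mem_comap, QuotientGroup.mk'_apply, h2]
    exact h.2

variable (R) in
theorem delta_trunc_quo (hR : IsPGroup p R) {B : MonoidAlgebra k G}
    (hB : B ∈ Subalgebra.center k (MonoidAlgebra k G)) (H : Subgroup (G ⧸ R)) :
    numSimpleIn (trunc H (quo R B)) = numSimpleIn (trunc (H.comap (QuotientGroup.mk' R)) B) ∧
    numW p red (trunc H (quo R B)) = numW p red (trunc (H.comap (QuotientGroup.mk' R)) B) := by
  have := Fintype.ofFinite G
  have hR' : IsPGroup p (R.subgroupOf (H.comap (QuotientGroup.mk' R))) :=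
    hR.of_equiv (subgroupOfEquivOfLe (le_comap_mk R H)).symm
  have hc := coeff_quo_trunc B H
  have htr := trunc_mem (k := k) (H.comap (QuotientGroup.mk' R)) hB
  constructor
  · rw [numSimpleIn_quo (p := p) _ hR' (trunc (H.comap (QuotientGroup.mk' R)) B)]
    exact (P179H443.numSimpleIn_equiv (p := p) (quoEquiv H) _ _ fun x => (hc x).symm).symm
  · rw [numW_quo red _ hR' htr]
    symm
    refine P179H725.numW_congr red (quoEquiv H) ?_ hc
    exact trunc_mem H (quo_mem R hB)

variable (R) in
/-- **the Knörr–Robinson recursion above a normal `p`-subgroup** -/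
theorem delta_dvd_quo (hR : IsPGroup p R) (hO : OpTrivial p (G ⧸ R)) {B : MonoidAlgebra k G}
    (hB : IsBlock B) (m : ℤ)
    (hne : ∀ B' : MonoidAlgebra k (G ⧸ R), IsBlock B' → B' * quo R B = B' →
      ∃ D : Subgroup (G ⧸ R), IsDefectGroup B' D ∧ D ≠ ⊥)
    (hkr : ∀ B' : MonoidAlgebra k (G ⧸ R), IsBlock B' → B' * quo R B = B' →
      m ∣ P179B.krSum p B')
    (hloc : ∀ s : NChain p G, (∀ Q ∈ s.1, R ≤ Q) → stab s.1 ≠ ⊤ →
      ∀ b : MonoidAlgebra k (stab s.1), IsBlock b → InducesTo b B →
        m ∣ (numSimpleIn b : ℤ) - numWeightsIn p red b) :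
    m ∣ (numSimpleIn B : ℤ) - numWeightsIn p red B := by
  have := Fintype.ofFinite G
  rw [numWeightsIn_eq_numWc p red hB, ← numW_eq_numWc red B hB.1, numW_quo red R hR hB.1,
    numSimpleIn_quo (p := p) R hR B]
  have he := quo_mem (k := k) R hB.1
  have hee : quo R B * quo R B = quo R B := by rw [← map_mul, hB.2.1]
  refine dvd_of_blocks red he m
    (fun B' hB' h => hne B' hB' (mul_eq_self_of_centralChar hB' he hee h))
    (fun B' hB' h => hkr B' hB' (mul_eq_self_of_centralChar hB' he hee h)) fun c => ?_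
  let s : NChain p G := ⟨pre R c.1, isNormalChain_pre R hR c.2⟩
  have hst : stab s.1 = (stab c.1).comap (QuotientGroup.mk' R) := stab_pre R c.1
  obtain ⟨h1, h2⟩ := delta_trunc_quo (p := p) red R hR hB.1 (stab c.1)
  rw [h1, h2, ← hst, P179H725.sub_eq_finsum red s hB]
  have hfin := P179R.finite_blocks p (k := k) (G := stab s.1)
  have : Finite {b : MonoidAlgebra k (stab s.1) // IsBlock b ∧ InducesTo b B} :=
    Finite.of_injective (fun b => (⟨b.1, b.2.1⟩ : {b : MonoidAlgebra k (stab s.1) // IsBlock b}))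
      fun a b h => Subtype.ext (congrArg (fun b => b.1) h)
  have := Fintype.ofFinite {b : MonoidAlgebra k (stab s.1) // IsBlock b ∧ InducesTo b B}
  rw [finsum_eq_sum_of_fintype]
  refine Finset.dvd_sum fun b _ => hloc s ?_ ?_ b.1 b.2.1 b.2.2
  · intro Q hQ
    obtain ⟨Q', -, rfl⟩ := Finset.mem_image.1 hQ
    exact le_comap_mk R Q'
  · have hlt := P179C.card_stab_lt p hO ((isNormalChain_iff c.1).1 c.2).1.1 c.2.1
    intro h
    rw [hst] at h
    have h3 : stab c.1 = ⊤ := by
      rw [eq_top_iff]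
      intro x _
      obtain ⟨g, rfl⟩ := QuotientGroup.mk'_surjective R x
      have : g ∈ (stab c.1).comap (QuotientGroup.mk' R) := h ▸ mem_top g
      exact this
    rw [h3, Subgroup.card_top] at hlt
    exact lt_irrefl _ hlt

end Quo

end P179H854
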