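import Vale.Agent.P179.R2.H854.As1
import Vale.Agent.P179.R2.H443.Rank2
import Vale.Agent.P179.R2.H450.Mx

/-!
# Equality for abelian defect groups of rank two and a normal `p`-subgroup
-/

namespace P179H854

open Subgroup Finset P179H524 P179C P179A P179P P179Y P179H12 P179H872 P179H443

open P179B (inertialGroup inertialIndex regularElements)

open scoped Classical

universe u

/-- **(WAT)** -/
def WatStmt (p : ℕ) (k : Type u) [Field k] (red : integralClosure ℤ ℂ →+* k) : Prop :=
  ∀ (G : Type) [Group G] [Fintype G] (B : MonoidAlgebra k G) (D : Subgroup G)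
    (β : MonoidAlgebra k (centralizer (D : Set G))), IsBlock B → IsDefectGroup B D →
    (∀ a ∈ D, ∀ b ∈ D, a * b = b * a) → IsBlock β → InducesTo β B →
    Nat.card {x : G // x ∈ D ∧ x ^ p = 1} = p ^ 2 →
    (∃ z ∈ inertialGroup D β, ∀ x ∈ inertialGroup D β, x ∈ centralizer (D : Set G) ⊔ zpowers z) →
    inertialIndex D β ∣ p - 1 →
    (∀ u ∈ D, u ≠ 1 → ∀ t ∈ inertialGroup D β, t ∉ centralizer (D : Set G) →
      t * u * t⁻¹ = u → ∀ s ∈ inertialGroup D β, s * u * s⁻¹ = u) →
    (∃ d ∈ D, ∃ s ∈ inertialGroup D β, s * d * s⁻¹ ≠ d) →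
    numSimpleIn B = numWeightsIn p red B ∧ numSimpleIn B ≤ p - 1

section

variable {p : ℕ} [hp : Fact p.Prime] {k : Type u} [Field k] [IsAlgClosed k] [CharP k p]
  {G : Type} [Group G] [Fintype G] {D : Subgroup G} {l : (G → k) → k}

omit [IsAlgClosed k] in
theorem inducesTo_of_low (hl : BP p D l) {B : MonoidAlgebra k G}
    (hlB : ∀ z, IsCF z → l z = centralChar B (mkF z))
    {β : MonoidAlgebra k (centralizer (D : Set G))}
    (hlβ : Low (centralizer (D : Set G)) l β) : InducesTo β B := by
  intro z hz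
  have hcf : IsCF (fun g => z.coeff g) := (P179C.mem_center_iff _).1 hz
  have h1 := hlB _ hcf
  rw [mkF_coeff] at h1
  rw [← h1, ← hl.cut, hlβ _ (invOn_cutC D fun c _ => hcf c)]
  congr 1
  ext h
  rw [coeff_trunc, coeff_mkF]
  unfold cutC
  rw [if_pos h.2]

/-- **equality for abelian defect groups of rank two and a normal `p`-subgroup** -/
theorem locR2_of (red : integralClosure ℤ ℂ →+* k) (hclf : ClfStmt p k) (hwat : WatStmt p k red)
    (h3 : 3 < p) : LocR2 p k red := by
  intro G _ _ M hMn B D β hM hM1 hB hDB hab hβ hβB h1 hn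
  have := Fintype.ofFinite G
  obtain ⟨l, hl, hlz, hlβ⟩ := exists_BP_of_subblock (p := p) hB hDB hab hβ hβB
  have hST : stabT D l = inertialGroup D β := stabT_eq_inertialGroup hβ hlβ
  have hD : IsPGroup p D := (exists_BP_of_block (p := p) B hB D hDB).1
  have hMD : M ≤ D := P179H725.le_defect (p := p) hB hDB M hM
  have hab' : D ≤ centralizer (D : Set G) := by
    intro x hx
    rw [mem_centralizer_iff]
    intro y hy
    exact hab y hy x hx
  have hT := hT_of_block hB hDB hD hab hl hlz
  rw [← hST] at hn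
  have hMT : ∀ t ∈ stabT D l, ∀ x ∈ M, t * x * t⁻¹ ∈ M := fun t _ x hx => hMn.conj_mem x hx t
  obtain ⟨r1, r2, r3, ⟨r4, r4', r4''⟩, r5, r6⟩ := P179H450.rank2_M hD hab (stabT_le_norm D l)
    (cent_le_stabT D l) hT h1 hMD hM1 hMT hn
  obtain ⟨-, -, -, -, -, hidxM, -, -⟩ := P179H450.grp_M hD hab (stabT_le_norm D l)
    (cent_le_stabT D l) hT h1 hMD hM1 hMT hn
  have habM : ∀ a ∈ M, ∀ b ∈ M, a * b = b * a := fun a ha b hb => hab a (hMD ha) b (hMD hb)
  have hCC : centralizer (D : Set G) ≤ centralizer (M : Set G) := centralizer_le hMD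
  have hDC : D ≤ centralizer (M : Set G) := hab'.trans hCC
  have hmC : MulH (centralizer (M : Set G)) l := BP.mulH hl hD hab' hCC
  have hidxΓ : (centralizer (M : Set G)).relIndex (stH (centralizer (M : Set G)) l) =
      (centralizer (M : Set G)).relIndex (stabT D l) := by
    rw [stH_eq_sup hl hD hab' hT hDC hCC, relIndex_sup_right]
  obtain ⟨c1, c2, c3⟩ := P179H450.cyc_of_act (X := stH (centralizer (M : Set G)) l) hM habM r1
    (fun t _ x hx => hMn.conj_mem x hx t) (by rw [hidxΓ]; exact hidxM)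
  obtain ⟨b1, hb1, hlb1⟩ := exists_blk hmC
  have hdf := isDefectGroup_low (p := p) hl hD hab hT hDC hCC hb1 hlb1
  obtain ⟨β', hβ', hlβ', hbF⟩ := exists_root_below hl hD hab' hDC hCC hβ hlβ
  have hST' : stabT (D.subgroupOf (centralizer (M : Set G))) (lres (centralizer (M : Set G)) l) =
      inertialGroup (D.subgroupOf (centralizer (M : Set G))) β' :=
    stabT_eq_inertialGroup hβ' hlβ'
  have hmem : ∀ t : centralizer (M : Set G),
      t ∈ inertialGroup (D.subgroupOf (centralizer (M : Set G))) β' ↔ (t : G) ∈ stabT D l := by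
    intro t
    rw [← hST']
    exact mem_stabT_lres hDC hCC t
  have hcm : ∀ t : centralizer (M : Set G),
      t ∈ centralizer ((D.subgroupOf (centralizer (M : Set G)) :
        Subgroup (centralizer (M : Set G))) : Set (centralizer (M : Set G))) ↔
        (t : G) ∈ centralizer (D : Set G) := mem_cent_subgroupOf hDC
  -- the block of the centraliser of `M`
  obtain ⟨w1, w2⟩ := hwat (centralizer (M : Set G)) b1 (D.subgroupOf (centralizer (M : Set G))) β'
    hb1 hdf (fun a ha c hc => ((mem_centralizer_iff.1 (comm_subgroupOf hab' hDC ha)) c hc).symm)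
    hβ' (inducesTo_of_low (hl.restrict hDC hCC) (Low.char hlb1) hlβ') (by
      rw [← h1]
      refine Nat.card_congr
        { toFun := fun x => ⟨((x.1 : centralizer (M : Set G)) : G), mem_subgroupOf.1 x.2.1, by
            have h2 := congrArg Subtype.val x.2.2
            exact h2⟩
          invFun := fun x => ⟨⟨x.1, hDC x.2.1⟩, mem_subgroupOf.2 x.2.1, Subtype.ext x.2.2⟩
          left_inv := fun x => rfl
          right_inv := fun x => rfl }) (by
      have := r4
      obtain ⟨z, hz⟩ := r4'.exists_generator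
      obtain ⟨z, rfl⟩ := QuotientGroup.mk_surjective z
      refine ⟨⟨z, z.2.2⟩, (hmem _).2 z.2.1, fun x hx => ?_⟩
      obtain ⟨n, hn⟩ := mem_zpowers_iff.1
        (hz ((⟨x, (hmem x).1 hx, x.2⟩ : (stabT D l ⊓ centralizer (M : Set G) : Subgroup G)) :
          _ ⧸ _))
      have h4 := QuotientGroup.eq.1 hn
      rw [mem_subgroupOf] at h4
      have h5 : x = (⟨z, z.2.2⟩ : centralizer (M : Set G)) ^ n *
          ((⟨z, z.2.2⟩ : centralizer (M : Set G)) ^ (-n) * x) := by group
      rw [h5]
      refine mul_mem (mem_sup_right (zpow_mem (mem_zpowers _) n)) (mem_sup_left ?_)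
      rw [hcm]
      have h6 : (((⟨z, z.2.2⟩ : centralizer (M : Set G)) ^ (-n) * x :
          centralizer (M : Set G)) : G) = ((z : G) ^ n)⁻¹ * x := by
        push_cast
        rw [zpow_neg]
      rw [h6]
      exact h4) (by
      have h2 : inertialIndex (D.subgroupOf (centralizer (M : Set G))) β' =
          (centralizer (D : Set G)).relIndex (stabT D l ⊓ centralizer (M : Set G)) := by
        unfold inertialIndex
        rw [← hST']
        exact relIndex_stabT_lres hDC hCC
      rw [h2]
      exact r4'') (by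
      intro u hu hu1 t ht htn htu s hs
      apply Subtype.ext
      refine r5 (u : G) (mem_subgroupOf.1 hu) (fun h => hu1 (Subtype.ext h)) (t : G)
        ⟨(hmem t).1 ht, t.2⟩ (fun h => htn ((hcm t).2 h)) (congrArg Subtype.val htu) (s : G)
        ⟨(hmem s).1 hs, s.2⟩) (by
      obtain ⟨d, hd, s, hs, hsd⟩ := r6
      refine ⟨⟨d, hDC hd⟩, mem_subgroupOf.2 hd, ⟨s, hs.2⟩, (hmem _).2 hs.1, fun h => hsd ?_⟩
      exact congrArg Subtype.val h)
  -- assembly
  have hbcf : IsCF (fun g => B.coeff g) := (P179C.mem_center_iff _).1 hB.1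
  have hbb : conv (fun g => B.coeff g) (fun g => B.coeff g) = fun g => B.coeff g := by
    funext g
    rw [← coeff_mul_eq_conv, hB.2.1]
  rw [P179H443.numSimple_fr (p := p) (H := centralizer (M : Set G)) hB
    (fun x hx => idem_supp (p := p) M hM hbcf hbb hx) hmC hlz hb1 hlb1,
    P179H443.numWeightsIn_eq_stabT red hB hDB hab hl hD hT hlz hβ hlβ]
  refine eq_of_cent red hclf h3 hl hD hab' hT hMn hM hMD rfl hb1 hlb1 hβ hlβ c1 c2 c3 ?_ ?_
  · rw [w1, numWeightsIn_below red hl hD hab' hT hDC hCC hb1 hlb1 hdf hβ hlβ]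
  · omega

end

end P179H854
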