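import Vale.Agent.P179.R2.H854.Fx1
import Vale.Agent.P179.R2.H12.Blk

/-!
# Comparison of two Clifford counts with the same cyclic quotient
-/

namespace P179H854

open Subgroup Finset P179H524 P179C P179A P179P P179Y P179H12

open scoped Classical

universe u

/-- **the Clifford count** for a cyclic quotient of order prime to `p`; `F S` is the number of
simple `kN`-modules in `e` fixed by the preimage of `S` -/
def ClfStmt (p : ℕ) (k : Type u) [Field k] : Prop :=
  ∀ (Γ : Type) [Group Γ] [Fintype Γ] (N : Subgroup Γ) [N.Normal] (e : Γ → k),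
    IsCyclic (Γ ⧸ N) → ¬ p ∣ N.index → (∀ x, x ∉ N → e x = 0) → IsCF e → conv e e = e →
    ∃ F : Subgroup (Γ ⧸ N) → ℕ, F ⊥ = numSimpleIn (mkF fun x : N => e x) ∧
      (∀ S T, S ≤ T → F T ≤ F S) ∧
      ∀ S : Subgroup (Γ ⧸ N),
        Nat.card S * numSimpleIn (mkF fun t : S.comap (QuotientGroup.mk' N) => e t) =
          ∑ᶠ z : S × S, F (Subgroup.closure {(z.1 : Γ ⧸ N), (z.2 : Γ ⧸ N)})

section

variable {p : ℕ} {k : Type u} [Field k]

/-- the same for a homomorphism onto a cyclic group -/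
theorem ClfStmt.hom (hclf : ClfStmt p k) {Γ : Type} [Group Γ] [Fintype Γ] {A : Type*}
    [CommGroup A] [Finite A] [IsCyclic A] (π : Γ →* A) (hπ : Function.Surjective π)
    (hidx : ¬ p ∣ Nat.card A) {N : Subgroup Γ} (hN : ∀ x, x ∈ N ↔ π x = 1) {e : Γ → k}
    (heN : ∀ x, x ∉ N → e x = 0) (hcf : IsCF e) (hee : conv e e = e) :
    ∃ F : Subgroup A → ℕ, F ⊥ = numSimpleIn (mkF fun x : N => e x) ∧
      (∀ S T, S ≤ T → F T ≤ F S) ∧
      ∀ S : Subgroup A, Nat.card S * numSimpleIn (mkF fun t : S.comap π => e t) =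
          ∑ᶠ z : S × S, F (Subgroup.closure {(z.1 : A), (z.2 : A)}) := by
  have hker : N = π.ker := by
    ext x
    rw [hN, MonoidHom.mem_ker]
  have hNn : N.Normal := by
    rw [hker]
    infer_instance
  let φ : Γ ⧸ N ≃* A :=
    (QuotientGroup.quotientMulEquivOfEq hker).trans (QuotientGroup.quotientKerEquivOfSurjective π hπ)
  have hφ : ∀ g : Γ, φ (g : Γ ⧸ N) = π g := fun g => rfl
  have hcyc : IsCyclic (Γ ⧸ N) := isCyclic_of_surjective φ.symm φ.symm.surjective
  obtain ⟨F, hF0, hFm, hF⟩ := hclf Γ N e hcyc (by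
    have h1 : N.index = Nat.card A := Nat.card_congr φ.toEquiv
    rw [h1]
    exact hidx) heN hcf hee
  have hcomap : ∀ S : Subgroup A, (S.comap φ.toMonoidHom).comap (QuotientGroup.mk' N) =
      S.comap π := by
    intro S
    rw [Subgroup.comap_comap]
    rfl
  refine ⟨fun S => F (S.comap φ.toMonoidHom), ?_, fun S T h => hFm _ _ (Subgroup.comap_mono h),
    fun S => ?_⟩
  · change F ((⊥ : Subgroup A).comap φ.toMonoidHom) = _
    have h1 : (⊥ : Subgroup A).comap φ.toMonoidHom = ⊥ := by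
      rw [eq_bot_iff]
      intro x hx
      have h1 : φ x = 1 := hx
      exact mem_bot.2 ((map_eq_one_iff φ φ.injective).1 h1)
    rw [h1]
    exact hF0
  · have h1 := hF (S.comap φ.toMonoidHom)
    let ψ : (S.comap φ.toMonoidHom) ≃ S :=
      { toFun := fun x => ⟨φ x, x.2⟩
        invFun := fun x => ⟨φ.symm x, by
          change φ (φ.symm x) ∈ S
          rw [MulEquiv.apply_symm_apply]
          exact x.2⟩
        left_inv := fun x => Subtype.ext (φ.symm_apply_apply _)
        right_inv := fun x => Subtype.ext (φ.apply_symm_apply _) }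
    rw [Nat.card_congr ψ] at h1
    have h3 : numSimpleIn (mkF fun t : S.comap π => e t) = numSimpleIn (mkF fun t :
        (S.comap φ.toMonoidHom).comap (QuotientGroup.mk' N) => e t) := by
      have key : ∀ H H' : Subgroup Γ, H = H' →
          numSimpleIn (mkF fun t : H => e t) = numSimpleIn (mkF fun t : H' => e t) := by
        rintro H _ rfl
        rfl
      exact key _ _ (hcomap S).symm
    rw [h3, h1]
    refine finsum_eq_of_bijective (Equiv.prodCongr ψ ψ) (Equiv.bijective _) fun z => ?_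
    change F _ = F ((Subgroup.closure {φ z.1, φ z.2}).comap φ.toMonoidHom)
    congr 1
    have h2 : Subgroup.closure {φ z.1, φ z.2} =
        (Subgroup.closure {(z.1 : Γ ⧸ N), (z.2 : Γ ⧸ N)}).map φ.toMonoidHom := by
      rw [MonoidHom.map_closure, Set.image_pair]
      rfl
    rw [h2]
    exact (Subgroup.comap_map_eq_self_of_injective (f := φ.toMonoidHom) φ.injective _).symm

/-- **comparison of two Clifford counts** -/
theorem clf_compare [hp : Fact p.Prime] (hclf : ClfStmt p k) (h3 : 3 < p) {G1 G2 : Type}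
    [Group G1] [Fintype G1] [Group G2] [Fintype G2] {A : Type*} [CommGroup A] [Finite A]
    [IsCyclic A] (hA : Nat.card A ∣ p - 1) (π1 : G1 →* A) (hπ1 : Function.Surjective π1)
    (π2 : G2 →* A) (hπ2 : Function.Surjective π2) {N1 : Subgroup G1}
    (hN1 : ∀ x, x ∈ N1 ↔ π1 x = 1) {N2 : Subgroup G2} (hN2 : ∀ x, x ∈ N2 ↔ π2 x = 1)
    {e1 : G1 → k} (heN1 : ∀ x, x ∉ N1 → e1 x = 0) (hcf1 : IsCF e1) (hee1 : conv e1 e1 = e1)
    {e2 : G2 → k} (heN2 : ∀ x, x ∉ N2 → e2 x = 0) (hcf2 : IsCF e2) (hee2 : conv e2 e2 = e2)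
    (h0 : numSimpleIn (mkF fun x : N1 => e1 x) = numSimpleIn (mkF fun x : N2 => e2 x))
    (hlt : numSimpleIn (mkF fun x : N1 => e1 x) < p)
    (hmod : ∀ S : Subgroup A, numSimpleIn (mkF fun t : S.comap π1 => e1 t) ≡
      numSimpleIn (mkF fun t : S.comap π2 => e2 t) [MOD p]) (S : Subgroup A) :
    numSimpleIn (mkF fun t : S.comap π1 => e1 t) =
      numSimpleIn (mkF fun t : S.comap π2 => e2 t) := by
  have hidx : ¬ p ∣ Nat.card A := by
    intro h
    have h1 := Nat.le_of_dvd (by omega) (h.trans hA)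
    omega
  obtain ⟨F1, hF10, hF1m, hF1⟩ := hclf.hom π1 hπ1 hidx hN1 heN1 hcf1 hee1
  obtain ⟨F2, hF20, hF2m, hF2⟩ := hclf.hom π2 hπ2 hidx hN2 heN2 hcf2 hee2
  have key := fix_arith hp.out h3 hA (fun S => (F1 S : ℤ) - F2 S) fun S => by
    have h1 := hF1 S
    have h2 := hF2 S
    have h3 := (Nat.modEq_iff_dvd.1 (hmod S))
    have h4 : (∑ᶠ z : S × S, ((F1 (Subgroup.closure {(z.1 : A), (z.2 : A)}) : ℤ) -
        F2 (Subgroup.closure {(z.1 : A), (z.2 : A)}))) =
        (Nat.card S : ℤ) * ((numSimpleIn (mkF fun t : S.comap π1 => e1 t) : ℤ) -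
          numSimpleIn (mkF fun t : S.comap π2 => e2 t)) := by
      have := Fintype.ofFinite S
      rw [finsum_eq_sum_of_fintype] at h1 h2 ⊢
      rw [Finset.sum_sub_distrib, mul_sub]
      have h1' := congrArg (Nat.cast : ℕ → ℤ) h1
      have h2' := congrArg (Nat.cast : ℕ → ℤ) h2
      push_cast at h1' h2'
      rw [h1', h2']
    rw [h4]
    have h5 := (dvd_neg.2 h3).mul_left (Nat.card S : ℤ)
    rwa [neg_sub] at h5
  have hFF : ∀ S, F1 S = F2 S := by
    intro S
    have h1 : F1 S < p := lt_of_le_of_lt (hF1m _ _ bot_le) (by rw [hF10]; exact hlt)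
    have h2 : F2 S < p := lt_of_le_of_lt (hF2m _ _ bot_le) (by rw [hF20, ← h0]; exact hlt)
    have h3 : F2 S ≡ F1 S [MOD p] := Nat.modEq_iff_dvd.2 (key S)
    exact (Nat.ModEq.eq_of_lt_of_lt h3 h2 h1).symm
  have h1 := hF1 S
  have h2 := hF2 S
  simp only [hFF] at h1
  rw [← h2] at h1
  exact Nat.eq_of_mul_eq_mul_left Nat.card_pos h1

end

end P179H854
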