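import Vale.Agent.P179.R2.H854.EqS1
import Vale.Agent.P179.R2.H872.Prop
import Vale.Agent.P179.R2.H364.Step

/-!
# Invariance of the lifted traces of commuting pairs under `SL₂(ℤ)`
-/

namespace P179H854

open P179H524 P179C P179A P179P P179R P179H872 P179H843 Finset MonoidAlgebra Module

universe u

open P179Y (mkF mkF_mem mkF_conv coeff_mkF)

open scoped Classical

section group

/-- the first generator in terms of the new generators -/
theorem sl_fst {Q : Type*} [Group Q] {a b : Q} (h : Commute a b) {i j r m : ℤ}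
    (hd : i * m - j * r = 1) : (a ^ i * b ^ j) ^ m * (a ^ r * b ^ m) ^ (-j) = a := by
  rw [(h.zpow_zpow i j).mul_zpow, (h.zpow_zpow r m).mul_zpow, ← zpow_mul, ← zpow_mul, ← zpow_mul,
    ← zpow_mul]
  have h1 : b ^ (j * m) * a ^ (r * -j) = a ^ (r * -j) * b ^ (j * m) :=
    (h.zpow_zpow (r * -j) (j * m)).symm
  calc a ^ (i * m) * b ^ (j * m) * (a ^ (r * -j) * b ^ (m * -j)) =
      a ^ (i * m) * (b ^ (j * m) * a ^ (r * -j)) * b ^ (m * -j) := by simp only [mul_assoc]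
    _ = (a ^ (i * m) * a ^ (r * -j)) * (b ^ (j * m) * b ^ (m * -j)) := by
      rw [h1]
      simp only [mul_assoc]
    _ = a ^ (1 : ℤ) * b ^ (0 : ℤ) := by
      rw [← zpow_add, ← zpow_add]
      congr 2
      · rw [← hd]
        ring
      · ring
    _ = a := by rw [zpow_one, zpow_zero, mul_one]

/-- the second generator in terms of the new generators -/
theorem sl_snd {Q : Type*} [Group Q] {a b : Q} (h : Commute a b) {i j r m : ℤ}
    (hd : i * m - j * r = 1) : (a ^ i * b ^ j) ^ (-r) * (a ^ r * b ^ m) ^ i = b := by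
  rw [(h.zpow_zpow i j).mul_zpow, (h.zpow_zpow r m).mul_zpow, ← zpow_mul, ← zpow_mul, ← zpow_mul,
    ← zpow_mul]
  have h1 : b ^ (j * -r) * a ^ (r * i) = a ^ (r * i) * b ^ (j * -r) :=
    (h.zpow_zpow (r * i) (j * -r)).symm
  calc a ^ (i * -r) * b ^ (j * -r) * (a ^ (r * i) * b ^ (m * i)) =
      a ^ (i * -r) * (b ^ (j * -r) * a ^ (r * i)) * b ^ (m * i) := by simp only [mul_assoc]
    _ = (a ^ (i * -r) * a ^ (r * i)) * (b ^ (j * -r) * b ^ (m * i)) := by
      rw [h1]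
      simp only [mul_assoc]
    _ = a ^ (0 : ℤ) * b ^ (1 : ℤ) := by
      rw [← zpow_add, ← zpow_add]
      congr 2
      · ring
      · rw [← hd]
        ring
    _ = b := by rw [zpow_one, zpow_zero, one_mul]

/-- an alternating pairing is invariant under `SL₂(ℤ)` -/
theorem beta_sl {Γ k : Type*} [Group Γ] [Field k] {β : Γ → Γ → k}
    (h1 : ∀ y g g', β y (g * g') = β y g * β y g') (h2 : ∀ y g, β y g * β g y = 1)
    (h3 : ∀ g, β g g = 1) (h4 : ∀ y, β y 1 = 1) (g y : Γ) {i j r m : ℤ}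
    (hd : i * m - j * r = 1) : β (g ^ r * y ^ m) (g ^ i * y ^ j) = β y g := by
  let B : Γ → Γ →* kˣ := fun y =>
    MonoidHom.toHomUnits { toFun := β y, map_one' := h4 y, map_mul' := h1 y }
  have hB : ∀ y g, ((B y g : kˣ) : k) = β y g := fun y g => rfl
  have hs : ∀ y g, B y g = (B g y)⁻¹ := by
    intro y g
    rw [eq_inv_iff_mul_eq_one]
    refine Units.ext ?_
    rw [Units.val_mul, hB, hB, h2, Units.val_one]
  have hgg : ∀ g, B g g = 1 := fun g => Units.ext (h3 g)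
  have h5 : B (g ^ r * y ^ m) g = B y g ^ m := by
    rw [hs (g ^ r * y ^ m) g, map_mul, map_zpow, map_zpow, hgg, one_zpow, one_mul, hs y g,
      inv_zpow]
  have h6 : B (g ^ r * y ^ m) y = B y g ^ (-r) := by
    rw [hs (g ^ r * y ^ m) y, map_mul, map_zpow, map_zpow, hgg, one_zpow, mul_one, zpow_neg]
  have h7 : B (g ^ r * y ^ m) (g ^ i * y ^ j) = B y g := by
    rw [map_mul, map_zpow, map_zpow, h5, h6, ← zpow_mul, ← zpow_mul, ← zpow_add]
    have h8 : m * i + -r * j = 1 := by rw [← hd]; ring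
    rw [h8, zpow_one]
  rw [← hB, h7, hB]

end group

section one

variable {k : Type u} [Field k] {Γ : Type} [Group Γ] [Fintype Γ] {N : Subgroup Γ} [hN : N.Normal]

/-- regular parts and cosets -/
theorem pr_mem_cosetE (p : ℕ) [hp : Fact p.Prime] (hidx : ¬ p ∣ N.index) {g h : Γ} :
    g⁻¹ * pr p h ∈ N ↔ g⁻¹ * h ∈ N := by
  have h1 : QuotientGroup.mk' N (pr p h) = QuotientGroup.mk' N h := by
    rw [Q7.map_pr p _ h (C2.ord_ne h), Q7.pr_of_regular p _ (C2.ord_ne _)]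
    intro h2
    exact hidx (h2.trans (orderOf_dvd_natCard _))
  rw [← QuotientGroup.eq, ← QuotientGroup.eq]
  change (g : Γ ⧸ N) = QuotientGroup.mk' N (pr p h) ↔ (g : Γ ⧸ N) = QuotientGroup.mk' N h
  rw [h1]

/-- the two forms of the spaces of functions on a coset -/
theorem LG_eq_LX (p : ℕ) [hp : Fact p.Prime] (hidx : ¬ p ∣ N.index) {e : Γ → k}
    (he : ∀ x, x ∉ N → e x = 0) (g : Γ) : LG p N e g = LX p (mkF fun x : N => e x) g := by
  have h0 : ∀ (ψ : Γ → k) (y : Γ),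
      ∑ h : Γ, (inc N (mkF fun x : N => e x)).coeff h * ψ (h * y) =
        ∑ h : Γ, e h * ψ (h * y) := by
    intro ψ y
    rw [P179H12.inc_mkF N e he]
    simp only [coeff_mkF]
  ext ψ
  rw [mem_LG, mem_LX]
  constructor
  · rintro ⟨h1, h2, h3, h4⟩
    refine ⟨h1, h2, fun h => ?_, fun y => ?_⟩
    · by_cases hh : g⁻¹ * h ∈ N
      · exact h3 h hh
      · rw [h1 h hh, h1 _ fun h5 => hh ((pr_mem_cosetE p hidx).1 h5)]
    · rw [h0, h4]
  · rintro ⟨h1, h2, h3, h4⟩
    exact ⟨h1, h2, fun h _ => h3 h, fun y => by rw [← h0, h4]⟩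

variable {c : MonoidAlgebra k N}

/-- the stabilizer of a simple module -/
noncomputable def stX (hc : ∀ g : Γ, cjA g c = c) (K : XK c) : Subgroup Γ where
  carrier := {h | smX hc h K = K}
  mul_mem' := by
    intro a b ha hb
    change smX hc a K = K at ha
    change smX hc b K = K at hb
    change smX hc (a * b) K = K
    rw [smX_mul, hb, ha]
  one_mem' := smX_one hc K
  inv_mem' := by
    intro a ha
    change smX hc a K = K at ha
    change smX hc a⁻¹ K = K
    have h1 : smX hc a⁻¹ (smX hc a K) = K := by rw [← smX_mul, inv_mul_cancel, smX_one]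
    rwa [ha] at h1

theorem mem_stX {hc : ∀ g : Γ, cjA g c = c} {K : XK c} {h : Γ} :
    h ∈ stX hc K ↔ smX hc h K = K := Iff.rfl

/-- **the invariance** for a normal subgroup with quotient generated by two commuting elements -/
theorem bt_sl (p : ℕ) [hp : Fact p.Prime] [IsAlgClosed k] [CharP k p] (hidx : ¬ p ∣ N.index)
    (hc : ∀ g : Γ, cjA g c = c) (hab : ∀ a b : Γ, a * b * a⁻¹ * b⁻¹ ∈ N)
    (hcc : c ∈ Subalgebra.center k (MonoidAlgebra k N)) (hc2 : c * c = c) {L : k → ℂ} {ζ : k}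
    {n : ℕ} (hL : Lift k n L) (hn : (n : k) ≠ 0) (hζ : IsPrimitiveRoot ζ n) (g y : Γ)
    (hg : g ^ n ∈ N) (hy : y ^ n ∈ N)
    (hgen : ∀ S : Subgroup Γ, N ≤ S → g ∈ S → y ∈ S → S = ⊤) {i j r m : ℤ}
    (hd : i * m - j * r = 1) :
    bt L ζ n (LX p c (g ^ i * y ^ j)) (g ^ r * y ^ m) = bt L ζ n (LX p c g) y := by
  have hcom : Commute (g : Γ ⧸ N) (y : Γ ⧸ N) := by
    change ((g * y : Γ) : Γ ⧸ N) = ((y * g : Γ) : Γ ⧸ N)
    rw [QuotientGroup.eq]
    have h1 : (g * y)⁻¹ * (y * g) = y⁻¹ * g⁻¹ * y⁻¹⁻¹ * g⁻¹⁻¹ := by group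
    rw [h1]
    exact hab _ _
  have hgen' : ∀ S : Subgroup Γ, N ≤ S → g ^ i * y ^ j ∈ S → g ^ r * y ^ m ∈ S → S = ⊤ := by
    intro S hS h1 h2
    have h3 : ∀ x z : Γ, x ∈ S → (x : Γ ⧸ N) = z → z ∈ S := by
      intro x z hx hxz
      have h4 := mul_mem hx (hS (QuotientGroup.eq.1 hxz))
      rwa [mul_inv_cancel_left] at h4
    refine hgen S hS (h3 _ g (mul_mem (zpow_mem h1 m) (zpow_mem h2 (-j))) ?_)
      (h3 _ y (mul_mem (zpow_mem h1 (-r)) (zpow_mem h2 i)) ?_)
    · exact sl_fst hcom hd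
    · exact sl_snd hcom hd
  have hy' : (g ^ r * y ^ m) ^ n ∈ N := by
    rw [← QuotientGroup.eq_one_iff]
    have hg1 : (g : Γ ⧸ N) ^ n = 1 := (QuotientGroup.eq_one_iff (N := N) _).2 hg
    have hy1 : (y : Γ ⧸ N) ^ n = 1 := (QuotientGroup.eq_one_iff (N := N) _).2 hy
    change ((g : Γ ⧸ N) ^ r * (y : Γ ⧸ N) ^ m) ^ n = 1
    rw [(hcom.zpow_zpow r m).mul_pow, ← zpow_natCast, ← zpow_natCast, ← zpow_mul, ← zpow_mul,
      mul_comm r, mul_comm m, zpow_mul, zpow_mul, zpow_natCast, zpow_natCast, hg1, hy1, one_zpow,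
      one_zpow, mul_one]
  have hex : ∀ K : XK c, ∃ β : Γ → Γ → k, (∀ h, smX hc h K = K) →
      ((∀ y g, ∀ ψ ∈ LK p c g K.1, cjF y ψ = β y g • ψ) ∧
      (∀ y g g', β y (g * g') = β y g * β y g') ∧ (∀ y g, β y g * β g y = 1) ∧
      (∀ g, β g g = 1) ∧ (∀ y g, g ∈ N → β y g = 1)) := by
    intro K
    by_cases hK : ∀ h, smX hc h K = K
    · obtain ⟨β, hβ⟩ := exists_beta p hidx hc hab K hK
      exact ⟨β, fun _ => hβ⟩
    · exact ⟨fun _ _ => 1, fun h => absurd h hK⟩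
  choose β hβ using hex
  rw [bt_eq_sum p hidx hc hab hcc hc2 hL hn hζ (g ^ i * y ^ j) (g ^ r * y ^ m) hy'
      (fun K h1 h2 h => by
        rw [← mem_stX, hgen' (stX hc K) (fun x hx => smX_of_mem hc hx K) h1 h2]
        exact Subgroup.mem_top h) β fun K hK => (hβ K hK).1,
    bt_eq_sum p hidx hc hab hcc hc2 hL hn hζ g y hy
      (fun K h1 h2 h => by
        rw [← mem_stX, hgen (stX hc K) (fun x hx => smX_of_mem hc hx K) h1 h2]
        exact Subgroup.mem_top h) β fun K hK => (hβ K hK).1]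
  refine finsum_congr fun K => ?_
  obtain ⟨-, h1, h2, h3, h4⟩ := hβ K.1 K.2
  rw [beta_sl h1 h2 h3 (fun y => h4 y 1 (one_mem N)) g y hd]

end one

section amb

/-- the generation of the join -/
theorem gen_top {G : Type*} [Group G] {N : Subgroup G} {g y : G}
    (hg : g ∈ N ⊔ Subgroup.closure {g, y}) (hy : y ∈ N ⊔ Subgroup.closure {g, y})
    (S : Subgroup (N ⊔ Subgroup.closure {g, y} : Subgroup G))
    (hN : N.subgroupOf (N ⊔ Subgroup.closure {g, y}) ≤ S) (hgS : (⟨g, hg⟩ : _) ∈ S)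
    (hyS : (⟨y, hy⟩ : _) ∈ S) : S = ⊤ := by
  rw [eq_top_iff]
  intro x _
  have h1 : N ⊔ Subgroup.closure {g, y} ≤ S.map (Subgroup.subtype _) := by
    refine sup_le (fun m hm => ?_) ((Subgroup.closure_le _).2 ?_)
    · exact ⟨⟨m, (le_sup_left : N ≤ N ⊔ _) hm⟩, hN (Subgroup.mem_subgroupOf.2 hm), rfl⟩
    · rintro z (rfl | rfl)
      · exact ⟨_, hgS, rfl⟩
      · exact ⟨_, hyS, rfl⟩
  obtain ⟨z, hz, hzx⟩ := h1 x.2
  have h2 : z = x := Subtype.ext hzx
  rw [← h2]
  exact hz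

section comm

variable {Γ : Type} [Group Γ] {N : Subgroup Γ} [hN : N.Normal] {g y : Γ}

/-- a quotient generated by two commuting elements is commutative -/
theorem comm_gen (hgen : ∀ S : Subgroup Γ, N ≤ S → g ∈ S → y ∈ S → S = ⊤)
    (hgy : y * g * y⁻¹ * g⁻¹ ∈ N) (a b : Γ ⧸ N) : a * b = b * a := by
  have hcom : Commute (g : Γ ⧸ N) (y : Γ ⧸ N) := by
    have h2 : (y : Γ ⧸ N) * g * (y : Γ ⧸ N)⁻¹ * (g : Γ ⧸ N)⁻¹ = 1 :=
      (QuotientGroup.eq_one_iff _).2 hgy
    rw [mul_inv_eq_one, mul_inv_eq_iff_eq_mul] at h2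
    exact h2.symm
  have hz : ∀ z : Γ ⧸ N, Commute z g → Commute z y → ∀ q, Commute z q := by
    intro z h1 h2 q
    have h3 := hgen ((Subgroup.centralizer {z}).comap (QuotientGroup.mk' N)) (fun x hx => by
        rw [Subgroup.mem_comap, Subgroup.mem_centralizer_singleton_iff]
        have h4 : QuotientGroup.mk' N x = 1 := (QuotientGroup.eq_one_iff _).2 hx
        rw [h4, one_mul, mul_one])
      (by
        rw [Subgroup.mem_comap, Subgroup.mem_centralizer_singleton_iff]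
        exact h1.symm)
      (by
        rw [Subgroup.mem_comap, Subgroup.mem_centralizer_singleton_iff]
        exact h2.symm)
    obtain ⟨x, rfl⟩ := QuotientGroup.mk_surjective q
    have h4 : x ∈ (Subgroup.centralizer {z}).comap (QuotientGroup.mk' N) := by
      rw [h3]
      exact Subgroup.mem_top x
    rw [Subgroup.mem_comap, Subgroup.mem_centralizer_singleton_iff] at h4
    exact h4.symm
  exact hz a (hz g (Commute.refl _) hcom a).symm (hz y hcom.symm (Commute.refl _) a).symm b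

/-- the index is prime to `p` -/
theorem idx_gen [Finite Γ] (p : ℕ) [hp : Fact p.Prime] {n : ℕ} (hpn : ¬ p ∣ n)
    (hgen : ∀ S : Subgroup Γ, N ≤ S → g ∈ S → y ∈ S → S = ⊤)
    (hgy : y * g * y⁻¹ * g⁻¹ ∈ N) (hgn : g ^ n ∈ N) (hyn : y ^ n ∈ N) : ¬ p ∣ N.index := by
  intro h1
  obtain ⟨q, hq⟩ := exists_prime_orderOf_dvd_card' (G := Γ ⧸ N) p h1
  obtain ⟨x, rfl⟩ := QuotientGroup.mk_surjective q
  let S : Subgroup Γ :=
    { carrier := {x | (x : Γ ⧸ N) ^ n = 1}
      mul_mem' := by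
        intro a b ha hb
        have h2 : Commute (a : Γ ⧸ N) (b : Γ ⧸ N) := comm_gen hgen hgy _ _
        have ha' : (a : Γ ⧸ N) ^ n = 1 := ha
        have hb' : (b : Γ ⧸ N) ^ n = 1 := hb
        change ((a : Γ ⧸ N) * b) ^ n = 1
        rw [h2.mul_pow, ha', hb', one_mul]
      one_mem' := one_pow _
      inv_mem' := by
        intro a ha
        have ha' : (a : Γ ⧸ N) ^ n = 1 := ha
        change ((a : Γ ⧸ N)⁻¹) ^ n = 1
        rw [inv_pow, ha', inv_one] }
  have hS : S = ⊤ := by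
    refine hgen S (fun z hz => ?_) ((QuotientGroup.eq_one_iff _).2 hgn)
      ((QuotientGroup.eq_one_iff _).2 hyn)
    change (z : Γ ⧸ N) ^ n = 1
    rw [(QuotientGroup.eq_one_iff z).2 hz, one_pow]
  have h2 : x ∈ S := hS ▸ Subgroup.mem_top x
  apply hpn
  rw [← hq]
  exact orderOf_dvd_of_pow_eq_one h2

end comm

section sl

variable {k : Type u} [Field k]

/-- (W2.2) for a normal subgroup -/
theorem sl_normal (p : ℕ) [hp : Fact p.Prime] [IsAlgClosed k] [CharP k p] {L : k → ℂ} {ζ : k}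
    {n : ℕ} (hL : Lift k n L) (hζ : IsPrimitiveRoot ζ n) (hpn : ¬ p ∣ n) {Γ : Type} [Group Γ]
    [Fintype Γ] {N : Subgroup Γ} [hN : N.Normal] {e : Γ → k} (he : ∀ x, x ∉ N → e x = 0)
    (hcf : IsCF e) (hee : conv e e = e) {g y : Γ}
    (hgen : ∀ S : Subgroup Γ, N ≤ S → g ∈ S → y ∈ S → S = ⊤)
    (hgy : y * g * y⁻¹ * g⁻¹ ∈ N) (hgn : g ^ n ∈ N) (hyn : y ^ n ∈ N) {i j r m : ℤ}
    (hd : i * m - j * r = 1) :
    bt L ζ n (LG p N e (g ^ i * y ^ j)) (g ^ r * y ^ m) = bt L ζ n (LG p N e g) y := by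
  have hn : (n : k) ≠ 0 := by
    rw [Ne, CharP.cast_eq_zero_iff k p]
    exact hpn
  have hidx : ¬ p ∣ N.index := idx_gen p hpn hgen hgy hgn hyn
  have hab : ∀ a b : Γ, a * b * a⁻¹ * b⁻¹ ∈ N := by
    intro a b
    rw [← QuotientGroup.eq_one_iff]
    change (a : Γ ⧸ N) * b * (a : Γ ⧸ N)⁻¹ * (b : Γ ⧸ N)⁻¹ = 1
    rw [comm_gen hgen hgy (a : Γ ⧸ N) b, mul_inv_cancel_right, mul_inv_cancel]
  have hinc : inc N (mkF fun x : N => e x) = mkF e := P179H12.inc_mkF N e he
  have hcc : (mkF fun x : N => e x) ∈ Subalgebra.center k (MonoidAlgebra k N) :=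
    mkF_mem fun a x => hcf a x
  have hc : ∀ h : Γ, cjA h (mkF fun x : N => e x) = mkF fun x : N => e x := by
    intro h
    apply cjA_fix
    rw [hinc]
    exact mkF_mem hcf
  have hc2 : (mkF fun x : N => e x) * (mkF fun x : N => e x) = mkF fun x : N => e x := by
    apply inc_injective N
    rw [map_mul, hinc, ← mkF_conv, hee]
  have key := bt_sl p hidx hc hab hcc hc2 hL hn hζ g y hgn hyn hgen hd
  rw [← LG_eq_LX p hidx he, ← LG_eq_LX p hidx he] at key
  exact key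

/-- the invariance under conjugation by the elements of a subgroup -/
theorem inv_gen {G : Type} [Group G] {N : Subgroup G} {e : G → k} {g y : G}
    (heN : ∀ m ∈ N, ∀ x, e (m * x * m⁻¹) = e x) (hge : P179Y.cj g e = e)
    (hye : P179Y.cj y e = e) :
    ∀ h ∈ N ⊔ Subgroup.closure {g, y}, ∀ x, e (h * x * h⁻¹) = e x := by
  let S : Subgroup G :=
    { carrier := {h | ∀ x, e (h * x * h⁻¹) = e x}
      mul_mem' := by
        intro a b ha hb x
        have h1 : a * b * x * (a * b)⁻¹ = a * (b * x * b⁻¹) * a⁻¹ := by group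
        rw [h1, ha, hb]
      one_mem' := by
        intro x
        rw [one_mul, inv_one, mul_one]
      inv_mem' := by
        intro a ha x
        rw [← ha (a⁻¹ * x * a⁻¹⁻¹)]
        congr 1
        group }
  have h1 : N ⊔ Subgroup.closure {g, y} ≤ S := by
    refine sup_le (fun a ha => heN a ha) ((Subgroup.closure_le _).2 ?_)
    rintro z (rfl | rfl)
    · exact P179H364.cj_eq_iff.1 hge
    · exact P179H364.cj_eq_iff.1 hye
  exact fun h hh => h1 hh

/-- (W2.2) in a subgroup -/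
theorem sl_sub (p : ℕ) [hp : Fact p.Prime] [IsAlgClosed k] [CharP k p] {L : k → ℂ} {ζ : k}
    {n : ℕ} (hL : Lift k n L) (hζ : IsPrimitiveRoot ζ n) (hpn : ¬ p ∣ n) {G : Type} [Group G]
    [Fintype G] {N H : Subgroup G} {e : G → k} (he : ∀ x, x ∉ N → e x = 0)
    (hee : conv e e = e) (hNH : N ≤ H) (hHN : H ≤ Subgroup.normalizer (N : Set G))
    (hinv : ∀ h ∈ H, ∀ x, e (h * x * h⁻¹) = e x) (g y : H)
    (hgen : ∀ S : Subgroup H, N.subgroupOf H ≤ S → g ∈ S → y ∈ S → S = ⊤)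
    (hgy : (y * g * y⁻¹ * g⁻¹ : G) ∈ N) (hgn : (g : G) ^ n ∈ N) (hyn : (y : G) ^ n ∈ N)
    {i j r m : ℤ} (hd : i * m - j * r = 1) :
    bt L ζ n (LG p N e ((g : G) ^ i * (y : G) ^ j)) ((g : G) ^ r * (y : G) ^ m) =
      bt L ζ n (LG p N e (g : G)) (y : G) := by
  have hN' : (N.subgroupOf H).Normal := (Subgroup.normal_subgroupOf_iff_le_normalizer hNH).2 hHN
  have he' : ∀ x : H, x ∉ N.subgroupOf H → (fun x : H => e x) x = 0 :=
    fun x hx => he x fun h => hx (Subgroup.mem_subgroupOf.2 h)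
  have heH : ∀ x, x ∉ H → e x = 0 := fun x hx => he x fun h => hx (hNH h)
  have hee' : conv (fun x : H => e x) (fun x : H => e x) = fun x : H => e x := by
    funext x
    have h1 := congrFun hee (x : G)
    unfold conv at h1 ⊢
    rw [sum_subE H _ fun z hz => by rw [heH z hz, zero_mul]] at h1
    exact h1
  have key := sl_normal p hL hζ hpn he' (fun a x => hinv a a.2 x) hee' hgen
    (Subgroup.mem_subgroupOf.2 hgy) (Subgroup.mem_subgroupOf.2 hgn)
    (Subgroup.mem_subgroupOf.2 hyn) hd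
  rw [bt_sub hNH he, bt_sub hNH he] at key
  exact key

/-- **(W2.2)** -/
theorem sl2S (p : ℕ) [hp : Fact p.Prime] (k : Type u) [Field k] [IsAlgClosed k] [CharP k p] :
    SL2S p k := by
  intro L ζ n G _ _ N e hL hζ hpn he hee heN g y hg hy hge hye hgy hgn hyn i j r m hd
  have hgH : g ∈ N ⊔ Subgroup.closure {g, y} :=
    (le_sup_right : Subgroup.closure {g, y} ≤ _) (Subgroup.subset_closure (by simp))
  have hyH : y ∈ N ⊔ Subgroup.closure {g, y} :=
    (le_sup_right : Subgroup.closure {g, y} ≤ _) (Subgroup.subset_closure (by simp))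
  have hHN : N ⊔ Subgroup.closure {g, y} ≤ Subgroup.normalizer (N : Set G) := by
    refine sup_le Subgroup.le_normalizer ((Subgroup.closure_le _).2 ?_)
    rintro z (rfl | rfl)
    · exact hg
    · exact hy
  exact sl_sub p hL hζ hpn he hee le_sup_left hHN (inv_gen heN hge hye) ⟨g, hgH⟩ ⟨y, hyH⟩
    (gen_top hgH hyH) hgy hgn hyn hd

end sl

end amb

end P179H854
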