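import Vale.Agent.P179.R2.H12.Blk

/-!
# The line of a block of a centraliser on a coset, and the interface of the step
-/

namespace P179H854

open Subgroup Finset P179H524 P179C P179A P179P P179Y P179H12

universe u

section Defs

variable {k : Type u} [Field k] {G : Type} [Group G] [Fintype G]

/-- functions on the coset `N z` invariant under `N`, determined by the `p`-regular parts of the
elements of the coset, lying in the block `e` of `N` -/
structure Ln (p : ℕ) (N : Subgroup G) (e : G → k) (z : G) (ψ : G → k) : Prop where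
  supp : ∀ g, ψ g ≠ 0 → g * z⁻¹ ∈ N
  inv : ∀ m ∈ N, ∀ g, ψ (m * g * m⁻¹) = ψ g
  reg : ∀ g, g * z⁻¹ ∈ N → ψ (pr p g) = ψ g
  mul : conv e ψ = ψ

/-- `y` acts as the scalar `a` on the line at `z` of the block of `C_G(P)` below `l` -/
def Sc (p : ℕ) (l : (G → k) → k) (P : Subgroup G) (y z : G) (a : k) : Prop :=
  ∀ b : MonoidAlgebra k (centralizer (P : Set G)), IsBlock b → Low (centralizer (P : Set G)) l b →
    ∀ ψ, Ln p (centralizer (P : Set G)) (bF (centralizer (P : Set G)) b) z ψ → P179Y.cj y ψ = a • ψ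

end Defs

/-- **the step**: passing from `C_G(P)` to `C_G(P) ∩ C_G(Q)`, `Q = C_D(z)`, does not change the
scalar of `y` on the line at `z` -/
def StepStmt (p : ℕ) (k : Type u) [Field k] : Prop :=
  ∀ (G : Type) [Group G] [Fintype G] (D P : Subgroup G) (l : (G → k) → k), BP p D l →
    IsPGroup p D → D ≤ centralizer (D : Set G) →
    ¬ p ∣ (centralizer (D : Set G)).relIndex (stabT D l) → P ≤ D →
    (∀ n ∈ stabT D l, n ∈ centralizer (P : Set G) → n ∈ centralizer (D : Set G)) →
    ∀ y ∈ stabT D l ⊓ normalizer (P : Set G), ∀ z ∈ stabT D l ⊓ normalizer (P : Set G),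
      y * z * y⁻¹ * z⁻¹ ∈ centralizer (D : Set G) →
      ∀ a : k, Sc p l (P ⊔ (D ⊓ centralizer {z})) y z a → Sc p l P y z a

end P179H854
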