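import Vale.Agent.P179.R2.H452.N1
import Vale.Agent.P179.R2.H666.Col2
import Vale.Agent.P179.H905.J7

/-!
# The Gram matrix of the columns
-/

namespace P179H854

open Finset P179P P179C P179Y Subgroup P179H524 P179I P179A P179H452 P179H666

open scoped Classical

universe v

section

variable {p : ℕ} [hp : Fact p.Prime] {k : Type v} [Field k] [CharP k p] {red : AA →+* k}
  {G : Type} [Group G] [Fintype G] {D H : Subgroup G} {l : (G → k) → k} {s : ℕ}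

omit hp in
theorem Pk_eq (ψ : Fin s → Irr H) (σ : Fin s → ℤ) (m : ℕ) (i : Fin s) :
    Pk ψ σ m i = fun x => ∑ j, ((((if i = j then 1 else 0) + m) * σ j : ℝ) : ℂ) * (ψ j).1 x := by
  funext x
  unfold Pk
  have h1 : ∀ j : Fin s, ((((if i = j then 1 else 0) + m) * σ j : ℝ) : ℂ) * (ψ j).1 x =
      (if i = j then (σ j : ℂ) * (ψ j).1 x else 0) + (m : ℂ) * ((σ j : ℂ) * (ψ j).1 x) := by
    intro j
    by_cases hij : i = j
    · rw [if_pos hij, if_pos hij]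
      push_cast
      ring
    · rw [if_neg hij, if_neg hij]
      push_cast
      ring
  rw [Finset.sum_congr rfl fun j _ => h1 j, Finset.sum_add_distrib, Finset.sum_ite_eq,
    if_pos (mem_univ i), ← Finset.mul_sum]

omit hp in
theorem eq_cz {u : G} (hH : ∀ x, x ∈ H ↔ x * u = u * x) : H = centralizer {u} := by
  ext x
  rw [hH, mem_cz]

theorem exists_pow_of_mem (hD : IsPGroup p D) {u : G} (hu : u ∈ D) : ∃ a : ℕ, u ^ p ^ a = 1 := by
  obtain ⟨n, hn⟩ := hD ⟨u, hu⟩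
  exact ⟨n, by simpa using congrArg Subtype.val hn⟩

theorem XA_colP {ψ : Fin s → Irr H} {σ : Fin s → ℤ} {m a1 a2 : ℕ}
    (h : NDat p red D l H ψ σ m a1 a2) {u : G} (hH : ∀ x, x ∈ H ↔ x * u = u * x) (i : Fin s)
    (χ : Irr G) : (XA p ψ σ m a1 i u χ : ℂ) = (p : ℂ) ^ a1 * colP p H (fun x =>
      ∑ j, ((((if i = j then 1 else 0) + m) * σ j : ℝ) : ℂ) * (ψ j).1 x) u χ.1 := by
  rw [h.XA_coe hH, dn_eq_colP, Pk_eq]
  push_cast
  rfl

/-- **(A1)** -/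
theorem xa_same {ψ : Fin s → Irr H} {σ : Fin s → ℤ} {m a1 a2 : ℕ}
    (h : NDat p red D l H ψ σ m a1 a2) {u : G} (hu : ∃ a : ℕ, u ^ p ^ a = 1)
    (hH : ∀ x, x ∈ H ↔ x * u = u * x) (i j : Fin s) :
    ∑ χ : Irr G, (XA p ψ σ m a1 i u χ : ℂ) * (starRingEnd ℂ) (XA p ψ σ m a1 j u χ : ℂ) =
      (p : ℂ) ^ a1 * ((if i = j then 1 else 0) + m) := by
  have hH0 : (Nat.card H : ℂ) ≠ 0 := by exact_mod_cast Nat.card_pos.ne'
  have hp0 : (p : ℂ) ≠ 0 := by exact_mod_cast hp.out.ne_zero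
  have h1 : ∀ χ : Irr G, (XA p ψ σ m a1 i u χ : ℂ) *
      (starRingEnd ℂ) (XA p ψ σ m a1 j u χ : ℂ) = (p : ℂ) ^ a1 * (p : ℂ) ^ a1 *
      (colP p H (fun x => ∑ r, ((((if i = r then 1 else 0) + m) * σ r : ℝ) : ℂ) * (ψ r).1 x)
          u χ.1 *
        (starRingEnd ℂ) (colP p H (fun x =>
          ∑ r, ((((if j = r then 1 else 0) + m) * σ r : ℝ) : ℂ) * (ψ r).1 x) u χ.1)) := by
    intro χ
    rw [XA_colP h hH, XA_colP h hH, map_mul, map_pow, Complex.conj_natCast]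
    ring
  rw [Finset.sum_congr rfl fun χ _ => h1 χ, ← Finset.mul_sum, colP_same p H
    (fun r => ((if i = r then 1 else 0) + m) * σ r) (fun r => ((if j = r then 1 else 0) + m) * σ r)
    ψ ψ u hu hH]
  have h2 : (fun t : H => (∑ r, ((((if j = r then 1 else 0) + m) * σ r : ℝ) : ℂ) * (ψ r).1 t) *
      (∑ r, ((((if i = r then 1 else 0) + m) * σ r : ℝ) : ℂ) * (ψ r).1 t⁻¹)) =
      fun t : H => ∑ r, ((if j = r then 1 else 0) + (m : ℂ)) *
        (((σ r : ℂ) * (ψ r).1 t) * Pk ψ σ m i t⁻¹) := by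
    funext t
    rw [Pk_eq, Finset.sum_mul]
    refine Finset.sum_congr rfl fun r _ => ?_
    by_cases hjr : j = r
    · rw [if_pos hjr, if_pos hjr]
      push_cast
      ring
    · rw [if_neg hjr, if_neg hjr]
      push_cast
      ring
  rw [h2, P179H452.rsum_sum]
  have h3 : ∀ r, rsum p (fun t : H => ((if j = r then 1 else 0) + (m : ℂ)) *
      (((σ r : ℂ) * (ψ r).1 t) * Pk ψ σ m i t⁻¹)) = ((if j = r then 1 else 0) + (m : ℂ)) *
      (Nat.card H * (if r = i then 1 else 0) / (p : ℂ) ^ a1) := by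
    intro r
    rw [P179H452.rsum_smul, ← h.dual r i]
    congr 1
    rw [mul_div_cancel_left₀ _ (pow_ne_zero _ hp0)]
  rw [Finset.sum_congr rfl fun r _ => h3 r]
  have h4 : ∑ r, ((if j = r then 1 else 0) + (m : ℂ)) *
      (Nat.card H * (if r = i then 1 else 0) / (p : ℂ) ^ a1) =
      ((if j = i then 1 else 0) + (m : ℂ)) * (Nat.card H / (p : ℂ) ^ a1) := by
    rw [Finset.sum_eq_single i]
    · rw [if_pos (rfl : i = i), mul_one]
    · intro r _ hr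
      rw [if_neg hr, mul_zero, zero_div, mul_zero]
    · intro h
      exact absurd (mem_univ i) h
  rw [h4]
  have h5 : (if j = i then (1 : ℂ) else 0) = if i = j then 1 else 0 := by
    by_cases h : i = j
    · rw [if_pos h, if_pos h.symm]
    · rw [if_neg h, if_neg fun h' => h h'.symm]
  rw [h5]
  field_simp

theorem colP_orth' [IsAlgClosed k] (hl : BP p D l) (hD : IsPGroup p D)
    (hab : D ≤ centralizer (D : Set G))
    (hT : ¬ p ∣ (centralizer (D : Set G)).relIndex (stabT D l)) {u u' : G} (hu : u ∈ D)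
    (hu' : u' ∈ D) {H H' : Subgroup G} (hH : H = centralizer {u}) (hH' : H' = centralizer {u'})
    {ι ι' : Type*} [Fintype ι] [Fintype ι'] (a : ι → ℝ) (a' : ι' → ℝ)
    (ψ : ι → Irr H) (ψ' : ι' → Irr H') (hψ : ∀ i, InL red (lres H l) (ψ i).1)
    (hψ' : ∀ i, InL red (lres H' l) (ψ' i).1)
    (hne : ¬ ∃ t ∈ stabT D l, t * u * t⁻¹ = u') :
    ∑ χ : Irr G, colP p H (fun x => ∑ i, (a i : ℂ) * (ψ i).1 x) u χ.1 *
      (starRingEnd ℂ) (colP p H' (fun x => ∑ i, (a' i : ℂ) * (ψ' i).1 x) u' χ.1) = 0 := by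
  subst hH
  subst hH'
  exact colP_orth hl hD hab hT hu hu' a a' ψ ψ' hψ hψ' hne

/-- **(A2)** -/
theorem xa_orth [IsAlgClosed k] (hl : BP p D l) (hD : IsPGroup p D)
    (hab : D ≤ centralizer (D : Set G))
    (hT : ¬ p ∣ (centralizer (D : Set G)).relIndex (stabT D l)) {ψ : Fin s → Irr H}
    {σ : Fin s → ℤ} {m a1 a2 : ℕ} (h : NDat p red D l H ψ σ m a1 a2) {u u' : G} (hu : u ∈ D)
    (hu' : u' ∈ D) (hH : ∀ x, x ∈ H ↔ x * u = u * x) (hH' : ∀ x, x ∈ H ↔ x * u' = u' * x)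
    (hne : ¬ ∃ t ∈ stabT D l, t * u * t⁻¹ = u') (i j : Fin s) :
    ∑ χ : Irr G, (XA p ψ σ m a1 i u χ : ℂ) * (starRingEnd ℂ) (XA p ψ σ m a1 j u' χ : ℂ) = 0 := by
  have h1 : ∀ χ : Irr G, (XA p ψ σ m a1 i u χ : ℂ) *
      (starRingEnd ℂ) (XA p ψ σ m a1 j u' χ : ℂ) = (p : ℂ) ^ a1 * (p : ℂ) ^ a1 *
      (colP p H (fun x => ∑ r, ((((if i = r then 1 else 0) + m) * σ r : ℝ) : ℂ) * (ψ r).1 x)
          u χ.1 *
        (starRingEnd ℂ) (colP p H (fun x =>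
          ∑ r, ((((if j = r then 1 else 0) + m) * σ r : ℝ) : ℂ) * (ψ r).1 x) u' χ.1)) := by
    intro χ
    rw [XA_colP h hH, XA_colP h hH', map_mul, map_pow, Complex.conj_natCast]
    ring
  rw [Finset.sum_congr rfl fun χ _ => h1 χ, ← Finset.mul_sum, colP_orth' (red := red) hl hD hab hT
    hu hu' (eq_cz hH) (eq_cz hH') _ _ ψ ψ h.inl h.inl hne, mul_zero]

variable {Φ : ∀ H : Subgroup G, Irr H} {aH bH : Subgroup G → ℕ} {ε : Subgroup G → ℤ} {κ₀ : k}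

theorem ad_colP (hL : LocR p red D l Φ aH bH ε κ₀) {u : G} (hu : RegT D l u) (hu1 : u ≠ 1)
    (χ : Irr G) : (Ad p D Φ ε u χ : ℂ) = (ε (centralizer {u}) : ℂ) * Nat.card D *
      colP p (centralizer {u}) (fun x => ∑ i : Fin 1, (((fun _ => 1 : Fin 1 → ℝ) i : ℝ) : ℂ) *
        ((fun _ => Φ (centralizer {u}) : Fin 1 → Irr (centralizer {u} : Subgroup G)) i).1 x)
          u χ.1 := by
  unfold Ad
  push_cast
  rw [hL.dn_coe hu hu1, dn_eq_colP]
  simp only [Finset.univ_unique, Finset.sum_singleton, one_mul]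
  ring

/-- **(A3)** -/
theorem xa_ad [IsAlgClosed k] (hL : LocR p red D l Φ aH bH ε κ₀) (hl : BP p D l)
    (hD : IsPGroup p D) (hab : D ≤ centralizer (D : Set G))
    (hT : ¬ p ∣ (centralizer (D : Set G)).relIndex (stabT D l)) {ψ : Fin s → Irr H}
    {σ : Fin s → ℤ} {m a1 a2 : ℕ} (h : NDat p red D l H ψ σ m a1 a2) {u u' : G} (hu : u ∈ D)
    (hH : ∀ x, x ∈ H ↔ x * u = u * x) (hu' : RegT D l u') (hu1 : u' ≠ 1)
    (hne : ¬ ∃ t ∈ stabT D l, t * u * t⁻¹ = u') (i : Fin s) :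
    ∑ χ : Irr G, (XA p ψ σ m a1 i u χ : ℂ) * (starRingEnd ℂ) (Ad p D Φ ε u' χ : ℂ) = 0 := by
  have h1 : ∀ χ : Irr G, (XA p ψ σ m a1 i u χ : ℂ) *
      (starRingEnd ℂ) (Ad p D Φ ε u' χ : ℂ) = (p : ℂ) ^ a1 * ((ε (centralizer {u'}) : ℂ) *
        Nat.card D) *
      (colP p H (fun x => ∑ r, ((((if i = r then 1 else 0) + m) * σ r : ℝ) : ℂ) * (ψ r).1 x)
          u χ.1 *
        (starRingEnd ℂ) (colP p (centralizer {u'}) (fun x => ∑ i : Fin 1,
          (((fun _ => 1 : Fin 1 → ℝ) i : ℝ) : ℂ) *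
        ((fun _ => Φ (centralizer {u'}) : Fin 1 → Irr (centralizer {u'} : Subgroup G)) i).1 x)
          u' χ.1)) := by
    intro χ
    rw [XA_colP h hH, ad_colP hL hu' hu1, map_mul, map_mul, Complex.conj_natCast, map_intCast]
    ring
  rw [Finset.sum_congr rfl fun χ _ => h1 χ, ← Finset.mul_sum, colP_orth' (red := red) hl hD hab hT
    hu hu'.1 (eq_cz hH) rfl _ _ ψ _ h.inl (fun _ => (hL.nd u' hu' hu1).mem) hne, mul_zero]

/-- **(A3)**, the other order -/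
theorem ad_xa [IsAlgClosed k] (hL : LocR p red D l Φ aH bH ε κ₀) (hl : BP p D l)
    (hD : IsPGroup p D) (hab : D ≤ centralizer (D : Set G))
    (hT : ¬ p ∣ (centralizer (D : Set G)).relIndex (stabT D l)) {ψ : Fin s → Irr H}
    {σ : Fin s → ℤ} {m a1 a2 : ℕ} (h : NDat p red D l H ψ σ m a1 a2) {u u' : G} (hu : u ∈ D)
    (hH : ∀ x, x ∈ H ↔ x * u = u * x) (hu' : RegT D l u') (hu1 : u' ≠ 1)
    (hne : ¬ ∃ t ∈ stabT D l, t * u * t⁻¹ = u') (i : Fin s) :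
    ∑ χ : Irr G, (Ad p D Φ ε u' χ : ℂ) * (starRingEnd ℂ) (XA p ψ σ m a1 i u χ : ℂ) = 0 := by
  have h1 := congrArg (starRingEnd ℂ) (xa_ad hL hl hD hab hT h hu hH hu' hu1 hne i)
  rw [map_sum, map_zero] at h1
  rw [← h1]
  refine Finset.sum_congr rfl fun χ _ => ?_
  rw [map_mul, Complex.conj_conj, mul_comm]

/-- **(A4)** -/
theorem ad_ad (hL : LocR p red D l Φ aH bH ε κ₀) (hl : BP p D l) (hD : IsPGroup p D)
    (hab : D ≤ centralizer (D : Set G)) {u b : G} (hu : RegT D l u) (hu1 : u ≠ 1)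
    (hb : RegT D l b) (hb1 : b ≠ 1) :
    ∑ χ : Irr G, (Ad p D Φ ε u χ : ℂ) * (starRingEnd ℂ) (Ad p D Φ ε b χ : ℂ) =
      if ∃ t ∈ stabT D l, t * u * t⁻¹ = b then (Nat.card D : ℂ) else 0 := by
  have h4 := congrArg (fun x : AA => (x : ℂ)) (hL.gram hl hD hab hu hu1 (RegT.inv' hb)
    (inv_ne_one.2 hb1))
  simp only [inv_inv] at h4
  push_cast at h4
  have h5 : (∑ χ : Irr G, (Ad p D Φ ε u χ : ℂ) * (Ad p D Φ ε b⁻¹ χ : ℂ)) =
      if ∃ t ∈ stabT D l, t * u * t⁻¹ = b then (Nat.card D : ℂ) else 0 := by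
    rw [h4]
    split_ifs <;> simp
  rw [← h5]
  exact Finset.sum_congr rfl fun χ _ => by rw [hL.ad_star hb hb1]

omit hp [CharP k p] red in
theorem star_one (χ : Irr G) : (starRingEnd ℂ) (χ.1 1) = χ.1 1 := by
  obtain ⟨d, -, hd⟩ := χ.exists_deg
  rw [hd, Complex.conj_natCast]

/-- **(A5)** -/
theorem xa_one {ψ : Fin s → Irr H} {σ : Fin s → ℤ} {m a1 a2 : ℕ}
    (h : NDat p red D l H ψ σ m a1 a2) {u : G} (hu : ∃ a : ℕ, u ^ p ^ a = 1) (hu1 : u ≠ 1)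
    (hH : ∀ x, x ∈ H ↔ x * u = u * x) (i : Fin s) :
    ∑ χ : Irr G, (XA p ψ σ m a1 i u χ : ℂ) * (starRingEnd ℂ) (χ.1 1) = 0 := by
  have h1 : ∀ χ : Irr G, (XA p ψ σ m a1 i u χ : ℂ) * (starRingEnd ℂ) (χ.1 1) =
      (p : ℂ) ^ a1 * (colP p H (fun x =>
        ∑ j, ((((if i = j then 1 else 0) + m) * σ j : ℝ) : ℂ) * (ψ j).1 x) u χ.1 * χ.1 1) := by
    intro χ
    rw [XA_colP h hH, star_one]
    ring
  rw [Finset.sum_congr rfl fun χ _ => h1 χ, ← Finset.mul_sum, colP_reg p H _ hu hu1 hH (by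
    rw [orderOf_one]
    exact hp.out.one_lt.ne' ∘ Nat.dvd_one.1), mul_zero]

/-- **(A5)**, regular elements -/
theorem ad_one (hL : LocR p red D l Φ aH bH ε κ₀) (hD : IsPGroup p D) {u : G} (hu : RegT D l u)
    (hu1 : u ≠ 1) : ∑ χ : Irr G, (Ad p D Φ ε u χ : ℂ) * (starRingEnd ℂ) (χ.1 1) = 0 := by
  have h4 := congrArg (fun x : AA => (x : ℂ)) (hL.reg hD hu hu1 (g := 1) (by
    rw [orderOf_one]
    exact hp.out.one_lt.ne' ∘ Nat.dvd_one.1))
  push_cast at h4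
  rw [← h4]
  refine Finset.sum_congr rfl fun χ _ => ?_
  rw [star_one]
  rfl

end

end P179H854
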