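import Vale.Agent.P179.R2.H450.CohDef
import Vale.Agent.P179.H905.J7

/-!
# The characters of a block with a central subgroup in the kernel
-/

namespace P179H854

open Finset P179P P179C P179Y Subgroup P179H524 P179I P179H450

open scoped Classical IsMulCommutative

universe v

section Mu

variable {G : Type} [Group G] [Fintype G] {Z : Subgroup G}

/-- the scalar of a central element -/
noncomputable def mu (ψ : Irr G) (z : G) : ℂ := ψ.1 z / ψ.1 1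

theorem mu_mul {z : G} (hz : ∀ x, z * x = x * z) (ψ : Irr G) (x : G) :
    ψ.1 (z * x) = mu ψ z * ψ.1 x := by
  obtain ⟨c, -, hc⟩ := central_scalar ψ z (fun x => (hz x).symm) (pow_orderOf_eq_one z)
  have h1 := hc 1 x
  have h2 := hc 1 1
  rw [pow_one, pow_one] at h1 h2
  rw [mul_one] at h2
  unfold mu
  rw [h1, h2, mul_div_assoc, div_self (Irr.one_ne_zero ψ), mul_one]

theorem mu_eq_one {ψ : Irr G} (h : ∀ z ∈ Z, ∀ x, ψ.1 (z * x) = ψ.1 x) {z : G} (hz : z ∈ Z) :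
    mu ψ z = 1 := by
  unfold mu
  have h1 := h z hz 1
  rw [mul_one] at h1
  rw [h1, div_self (Irr.one_ne_zero ψ)]

theorem sum_mu (hZc : ∀ z ∈ Z, ∀ x, z * x = x * z) (ψ : Irr G) :
    ∑ z : Z, mu ψ z = if ∀ z ∈ Z, ∀ x, ψ.1 (z * x) = ψ.1 x then (Nat.card Z : ℂ) else 0 := by
  split_ifs with h
  · rw [Finset.sum_congr rfl fun z _ => mu_eq_one h z.2, Finset.sum_const, card_univ,
      nsmul_eq_mul, mul_one, Nat.card_eq_fintype_card]
  · push Not at h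
    obtain ⟨z0, hz0, x, hx⟩ := h
    have h1 : mu ψ z0 ≠ 1 := by
      intro h1
      apply hx
      rw [mu_mul (hZc z0 hz0), h1, one_mul]
    have h2 : ∑ z : Z, mu ψ z = mu ψ z0 * ∑ z : Z, mu ψ z := by
      rw [Finset.mul_sum]
      refine (Fintype.sum_equiv (Equiv.mulLeft (⟨z0, hz0⟩ : Z)) _ _ fun z => ?_).symm
      change mu ψ z0 * mu ψ z = mu ψ (z0 * z)
      unfold mu
      rw [mu_mul (hZc z0 hz0) ψ z]
      unfold mu
      ring
    have h3 : (1 - mu ψ z0) * ∑ z : Z, mu ψ z = 0 := by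
      rw [sub_mul, one_mul, ← h2, sub_self]
    rcases mul_eq_zero.1 h3 with h4 | h4
    · exact absurd (sub_eq_zero.1 h4).symm h1
    · exact h4

end Mu

section

variable {p : ℕ} [hp : Fact p.Prime] {k : Type v} [Field k] [CharP k p] {red : AA →+* k}
  {G : Type} [Group G] [Fintype G] {D : Subgroup G} {l : (G → k) → k}
  {Φ : ∀ H : Subgroup G, Irr H} {aH bH : Subgroup G → ℕ} {ε : Subgroup G → ℤ} {κ₀ : k}
  {Z : Subgroup G}

omit hp [CharP k p] in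
/-- the sum over the characters with `Z` in the kernel -/
theorem sum_XZ (hZc : ∀ z ∈ Z, ∀ x, z * x = x * z) (f : Irr G → ℂ)
    (hf : ∀ ψ, ¬ InL red l ψ.1 → f ψ = 0) :
    (Nat.card Z : ℂ) * ∑ ψ ∈ XZ red l Z, f ψ = ∑ z : Z, ∑ ψ : Irr G, f ψ * mu ψ z := by
  rw [Finset.sum_comm]
  simp only [← Finset.mul_sum]
  rw [XZ, Finset.sum_filter, Finset.mul_sum]
  refine Finset.sum_congr rfl fun ψ _ => ?_
  rw [sum_mu hZc]
  by_cases h1 : InL red l ψ.1
  · by_cases h2 : ∀ z ∈ Z, ∀ x, ψ.1 (z * x) = ψ.1 x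
    · rw [if_pos ⟨h1, h2⟩, if_pos h2, mul_comm]
    · rw [if_neg fun h => h2 h.2, if_neg h2, mul_zero, mul_zero]
  · rw [if_neg fun h => h1 h.1, hf ψ h1, mul_zero, zero_mul]

theorem ad_smul (h : LocR p red D l Φ aH bH ε κ₀) (hZc : ∀ z ∈ Z, ∀ x, z * x = x * z)
    (hZD : Z ≤ D) (hreg : ∀ u ∈ D, u ∉ Z → RegT D l u) {z : G} (hz : z ∈ Z) {u : G} (hu : u ∈ D)
    (huZ : u ∉ Z) (ψ : Irr G) :
    (Ad p D Φ ε (z * u) ψ : ℂ) = mu ψ z * (Ad p D Φ ε u ψ : ℂ) := by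
  have hzu : z * u ∈ D := mul_mem (hZD hz) hu
  have hzuZ : z * u ∉ Z := fun h => huZ (by simpa using mul_mem (inv_mem hz) h)
  have h1 : ∀ v : G, v ∉ Z → v ≠ 1 := fun v hv h => hv (h ▸ one_mem Z)
  have hcz : (centralizer {z * u} : Subgroup G) = centralizer {u} := by
    ext x
    rw [mem_cz, mem_cz]
    constructor
    · intro h
      rw [← mul_assoc, ← hZc z hz x, mul_assoc, mul_assoc] at h
      exact mul_left_cancel h
    · intro h
      rw [← mul_assoc, ← hZc z hz x, mul_assoc, mul_assoc, h]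
  unfold Ad
  push_cast
  rw [h.dn_coe (hreg _ hzu hzuZ) (h1 _ hzuZ), h.dn_coe (hreg _ hu huZ) (h1 _ huZ), hcz]
  unfold dn
  rw [rsum_eq, rsum_eq]
  have h2 : ∀ t : (centralizer {u} : Subgroup G), ψ.1 (z * u * t) * (Φ (centralizer {u})).1 t⁻¹ =
      mu ψ z * (ψ.1 (u * t) * (Φ (centralizer {u})).1 t⁻¹) := by
    intro t
    rw [mul_assoc, mu_mul (hZc z hz), mul_assoc]
  rw [Finset.sum_congr rfl fun t _ => h2 t, ← Finset.mul_sum]
  ring

/-- **(C1)** -/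
theorem ad_mul_of_mem_XZ (h : LocR p red D l Φ aH bH ε κ₀)
    (hZc : ∀ z ∈ Z, ∀ x, z * x = x * z) (hZD : Z ≤ D) (hreg : ∀ u ∈ D, u ∉ Z → RegT D l u)
    {ψ : Irr G} (hψ : ψ ∈ XZ red l Z) {z : G} (hz : z ∈ Z) {u : G} (hu : u ∈ D) (huZ : u ∉ Z) :
    Ad p D Φ ε (z * u) ψ = Ad p D Φ ε u ψ := by
  apply Subtype.ext
  rw [ad_smul h hZc hZD hreg hz hu huZ, mu_eq_one (mem_XZ.1 hψ).2 hz, one_mul]

/-- **(C3)** -/
theorem sum_XZ_reg (h : LocR p red D l Φ aH bH ε κ₀) (hl : BP p D l) (hD : IsPGroup p D)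
    (hZc : ∀ z ∈ Z, ∀ x, z * x = x * z) (hZD : Z ≤ D) (hreg : ∀ u ∈ D, u ∉ Z → RegT D l u)
    {u : G} (hu : u ∈ D) (huZ : u ∉ Z) {g : G} (hg : ¬ p ∣ orderOf g) :
    ∑ ψ ∈ XZ red l Z, (Ad p D Φ ε u ψ : ℂ) * ψ.1 g = 0 := by
  have h1 : ∀ v : G, v ∉ Z → v ≠ 1 := fun v hv h => hv (h ▸ one_mem Z)
  have h2 := sum_XZ (red := red) (l := l) hZc (fun ψ => (Ad p D Φ ε u ψ : ℂ) * ψ.1 g)
    fun ψ hψ => by
      have h3 := h.Ad_eq_zero hl hD (hreg u hu huZ) (h1 u huZ) ψ hψ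
      rw [h3]
      simp
  have h3 : ∀ z : Z, ∑ ψ : Irr G, (Ad p D Φ ε u ψ : ℂ) * ψ.1 g * mu ψ z = 0 := by
    intro z
    have hzu : (z : G) * u ∈ D := mul_mem (hZD z.2) hu
    have hzuZ : (z : G) * u ∉ Z := fun h => huZ (by simpa using mul_mem (inv_mem z.2) h)
    have h4 := congrArg (fun x : AA => (x : ℂ))
      (h.reg hD (hreg _ hzu hzuZ) (h1 _ hzuZ) hg)
    push_cast at h4
    rw [← h4]
    refine Finset.sum_congr rfl fun ψ _ => ?_
    rw [ad_smul h hZc hZD hreg z.2 hu huZ]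
    change _ = mu ψ z * (Ad p D Φ ε u ψ : ℂ) * ψ.1 g
    ring
  rw [Finset.sum_congr rfl fun z _ => h3 z, Finset.sum_const_zero] at h2
  rcases mul_eq_zero.1 h2 with h4 | h4
  · exact absurd h4 (by exact_mod_cast Nat.card_pos.ne')
  · exact h4

/-- **(C2)** -/
theorem sum_XZ_gram (h : LocR p red D l Φ aH bH ε κ₀) (hl : BP p D l) (hD : IsPGroup p D)
    (hab : D ≤ centralizer (D : Set G)) (hZc : ∀ z ∈ Z, ∀ x, z * x = x * z) (hZD : Z ≤ D)
    (hreg : ∀ u ∈ D, u ∉ Z → RegT D l u) {u b : G} (hu : u ∈ D) (huZ : u ∉ Z) (hb : b ∈ D)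
    (hbZ : b ∉ Z) :
    ∑ ψ ∈ XZ red l Z, (Ad p D Φ ε u ψ : ℂ) * (starRingEnd ℂ) (Ad p D Φ ε b ψ : ℂ) =
      1 / (Nat.card Z : ℂ) * ∑ z : Z, if ∃ t ∈ stabT D l, t * u * t⁻¹ = (z : G) * b then
        (Nat.card D : ℂ) else 0 := by
  have h1 : ∀ v : G, v ∉ Z → v ≠ 1 := fun v hv h => hv (h ▸ one_mem Z)
  have h2 := sum_XZ (red := red) (l := l) hZc
    (fun ψ => (starRingEnd ℂ) ((Ad p D Φ ε u ψ : ℂ) * (starRingEnd ℂ) (Ad p D Φ ε b ψ : ℂ)))
    fun ψ hψ => by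
      have h3 := h.Ad_eq_zero hl hD (hreg u hu huZ) (h1 u huZ) ψ hψ
      rw [h3]
      simp
  have h3 : ∀ z : Z, (starRingEnd ℂ) (∑ ψ : Irr G,
      (starRingEnd ℂ) ((Ad p D Φ ε u ψ : ℂ) * (starRingEnd ℂ) (Ad p D Φ ε b ψ : ℂ)) *
        mu ψ z) = if ∃ t ∈ stabT D l, t * u * t⁻¹ = (z : G) * b then (Nat.card D : ℂ) else 0 := by
    intro z
    have hzb : (z : G) * b ∈ D := mul_mem (hZD z.2) hb
    have hzbZ : (z : G) * b ∉ Z := fun h => hbZ (by simpa using mul_mem (inv_mem z.2) h)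
    have hzr := hreg _ hzb hzbZ
    have h4 := congrArg (fun x : AA => (x : ℂ)) (h.gram hl hD hab (hreg _ hu huZ) (h1 _ huZ)
      (RegT.inv' hzr) (inv_ne_one.2 (h1 _ hzbZ)))
    simp only [inv_inv] at h4
    push_cast at h4
    have h5 : (∑ ψ : Irr G, (Ad p D Φ ε u ψ : ℂ) * (Ad p D Φ ε ((z : G) * b)⁻¹ ψ : ℂ)) =
        if ∃ t ∈ stabT D l, t * u * t⁻¹ = (z : G) * b then (Nat.card D : ℂ) else 0 := by
      rw [h4]
      split_ifs <;> simp
    rw [← h5, map_sum]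
    refine Finset.sum_congr rfl fun ψ _ => ?_
    rw [← h.ad_star hzr (h1 _ hzbZ), ad_smul h hZc hZD hreg z.2 hb hbZ]
    simp only [map_mul, Complex.conj_conj]
    ring
  have h4 := congrArg (starRingEnd ℂ) h2
  rw [map_mul, map_sum, map_sum, Finset.sum_congr rfl fun z _ => h3 z] at h4
  rw [← h4]
  have hZ0 : (Nat.card Z : ℂ) ≠ 0 := by exact_mod_cast Nat.card_pos.ne'
  simp only [Complex.conj_conj, Complex.conj_natCast]
  field_simp

include hp in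
/-- **(C4)** -/
theorem sum_lam [IsAlgClosed k] [IsMulCommutative D] (h : LocR p red D l Φ aH bH ε κ₀)
    (hl : BP p D l) (hD : IsPGroup p D) (hab : D ≤ centralizer (D : Set G)) (hp2 : p ≠ 2)
    (he : ((centralizer (D : Set G)).relIndex (stabT D l) : k) ≠ 0)
    (hreg : ∀ u ∈ D, u ∉ Z → RegT D l u) (lam : AddChar (Additive D) ℂ)
    (hlam : ∀ b : Additive D, ((b.toMul : D) : G) ∈ Z → lam b = 1) (ψ : Irr G) :
    ∃ n : ℤ, ∑ b : Additive D, (if ((b.toMul : D) : G) ∈ Z then 0 else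
      (lam (-b) - 1) * (Ad p D Φ ε ((b.toMul : D) : G) ψ : ℂ)) = (Nat.card D : ℂ) * n := by
  have h1 : ∀ v : G, v ∉ Z → v ≠ 1 := fun v hv h => hv (h ▸ one_mem Z)
  have hc : ∀ b : Additive D, (∑ χ : AddChar (Additive D) ℂ,
      (((if χ = -lam then 1 else 0) - (if χ = 0 then 1 else 0) : ℤ) : AA) * lamA χ b) =
      lamA (-lam) b - 1 := by
    intro b
    push_cast
    simp only [sub_mul, Finset.sum_sub_distrib, ite_mul, one_mul, zero_mul, Finset.sum_ite_eq',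
      mem_univ, if_true, lamA_zero]
  have hval : ∀ b : Additive D, ((lamA (-lam) b - 1 : AA) : ℂ) = lam (-b) - 1 := by
    intro b
    push_cast
    rw [lamA_coe, AddChar.neg_apply]
  have hvan : ∀ b : Additive D, ((b.toMul : D) : G) ∈ Z → lam (-b) = 1 := by
    intro b hb
    refine hlam (-b) ?_
    exact inv_mem hb
  obtain ⟨n, hn⟩ := h.INT hl hD hab hp2 he
    (fun χ => (if χ = -lam then 1 else 0) - (if χ = 0 then 1 else 0)) (fun b hb => by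
      rw [hc]
      apply Subtype.ext
      rw [hval]
      by_cases hbZ : ((b.toMul : D) : G) ∈ Z
      · rw [hvan b hbZ, sub_self]
        rfl
      · exact absurd ⟨hreg _ b.toMul.2 hbZ, h1 _ hbZ⟩ hb) ψ
  refine ⟨n, ?_⟩
  have h2 := congrArg (fun x : AA => (x : ℂ)) hn
  simp only [hc] at h2
  push_cast at h2
  rw [← h2]
  refine Finset.sum_congr rfl fun b _ => ?_
  have h3 := hval b
  push_cast at h3
  rw [h3]
  split_ifs with hb
  · rw [hvan b hb, sub_self, zero_mul]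
  · rfl

end

end P179H854
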