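import Vale.Agent.P179.R2.H854.Euc

/-!
# The induction over the subgroups `P` between `R` and `D`
-/

namespace P179H854

open Subgroup

/-- `Sc P y z a`: `y` acts as the scalar `a` on the line of `P` at `z`. If the scalars behave like
an alternating pairing and are unchanged by `P ↦ P C_D(z)`, they are independent of `P`. -/
theorem same_of_step {p : ℕ} [hp : Fact p.Prime] {G : Type*} [Group G] [Finite G] {k : Type*}
    [Field k] {D R T : Subgroup G} (hDp : IsPGroup p D)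
    (hab : D ≤ centralizer (D : Set G)) (hTD : T ≤ normalizer (D : Set G))
    (hm : ∀ z ∈ T, ∃ m : ℕ, ¬ p ∣ m ∧ z ^ m ∈ centralizer (D : Set G))
    (Sc : Subgroup G → G → G → k → Prop)
    (hSc : ∀ P : Subgroup G, R ≤ P → P ≤ D → ∃ α : G → G → k,
      ∀ y ∈ T ⊓ normalizer (P : Set G), ∀ z ∈ T ⊓ normalizer (P : Set G),
        y * z * y⁻¹ * z⁻¹ ∈ centralizer (D : Set G) →
        (∀ a, Sc P y z a ↔ a = α y z) ∧ α y z * α z y = 1 ∧ α y (z * y⁻¹) = α y z)
    (hstep : ∀ P : Subgroup G, R ≤ P → P ≤ D →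
      ∀ y ∈ T ⊓ normalizer (P : Set G), ∀ z ∈ T ⊓ normalizer (P : Set G),
        y * z * y⁻¹ * z⁻¹ ∈ centralizer (D : Set G) →
        P < P ⊔ (D ⊓ centralizer {z}) →
        ∀ a, Sc (P ⊔ (D ⊓ centralizer {z})) y z a → Sc P y z a) :
    ∀ P : Subgroup G, R ≤ P → P ≤ D →
      ∀ y ∈ T ⊓ normalizer (P : Set G), ∀ z ∈ T ⊓ normalizer (P : Set G),
        y * z * y⁻¹ * z⁻¹ ∈ centralizer (D : Set G) → ∃ a, Sc P y z a ∧ Sc D y z a := by
  classical
  by_cases hRD : R ≤ D
  swap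
  · intro P hRP hPD
    exact absurd (hRP.trans hPD) hRD
  obtain ⟨αD, hαD⟩ := hSc D hRD le_rfl
  have hTDD : ∀ y ∈ T, y ∈ T ⊓ normalizer (D : Set G) := fun y hy => ⟨hy, hTD hy⟩
  suffices H : ∀ n : ℕ, ∀ P : Subgroup G, R ≤ P → P ≤ D → Nat.card D - Nat.card P ≤ n →
      ∀ y ∈ T ⊓ normalizer (P : Set G), ∀ z ∈ T ⊓ normalizer (P : Set G),
        y * z * y⁻¹ * z⁻¹ ∈ centralizer (D : Set G) → ∃ a, Sc P y z a ∧ Sc D y z a by
    intro P hRP hPD
    exact H _ P hRP hPD le_rfl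
  intro n
  induction n with
  | zero =>
    intro P hRP hPD hn y hy z hz hyz
    have h1 : P = D := by
      apply Subgroup.eq_of_le_of_card_ge hPD
      omega
    subst h1
    have h2 := (hαD y hy z hz hyz).1
    exact ⟨αD y z, (h2 _).2 rfl, (h2 _).2 rfl⟩
  | succ n ih =>
    intro P hRP hPD hn
    rcases hPD.eq_or_lt with rfl | hlt
    · intro y hy z hz hyz
      have h2 := (hαD y hy z hz hyz).1
      exact ⟨αD y z, (h2 _).2 rfl, (h2 _).2 rfl⟩
    obtain ⟨α, hα⟩ := hSc P hRP hPD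
    -- `Same y z` in terms of the two pairings
    have hiff : ∀ y ∈ T ⊓ normalizer (P : Set G), ∀ z ∈ T ⊓ normalizer (P : Set G),
        y * z * y⁻¹ * z⁻¹ ∈ centralizer (D : Set G) →
        ((∃ a, Sc P y z a ∧ Sc D y z a) ↔ α y z = αD y z) := by
      intro y hy z hz hyz
      have h1 := (hα y hy z hz hyz).1
      have h2 := (hαD y (hTDD y hy.1) z (hTDD z hz.1) hyz).1
      constructor
      · rintro ⟨a, ha, ha'⟩
        rw [← (h1 a).1 ha, ← (h2 a).1 ha']
      · intro h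
        exact ⟨α y z, (h1 _).2 rfl, (h2 _).2 h⟩
    have hswap : ∀ y z : G, y * z * y⁻¹ * z⁻¹ ∈ centralizer (D : Set G) →
        z * y * z⁻¹ * y⁻¹ ∈ centralizer (D : Set G) := by
      intro y z h
      have h1 : z * y * z⁻¹ * y⁻¹ = (y * z * y⁻¹ * z⁻¹)⁻¹ := by group
      rw [h1]
      exact inv_mem h
    refine euclid_pairs (S := T ⊓ normalizer (P : Set G)) hlt hDp hab (inf_le_left.trans hTD)
      inf_le_right (fun z hz => hm z hz.1) (fun y z => ∃ a, Sc P y z a ∧ Sc D y z a) ?_ ?_ ?_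
    · intro y hy z hz hyz h
      rw [hiff y hy z hz hyz]
      rw [hiff z hz y hy (hswap _ _ hyz)] at h
      have h1 := (hα y hy z hz hyz).2.1
      have h2 := (hαD y (hTDD y hy.1) z (hTDD z hz.1) hyz).2.1
      rw [← h] at h2
      have h3 : α z y ≠ 0 := right_ne_zero_of_mul_eq_one h1
      exact mul_right_cancel₀ h3 (h1.trans h2.symm)
    · intro y hy z hz hyz h
      have hz' : z * y⁻¹ ∈ T ⊓ normalizer (P : Set G) := mul_mem hz (inv_mem hy)
      have hyz' : y * (z * y⁻¹) * y⁻¹ * (z * y⁻¹)⁻¹ ∈ centralizer (D : Set G) := by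
        have h1 : y * (z * y⁻¹) * y⁻¹ * (z * y⁻¹)⁻¹ = y * z * y⁻¹ * z⁻¹ := by group
        rw [h1]
        exact hyz
      have h0 := (hiff y hy _ hz' hyz').1 h
      rw [hiff y hy z hz hyz]
      rw [(hα y hy z hz hyz).2.2, (hαD y (hTDD y hy.1) z (hTDD z hz.1) hyz).2.2] at h0
      exact h0
    · rintro y hy z hz hyz ⟨x, hxD, hxP, hx⟩
      set Q : Subgroup G := D ⊓ centralizer {z} with hQ
      have hxQ : x ∈ Q := by
        refine mem_inf.2 ⟨hxD, mem_centralizer_singleton_iff.2 ?_⟩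
        exact (mul_inv_eq_iff_eq_mul.1 hx).symm
      have hPQ : P < P ⊔ Q := by
        refine lt_of_le_of_ne le_sup_left fun h => hxP ?_
        rw [h]
        exact (le_sup_right : Q ≤ P ⊔ Q) hxQ
      have hPQD : P ⊔ Q ≤ D := sup_le hPD inf_le_left
      -- `Q` is normalised by `y` and `z`
      have hnQ : ∀ s ∈ T, s * z * s⁻¹ * z⁻¹ ∈ centralizer (D : Set G) →
          ∀ u ∈ Q, s * u * s⁻¹ ∈ Q := by
        intro s hs hsz u hu
        have huD : s * u * s⁻¹ ∈ D := ((hTD hs) u).1 hu.1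
        refine mem_inf.2 ⟨huD, mem_centralizer_singleton_iff.2 ?_⟩
        have h1 : z * u = u * z := (mem_centralizer_singleton_iff.1 (mem_inf.1 hu).2).symm
        have h2 := mem_centralizer_iff.1 hsz (s * u * s⁻¹) huD
        -- conjugation by `s z s⁻¹` fixes `s u s⁻¹`
        have h3 : (s * z * s⁻¹) * (s * u * s⁻¹) = (s * u * s⁻¹) * (s * z * s⁻¹) := by
          calc (s * z * s⁻¹) * (s * u * s⁻¹) = s * (z * u) * s⁻¹ := by group
            _ = s * (u * z) * s⁻¹ := by rw [h1]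
            _ = _ := by group
        have h5 : (s * z * s⁻¹ * z⁻¹)⁻¹ * (s * u * s⁻¹) =
            (s * u * s⁻¹) * (s * z * s⁻¹ * z⁻¹)⁻¹ := by
          rw [inv_mul_eq_iff_eq_mul, ← mul_assoc, ← h2]
          exact (mul_inv_cancel_right _ _).symm
        calc s * u * s⁻¹ * z = ((s * u * s⁻¹) * (s * z * s⁻¹ * z⁻¹)⁻¹) * (s * z * s⁻¹) := by
              group
          _ = ((s * z * s⁻¹ * z⁻¹)⁻¹ * (s * u * s⁻¹)) * (s * z * s⁻¹) := by rw [h5]
          _ = (s * z * s⁻¹ * z⁻¹)⁻¹ * ((s * u * s⁻¹) * (s * z * s⁻¹)) := by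
              rw [mul_assoc]
          _ = (s * z * s⁻¹ * z⁻¹)⁻¹ * ((s * z * s⁻¹) * (s * u * s⁻¹)) := by rw [h3]
          _ = z * (s * u * s⁻¹) := by group
      have hnN : ∀ s ∈ T, s * z * s⁻¹ * z⁻¹ ∈ centralizer (D : Set G) →
          s ∈ normalizer (Q : Set G) := by
        intro s hs hsz
        have hle : Q.map (MulAut.conj s).toMonoidHom ≤ Q := by
          rintro _ ⟨u, hu, rfl⟩
          exact hnQ s hs hsz u hu
        have heq : Q.map (MulAut.conj s).toMonoidHom = Q := by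
          apply Subgroup.eq_of_le_of_card_ge hle
          rw [Subgroup.card_map_of_injective (MulAut.conj s).injective]
        intro u
        constructor
        · exact fun hu => hnQ s hs hsz u hu
        · intro hu
          have h1 : s * u * s⁻¹ ∈ Q.map (MulAut.conj s).toMonoidHom := by
            rw [heq]
            exact hu
          obtain ⟨v, hv, hvu⟩ := h1
          have h2 : s * v * s⁻¹ = s * u * s⁻¹ := hvu
          have h3 : v = u := mul_left_cancel (mul_right_cancel h2)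
          rwa [← h3]
      have hnPQ : ∀ s ∈ T ⊓ normalizer (P : Set G),
          s * z * s⁻¹ * z⁻¹ ∈ centralizer (D : Set G) →
          s ∈ T ⊓ normalizer ((P ⊔ Q : Subgroup G) : Set G) := by
        intro s hs hsz
        refine mem_inf.2 ⟨hs.1, ?_⟩
        have h1 := hnN s hs.1 hsz
        have h2 : s ∈ normalizer (P : Set G) := (mem_inf.1 hs).2
        rw [mem_normalizer_iff_map_conj_eq] at h1 h2 ⊢
        rw [Subgroup.map_sup, h1, h2]
      have hzz : z * z * z⁻¹ * z⁻¹ ∈ centralizer (D : Set G) := by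
        have h1 : z * z * z⁻¹ * z⁻¹ = 1 := by group
        rw [h1]
        exact one_mem _
      have hcard : Nat.card P < Nat.card ((P ⊔ Q : Subgroup G)) := by
        by_contra h
        exact hPQ.ne (Subgroup.eq_of_le_of_card_ge hPQ.le (not_lt.1 h))
      obtain ⟨a, ha, ha'⟩ := ih (P ⊔ Q) (hRP.trans hPQ.le) hPQD (by omega) y
        (hnPQ y hy hyz) z (hnPQ z hz hzz) hyz
      exact ⟨a, hstep P hRP hPD y hy z hz hyz hPQ a ha, ha'⟩

end P179H854
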