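import Vale.Agent.P179.R2.H854.Ln
import Vale.Agent.P179.R2.H854.Stp
import Vale.Agent.P179.R2.H872.Line2
import Vale.Agent.P179.R2.H12.Half

/-!
# The pairing of a stable block with one simple module, in an ambient group
-/

namespace P179H854

open Subgroup Finset P179H524 P179C P179A P179P P179Y P179H12 P179H872

open scoped Classical

universe u

section

variable {p : ℕ} {k : Type u} [Field k] {G : Type} [Group G] [Fintype G]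

theorem sum_sub (Γ : Subgroup G) (F : G → k) (hF : ∀ g, g ∉ Γ → F g = 0) :
    ∑ g : Γ, F g = ∑ g : G, F g := by
  rw [← Finset.sum_subset (Finset.subset_univ ((Finset.univ : Finset Γ).map
    ⟨Subtype.val, Subtype.val_injective⟩)), Finset.sum_map]
  · rfl
  · intro x _ hx
    refine hF x fun h => hx ?_
    exact Finset.mem_map.2 ⟨⟨x, h⟩, Finset.mem_univ _, rfl⟩

omit [Fintype G] in
theorem pr_inv' (x : G) : pr p x⁻¹ = (pr p x)⁻¹ := by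
  unfold pr
  rw [orderOf_inv, inv_pow]

omit [Fintype G] in
/-- the `p`-regular part of an element of a coset of `p'`-order lies in the coset -/
theorem pr_mem_coset [hp : Fact p.Prime] [Finite G] {N Γ : Subgroup G}
    (hΓN : Γ ≤ normalizer (N : Set G)) (hidx : ¬ p ∣ N.relIndex Γ) {z g : G}
    (hg : g ∈ Γ) : pr p g * z⁻¹ ∈ N ↔ g * z⁻¹ ∈ N := by
  have hN : (N.subgroupOf Γ).Normal := normal_subgroupOf_of_le_normalizer hΓN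
  -- `g⁻¹ * pr g ∈ N`
  have h1 : ∀ x : Γ, x⁻¹ * pr p x ∈ N.subgroupOf Γ := by
    intro x
    rw [← QuotientGroup.eq_one_iff, QuotientGroup.mk_mul, QuotientGroup.mk_inv,
      inv_mul_eq_one]
    have h2 : ¬ p ∣ orderOf (x : Γ ⧸ N.subgroupOf Γ) := by
      intro h
      have h3 : orderOf (x : Γ ⧸ N.subgroupOf Γ) ∣ Nat.card (Γ ⧸ N.subgroupOf Γ) :=
        orderOf_dvd_natCard _
      exact hidx (h.trans h3)
    have h3 := P179C.Q7.map_pr p (QuotientGroup.mk' (N.subgroupOf Γ)) x (orderOf_pos x).ne'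
    have h4 : (QuotientGroup.mk' (N.subgroupOf Γ)) (pr p x) =
        ((pr p x : Γ) : Γ ⧸ N.subgroupOf Γ) := rfl
    rw [← h4, h3]
    exact (P179C.pr_of_regular h2).symm
  have h2 := mem_subgroupOf.1 (h1 ⟨g, hg⟩)
  have h3 : g⁻¹ * pr p g ∈ N := by
    have h4 : ((pr p (⟨g, hg⟩ : Γ) : Γ) : G) = pr p g := pr_coe _
    have h5 : (((⟨g, hg⟩ : Γ)⁻¹ * pr p (⟨g, hg⟩ : Γ) : Γ) : G) = g⁻¹ * pr p g := by
      rw [← h4]
      rfl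
    rwa [h5] at h2
  have h4 : g * (g⁻¹ * pr p g) * g⁻¹ ∈ N := ((hΓN hg) _).1 h3
  have h5 : pr p g * z⁻¹ = (g * (g⁻¹ * pr p g) * g⁻¹) * (g * z⁻¹) := by group
  rw [h5]
  exact mul_mem_cancel_left h4

omit [Fintype G] in
theorem Ln.eq_zero {N : Subgroup G} {e : G → k} {z : G} {ψ : G → k} [Fintype G]
    (h : Ln p N e z ψ) {g : G} (hg : g * z⁻¹ ∉ N) : ψ g = 0 := by
  by_contra hcon
  exact hg (h.supp g hcon)

/-- from functions on the ambient group to functions on `Γ` -/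
theorem Ln.toLX [hp : Fact p.Prime] {N Γ : Subgroup G} (hNΓ : N ≤ Γ)
    (hΓN : Γ ≤ normalizer (N : Set G)) (hidx : ¬ p ∣ N.relIndex Γ)
    [(N.subgroupOf Γ).Normal] {e : G → k}
    (heN : ∀ x, x ∉ N → e x = 0) {z : G} (hz : z ∈ Γ) {ψ : G → k} (h : Ln p N e z ψ) :
    (fun g : Γ => ψ (g : G)⁻¹) ∈
      LX p (mkF fun x : N.subgroupOf Γ => e (x : Γ)) (⟨z, hz⟩ : Γ)⁻¹ := by
  refine ⟨fun g hg => ?_, fun m hm g => ?_, fun g => ?_, fun y => ?_⟩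
  · by_contra hcon
    apply hg
    have h1 := h.supp _ hcon
    rw [mem_subgroupOf]
    have h2 : (((⟨z, hz⟩ : Γ)⁻¹⁻¹ * g : Γ) : G) = ((g : G)⁻¹ * z⁻¹)⁻¹ := by
      rw [inv_inv, mul_inv_rev, inv_inv, inv_inv]
      rfl
    rw [h2]
    exact inv_mem h1
  · have h1 := h.inv m (mem_subgroupOf.1 hm) (g : G)⁻¹
    have h2 : ((m * g * m⁻¹ : Γ) : G)⁻¹ = (m : G) * (g : G)⁻¹ * (m : G)⁻¹ := by
      push_cast
      group
    change ψ ((m * g * m⁻¹ : Γ) : G)⁻¹ = ψ (g : G)⁻¹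
    rw [h2, h1]
  · have h1 : ((pr p g : Γ) : G) = pr p (g : G) := pr_coe _
    change ψ ((pr p g : Γ) : G)⁻¹ = ψ (g : G)⁻¹
    rw [h1, ← pr_inv']
    by_cases hg : (g : G)⁻¹ * z⁻¹ ∈ N
    · exact h.reg _ hg
    · rw [h.eq_zero hg, h.eq_zero]
      rw [pr_mem_coset hΓN hidx (inv_mem g.2)]
      exact hg
  · rw [inc_mkF (N.subgroupOf Γ) (fun t : Γ => e t) (fun x hx =>
      heN _ fun h => hx (mem_subgroupOf.2 h))]
    have h1 := sum_sub Γ (fun g : G => e g * ψ ((y : G)⁻¹ * g⁻¹)) (fun g hg => by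
      rw [heN g fun h => hg (hNΓ h), zero_mul])
    have h2 : ∑ g : G, e g * ψ ((y : G)⁻¹ * g⁻¹) = ψ (y : G)⁻¹ := by
      have h3 := congrFun h.mul (y : G)⁻¹
      rw [← h3]
      unfold conv
      refine Finset.sum_congr rfl fun g _ => ?_
      by_cases hg : g ∈ N
      · have h4 := h.inv g hg (g⁻¹ * (y : G)⁻¹)
        rw [← h4]
        congr 2
        group
      · rw [heN g hg, zero_mul, zero_mul]
    refine Eq.trans ?_ (h1.trans h2)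
    refine Finset.sum_congr rfl fun g _ => ?_
    rw [coeff_mkF]
    congr 2
    push_cast
    group

/-- from functions on `Γ` to functions on the ambient group -/
theorem LX.toLn {N Γ : Subgroup G} (hNΓ : N ≤ Γ) [(N.subgroupOf Γ).Normal] {e : G → k}
    (heN : ∀ x, x ∉ N → e x = 0) {z : G} (hz : z ∈ Γ) {ψ : Γ → k}
    (h : ψ ∈ LX p (mkF fun x : N.subgroupOf Γ => e (x : Γ)) (⟨z, hz⟩ : Γ)⁻¹) :
    Ln p N e z (ext Γ fun g => ψ g⁻¹) := by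
  obtain ⟨h1, h2, h3, h4⟩ := h
  have hmem : ∀ g, g * z⁻¹ ∈ N → g ∈ Γ := by
    intro g hg
    have h5 : g = g * z⁻¹ * z := by group
    rw [h5]
    exact mul_mem (hNΓ hg) hz
  have hcast : ∀ g : Γ, ((⟨z, hz⟩ : Γ)⁻¹⁻¹ * g⁻¹ ∈ N.subgroupOf Γ) ↔ (g : G) * z⁻¹ ∈ N := by
    intro g
    rw [mem_subgroupOf, ← inv_mem_iff]
    have h5 : ((((⟨z, hz⟩ : Γ)⁻¹⁻¹ * g⁻¹ : Γ) : G))⁻¹ = (g : G) * z⁻¹ := by
      push_cast
      group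
    rw [h5]
  have hsupp : ∀ g, g * z⁻¹ ∉ N → ext Γ (fun g => ψ g⁻¹) g = 0 := by
    intro g hg
    by_cases hgΓ : g ∈ Γ
    · rw [ext_of_mem Γ _ hgΓ]
      exact h1 _ fun h => hg ((hcast ⟨g, hgΓ⟩).1 h)
    · exact ext_of_not_mem Γ _ hgΓ
  refine ⟨fun g hg => ?_, fun m hm g => ?_, fun g hg => ?_, ?_⟩
  · by_contra hcon
    exact hg (hsupp g hcon)
  · by_cases hgΓ : g ∈ Γ
    · have hmΓ := hNΓ hm
      have h5 : m * g * m⁻¹ ∈ Γ := mul_mem (mul_mem hmΓ hgΓ) (inv_mem hmΓ)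
      rw [ext_of_mem Γ _ hgΓ, ext_of_mem Γ _ h5]
      have h6 := h2 ⟨m, hmΓ⟩ (mem_subgroupOf.2 hm) (⟨g, hgΓ⟩ : Γ)⁻¹
      rw [← h6]
      congr 1
      apply Subtype.ext
      change (m * g * m⁻¹)⁻¹ = m * g⁻¹ * m⁻¹
      group
    · rw [ext_of_not_mem Γ _ hgΓ, ext_of_not_mem]
      intro h5
      apply hgΓ
      have h6 : g = m⁻¹ * (m * g * m⁻¹) * m := by group
      rw [h6]
      exact mul_mem (mul_mem (inv_mem (hNΓ hm)) h5) (hNΓ hm)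
  · have hgΓ := hmem g hg
    have h5 : pr p g ∈ Γ := by
      have h6 : ((pr p (⟨g, hgΓ⟩ : Γ) : Γ) : G) = pr p g := pr_coe _
      rw [← h6]
      exact (pr p (⟨g, hgΓ⟩ : Γ)).2
    rw [ext_of_mem Γ _ hgΓ, ext_of_mem Γ _ h5]
    have h6 : (⟨pr p g, h5⟩ : Γ)⁻¹ = pr p (⟨g, hgΓ⟩ : Γ)⁻¹ := by
      rw [pr_inv']
      congr 1
      exact Subtype.ext (pr_coe (⟨g, hgΓ⟩ : Γ)).symm
    rw [h6, h3]
  · funext y
    by_cases hyΓ : y ∈ Γ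
    · unfold conv
      have h5 := h4 (⟨y, hyΓ⟩ : Γ)⁻¹
      rw [inc_mkF (N.subgroupOf Γ) (fun t : Γ => e t) (fun x hx =>
        heN _ fun h => hx (mem_subgroupOf.2 h))] at h5
      rw [ext_of_mem Γ _ hyΓ, ← h5]
      rw [← sum_sub Γ (fun g : G => e g * ext Γ (fun g => ψ g⁻¹) (g⁻¹ * y)) (fun g hg => by
        rw [heN g fun h => hg (hNΓ h), zero_mul])]
      refine Finset.sum_congr rfl fun g _ => ?_
      rw [coeff_mkF]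
      by_cases hg : (g : G) ∈ N
      · have h6 : (g : G)⁻¹ * y ∈ Γ := mul_mem (inv_mem g.2) hyΓ
        rw [ext_of_mem Γ _ h6]
        have h7 := h2 g (mem_subgroupOf.2 hg) ((⟨(g : G)⁻¹ * y, h6⟩ : Γ)⁻¹)
        rw [← h7]
        congr 2
        apply Subtype.ext
        change (g : G) * ((g : G)⁻¹ * y)⁻¹ * (g : G)⁻¹ = (g : G) * y⁻¹
        group
      · rw [heN _ hg, zero_mul, zero_mul]
    · rw [ext_of_not_mem Γ _ hyΓ]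
      unfold conv
      refine Finset.sum_eq_zero fun g _ => ?_
      by_cases hg : g ∈ N
      · rw [ext_of_not_mem, mul_zero]
        intro h6
        apply hyΓ
        have h7 : y = g * (g⁻¹ * y) := by group
        rw [h7]
        exact mul_mem (hNΓ hg) h6
      · rw [heN _ hg, zero_mul]

/-- **the pairing in the ambient group** -/
theorem amb_pairing [hp : Fact p.Prime] [IsAlgClosed k] [CharP k p] {N Γ : Subgroup G}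
    [hN : (N.subgroupOf Γ).Normal] (hNΓ : N ≤ Γ) (hΓN : Γ ≤ normalizer (N : Set G))
    (hidx : ¬ p ∣ N.relIndex Γ) {e : G → k}
    (heN : ∀ x, x ∉ N → e x = 0) (het : ∀ t ∈ Γ, ∀ x, e (t * x * t⁻¹) = e x)
    (hee : conv e e = e) (h1 : numSimpleIn (mkF fun x : N => e x) = 1) :
    ∃ α : G → G → k,
      (∀ y ∈ Γ, ∀ z ∈ Γ, y * z * y⁻¹ * z⁻¹ ∈ N →
        (∀ a, (∀ ψ, Ln p N e z ψ → P179Y.cj y ψ = a • ψ) ↔ a = α y z) ∧ α y z * α z y = 1 ∧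
          α y (z * y⁻¹) = α y z) ∧
      (∀ z ∈ Γ, ∃ ψ₀, Ln p N e z ψ₀ ∧ ψ₀ ≠ 0 ∧ ∀ ψ, Ln p N e z ψ → ∃ κ : k, ψ = κ • ψ₀) ∧
      numSimpleIn (mkF fun t : Γ => e t) = Nat.card {K : ConjClasses (Γ ⧸ N.subgroupOf Γ) //
        ∀ x : Γ, ConjClasses.mk (x : Γ ⧸ N.subgroupOf Γ) = K →
          ∀ y : Γ, (y * x * y⁻¹ * x⁻¹ : G) ∈ N → α y x = 1} := by
  have heΓ : ∀ x, x ∉ Γ → e x = 0 := fun x hx => heN x fun h => hx (hNΓ h)
  set cT : MonoidAlgebra k Γ := mkF fun t : Γ => e t with hcT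
  have hincT : inc Γ cT = mkF e := inc_mkF Γ e heΓ
  have hcTc : cT ∈ Subalgebra.center k (MonoidAlgebra k Γ) := mkF_mem fun t x => het t t.2 x
  have hcT2 : cT * cT = cT := by
    apply inc_injective Γ
    rw [map_mul, hincT, ← mkF_conv, hee]
  set c : MonoidAlgebra k (N.subgroupOf Γ) := mkF fun x : N.subgroupOf Γ => e (x : Γ) with hc
  have hincN : inc (N.subgroupOf Γ) c = cT :=
    inc_mkF (N.subgroupOf Γ) (fun t : Γ => e t) fun x hx => heN _ fun h => hx (mem_subgroupOf.2 h)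
  have hcc : c ∈ Subalgebra.center k (MonoidAlgebra k (N.subgroupOf Γ)) :=
    mkF_mem fun t x => het _ (t : Γ).2 _
  have hc2 : c * c = c := by
    apply inc_injective (N.subgroupOf Γ)
    rw [map_mul, hincN, hcT2]
  have hc1 : numSimpleIn c = 1 := by
    rw [← h1]
    refine numSimpleIn_of_equiv (subgroupOfEquivOfLe hNΓ).symm _ _ ?_
    ext y
    obtain ⟨x, rfl⟩ := (subgroupOfEquivOfLe hNΓ).symm.surjective y
    rw [coeff_mapDomain_equiv, hc, coeff_mkF, coeff_mkF]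
    rfl
  obtain ⟨α, t, ht, hact, hsym, hself, hmul, hxN, -, hcount⟩ :=
    exists_pairing p (N := N.subgroupOf Γ) (c := c) hidx hcc hc2 (by rw [hincN]; exact hcTc) hc1
  have hcomm : ∀ y z : Γ, y * z * y⁻¹ * z⁻¹ ∈ N.subgroupOf Γ →
      y * z⁻¹ * y⁻¹ * z⁻¹⁻¹ ∈ N.subgroupOf Γ := by
    intro y z h
    have h2 := hN.conj_mem _ (inv_mem h) z⁻¹
    have h3 : z⁻¹ * (y * z * y⁻¹ * z⁻¹)⁻¹ * z⁻¹⁻¹ = y * z⁻¹ * y⁻¹ * z⁻¹⁻¹ := by group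
    rwa [h3] at h2
  have hαinv : ∀ y z : Γ, y * z * y⁻¹ * z⁻¹ ∈ N.subgroupOf Γ → α y z * α y z⁻¹ = 1 := by
    intro y z h
    rw [← hmul y z z⁻¹ h (hcomm y z h), mul_inv_cancel]
    exact hxN y 1 (one_mem _)
  let β : G → G → k := fun y z =>
    if h : y ∈ Γ ∧ z ∈ Γ then α ⟨y, h.1⟩ (⟨z, h.2⟩ : Γ)⁻¹ else 1
  have hβ : ∀ y z : Γ, β y z = α y z⁻¹ := fun y z => dif_pos ⟨y.2, z.2⟩
  have hβ' : ∀ y (hy : y ∈ Γ) z (hz : z ∈ Γ), β y z = α ⟨y, hy⟩ (⟨z, hz⟩ : Γ)⁻¹ :=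
    fun y hy z hz => dif_pos ⟨hy, hz⟩
  have hmem : ∀ y z : Γ, (y : G) * z * (y : G)⁻¹ * (z : G)⁻¹ ∈ N →
      y * z * y⁻¹ * z⁻¹ ∈ N.subgroupOf Γ := fun y z h => mem_subgroupOf.2 h
  refine ⟨β, fun y hy z hz hyz => ⟨fun a => ⟨fun h => ?_, ?_⟩, ?_, ?_⟩, fun z hz => ?_, ?_⟩
  · -- the scalar is unique
    obtain ⟨htm, ht0, -⟩ := ht (⟨z, hz⟩ : Γ)⁻¹
    have h2 := h _ (LX.toLn hNΓ heN hz htm)
    have h3 := hact ⟨y, hy⟩ (⟨z, hz⟩ : Γ)⁻¹ (hcomm _ _ (hmem ⟨y, hy⟩ ⟨z, hz⟩ hyz)) _ htm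
    obtain ⟨g, hg⟩ := Function.ne_iff.1 ht0
    have h4 := congrFun h2 (g : G)⁻¹
    have hgΓ : (g : G)⁻¹ ∈ Γ := inv_mem g.2
    unfold P179Y.cj at h4
    have hyg : y⁻¹ * (g : G)⁻¹ * y ∈ Γ := mul_mem (mul_mem (inv_mem hy) hgΓ) hy
    rw [Pi.smul_apply, ext_of_mem Γ _ hgΓ, ext_of_mem Γ _ hyg, smul_eq_mul] at h4
    have h5 : (⟨y⁻¹ * (g : G)⁻¹ * y, hyg⟩ : Γ)⁻¹ = (⟨y, hy⟩ : Γ)⁻¹ * g * ⟨y, hy⟩ := by
      apply Subtype.ext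
      change (y⁻¹ * (g : G)⁻¹ * y)⁻¹ = y⁻¹ * g * y
      group
    have h6 : (⟨(g : G)⁻¹, hgΓ⟩ : Γ)⁻¹ = g := by
      apply Subtype.ext
      change (g : G)⁻¹⁻¹ = g
      rw [inv_inv]
    rw [h5, h6, h3 g] at h4
    have h7 : α ⟨y, hy⟩ (⟨z, hz⟩ : Γ)⁻¹ = a := mul_right_cancel₀ hg h4
    rw [hβ' y hy z hz, h7]
  · rintro rfl ψ hψ
    have h2 := hact ⟨y, hy⟩ (⟨z, hz⟩ : Γ)⁻¹ (hcomm _ _ (hmem ⟨y, hy⟩ ⟨z, hz⟩ hyz)) _
      (hψ.toLX hNΓ hΓN hidx heN hz)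
    funext g
    unfold P179Y.cj
    rw [Pi.smul_apply, smul_eq_mul, hβ' y hy z hz]
    by_cases hg : g ∈ Γ
    · have h3 := h2 (⟨g, hg⟩ : Γ)⁻¹
      have h4 : (((⟨y, hy⟩ : Γ)⁻¹ * (⟨g, hg⟩ : Γ)⁻¹ * ⟨y, hy⟩ : Γ) : G)⁻¹ = y⁻¹ * g * y := by
        change (y⁻¹ * g⁻¹ * y)⁻¹ = _
        group
      have h5 : (((⟨g, hg⟩ : Γ)⁻¹ : Γ) : G)⁻¹ = g := inv_inv g
      simp only [h4, h5] at h3
      exact h3
    · have h3 : ψ g = 0 := hψ.eq_zero fun h => hg (by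
        have h4 : g = g * z⁻¹ * z := by group
        rw [h4]
        exact mul_mem (hNΓ h) hz)
      have h4 : ψ (y⁻¹ * g * y) = 0 := hψ.eq_zero fun h => hg (by
        have h4 : g = y * (y⁻¹ * g * y * z⁻¹ * z) * y⁻¹ := by group
        rw [h4]
        exact mul_mem (mul_mem hy (mul_mem (hNΓ h) hz)) (inv_mem hy))
      rw [h3, h4, mul_zero]
  · rw [hβ' y hy z hz, hβ' z hz y hy]
    have h2 := hmem ⟨y, hy⟩ ⟨z, hz⟩ hyz
    have h3 : (⟨z, hz⟩ : Γ) * ⟨y, hy⟩ * (⟨z, hz⟩ : Γ)⁻¹ * (⟨y, hy⟩ : Γ)⁻¹ ∈ N.subgroupOf Γ := by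
      have h4 := inv_mem h2
      have h5 : ((⟨y, hy⟩ : Γ) * ⟨z, hz⟩ * (⟨y, hy⟩ : Γ)⁻¹ * (⟨z, hz⟩ : Γ)⁻¹)⁻¹ =
          (⟨z, hz⟩ : Γ) * ⟨y, hy⟩ * (⟨z, hz⟩ : Γ)⁻¹ * (⟨y, hy⟩ : Γ)⁻¹ := by group
      rwa [h5] at h4
    have e1 := hαinv _ _ h2
    have e2 := hαinv _ _ h3
    have e3 := hsym _ _ h2
    calc α ⟨y, hy⟩ (⟨z, hz⟩ : Γ)⁻¹ * α ⟨z, hz⟩ (⟨y, hy⟩ : Γ)⁻¹
        = (α ⟨y, hy⟩ ⟨z, hz⟩ * α ⟨z, hz⟩ ⟨y, hy⟩) *
            (α ⟨y, hy⟩ (⟨z, hz⟩ : Γ)⁻¹ * α ⟨z, hz⟩ (⟨y, hy⟩ : Γ)⁻¹) := by rw [e3, one_mul]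
      _ = (α ⟨y, hy⟩ ⟨z, hz⟩ * α ⟨y, hy⟩ (⟨z, hz⟩ : Γ)⁻¹) *
            (α ⟨z, hz⟩ ⟨y, hy⟩ * α ⟨z, hz⟩ (⟨y, hy⟩ : Γ)⁻¹) := by ring
      _ = 1 := by rw [e1, e2, one_mul]
  · have hzy : z * y⁻¹ ∈ Γ := mul_mem hz (inv_mem hy)
    rw [hβ' y hy z hz, hβ' y hy _ hzy]
    have h3 : (⟨z * y⁻¹, hzy⟩ : Γ)⁻¹ = ⟨y, hy⟩ * (⟨z, hz⟩ : Γ)⁻¹ := by
      apply Subtype.ext
      change (z * y⁻¹)⁻¹ = y * z⁻¹
      group
    rw [h3, hmul ⟨y, hy⟩ ⟨y, hy⟩ (⟨z, hz⟩ : Γ)⁻¹ (by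
      have h4 : (⟨y, hy⟩ : Γ) * ⟨y, hy⟩ * (⟨y, hy⟩ : Γ)⁻¹ * (⟨y, hy⟩ : Γ)⁻¹ = 1 := by group
      rw [h4]
      exact one_mem _) (hcomm _ _ (hmem ⟨y, hy⟩ ⟨z, hz⟩ hyz)), hself, one_mul]
  · obtain ⟨htm, ht0, htl⟩ := ht (⟨z, hz⟩ : Γ)⁻¹
    refine ⟨_, LX.toLn hNΓ heN hz htm, ?_, fun ψ hψ => ?_⟩
    · intro h0
      apply ht0
      funext g
      have h2 := congrFun h0 (g : G)⁻¹
      rw [ext_of_mem Γ _ (inv_mem g.2)] at h2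
      have h6 : (⟨(g : G)⁻¹, inv_mem g.2⟩ : Γ)⁻¹ = g := by
        apply Subtype.ext
        change (g : G)⁻¹⁻¹ = g
        rw [inv_inv]
      rw [h6] at h2
      exact h2
    · obtain ⟨κ, hκ⟩ := htl _ (hψ.toLX hNΓ hΓN hidx heN hz)
      refine ⟨κ, ?_⟩
      funext g
      rw [Pi.smul_apply, smul_eq_mul]
      by_cases hg : g ∈ Γ
      · rw [ext_of_mem Γ _ hg]
        have h2 := congrFun hκ (⟨g, hg⟩ : Γ)⁻¹
        have h5 : (((⟨g, hg⟩ : Γ)⁻¹ : Γ) : G)⁻¹ = g := inv_inv g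
        simp only [h5, Pi.smul_apply, smul_eq_mul] at h2
        exact h2
      · rw [ext_of_not_mem Γ _ hg, mul_zero]
        exact hψ.eq_zero fun h => hg (by
          have h4 : g = g * z⁻¹ * z := by group
          rw [h4]
          exact mul_mem (hNΓ h) hz)
  · rw [← hincN, hcount]
    refine Nat.card_congr (Equiv.subtypeEquivRight fun K => ?_)
    refine forall_congr' fun x => forall_congr' fun _ => forall_congr' fun y => ?_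
    constructor
    · intro h h2
      have h3 := hmem y x h2
      rw [hβ]
      have h4 := hαinv _ _ h3
      rwa [h h3, one_mul] at h4
    · intro h h2
      have h3 := h (mem_subgroupOf.1 h2)
      rw [hβ] at h3
      have h4 := hαinv _ _ h2
      rwa [h3, mul_one] at h4

end

end P179H854
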