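import Vale.Agent.P179.R2.H854.Mono

/-!
# The lifted trace depends only on the operator
-/

namespace P179H854

open Finset Module

open scoped Classical

/-- powers as a homomorphism from `ZMod n` -/
def zhom {M : Type*} [Monoid M] (n : ℕ) [NeZero n] (g : M) (h : g ^ n = 1) :
    Multiplicative (ZMod n) →* M where
  toFun i := g ^ (i.toAdd.val)
  map_one' := by
    rw [toAdd_one, ZMod.val_zero, pow_zero]
  map_mul' i j := by
    rw [toAdd_mul, ZMod.val_add, ← pow_add]
    conv_rhs => rw [← Nat.div_add_mod (i.toAdd.val + j.toAdd.val) n, pow_add, pow_mul, h, one_pow,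
      one_mul]

theorem zhom_one {M : Type*} [Monoid M] (n : ℕ) [NeZero n] (g : M) (h : g ^ n = 1) :
    zhom n g h (Multiplicative.ofAdd 1) = g := by
  change g ^ (1 : ZMod n).val = g
  rw [ZMod.val_one_eq_one_mod]
  conv_rhs => rw [← pow_one g, ← Nat.div_add_mod 1 n, pow_add, pow_mul, h, one_pow, one_mul]

theorem zhom_apply {M : Type*} [Monoid M] (n : ℕ) [NeZero n] (g : M) (h : g ^ n = 1)
    (i : ZMod n) : zhom n g h (Multiplicative.ofAdd i) = g ^ i.val := rfl

section

variable {k : Type*} [Field k] {Y : Type*} [Fintype Y] {V : Type*} [AddCommGroup V] [Module k V]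
  {n : ℕ} {L : k → ℂ}

theorem Lift.pow (hL : Lift k n L) {a : k} (ha : a ^ n = 1) (i : ℕ) : L (a ^ i) = L a ^ i := by
  induction i with
  | zero => rw [pow_zero, pow_zero, hL.one]
  | succ i ih =>
    rw [pow_succ, pow_succ, hL.mul _ _ (by rw [← pow_mul, mul_comm, pow_mul, ha, one_pow]) ha, ih]

theorem Lift.mul' (hL : Lift k n L) {a c : k} (ha : a ^ n = 1) (hc : c = 0 ∨ c ^ n = 1) :
    L (a * c) = L a * L c := by
  rcases hc with rfl | hc
  · rw [mul_zero, hL.zero, mul_zero]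
  · exact hL.mul _ _ ha hc

theorem sum_roots (hL : Lift k n L) (hn : n ≠ 0) {ζ : k} (hζ : IsPrimitiveRoot ζ n) (i : ZMod n)
    : ∑ j ∈ range n, L (ζ ^ j) * L ((ζ ^ j)⁻¹ ^ i.val) = if i = 1 then (n : ℂ) else 0 := by
  have : NeZero n := ⟨hn⟩
  have h1 : ∀ j ∈ range n, L (ζ ^ j) * L ((ζ ^ j)⁻¹ ^ i.val) = L (ζ * ζ⁻¹ ^ i.val) ^ j := by
    intro j _
    have h2 : (ζ ^ j) ^ n = 1 := by rw [← pow_mul, mul_comm, pow_mul, hζ.pow_eq_one, one_pow]
    have h3 : ((ζ ^ j)⁻¹ ^ i.val) ^ n = 1 := by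
      rw [← pow_mul, mul_comm, pow_mul, inv_pow, h2, inv_one, one_pow]
    have h4 : (ζ * ζ⁻¹ ^ i.val) ^ n = 1 := by
      rw [mul_pow, hζ.pow_eq_one, one_mul, ← pow_mul, mul_comm, pow_mul, inv_pow, hζ.pow_eq_one,
        inv_one, one_pow]
    rw [← hL.mul _ _ h2 h3, ← hL.pow h4]
    congr 1
    rw [mul_pow, ← pow_mul, inv_pow, inv_pow, ← pow_mul, mul_comm i.val j]
  rw [Finset.sum_congr rfl h1]
  have h4 : (ζ * ζ⁻¹ ^ i.val) ^ n = 1 := by
    rw [mul_pow, hζ.pow_eq_one, one_mul, ← pow_mul, mul_comm, pow_mul, inv_pow, hζ.pow_eq_one,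
      inv_one, one_pow]
  split_ifs with hi
  · have h5 : ζ * ζ⁻¹ ^ i.val = 1 := by
      rw [hi, ZMod.val_one_eq_one_mod]
      have h6 : ζ⁻¹ ^ (1 % n) = ζ⁻¹ := by
        have h7 : ζ⁻¹ ^ n = 1 := by rw [inv_pow, hζ.pow_eq_one, inv_one]
        conv_rhs => rw [← pow_one ζ⁻¹, ← Nat.div_add_mod 1 n, pow_add, pow_mul, h7, one_pow,
          one_mul]
      rw [h6]
      exact mul_inv_cancel₀ (hζ.ne_zero hn)
    rw [h5, hL.one]
    simp
  · have h5 : ζ * ζ⁻¹ ^ i.val ≠ 1 := by
      intro h6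
      apply hi
      have h7 : ζ = ζ ^ i.val := by
        have h8 : ζ ^ i.val ≠ 0 := pow_ne_zero _ (hζ.ne_zero hn)
        rw [inv_pow] at h6
        field_simp at h6
        exact h6
      have h8 : ζ ^ i.val = ζ ^ (1 % n) := by
        have h11 : ζ ^ (1 % n) = ζ := by
          conv_rhs => rw [← pow_one ζ, ← Nat.div_add_mod 1 n, pow_add, pow_mul, hζ.pow_eq_one,
            one_pow, one_mul]
        rw [h11]
        exact h7.symm
      have h9 := hζ.pow_inj (ZMod.val_lt i) (Nat.mod_lt 1 (Nat.pos_of_ne_zero hn)) h8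
      apply ZMod.val_injective n
      rw [h9, ZMod.val_one_eq_one_mod]
    have h6 : L (ζ * ζ⁻¹ ^ i.val) ≠ 1 := fun h7 => h5 (hL.inj _ h4 h7)
    have h7 := geom_sum_mul (L (ζ * ζ⁻¹ ^ i.val)) n
    rw [← hL.pow h4, h4, hL.one, sub_self] at h7
    exact (mul_eq_zero.1 h7).resolve_right (sub_ne_zero.2 h6)

variable (b : Basis Y k V) (f : V →ₗ[k] V)

/-- the lifted trace in terms of the eigenspaces -/
theorem trL_eq_spec (hL : Lift k n L) (hn : (n : k) ≠ 0) {ζ : k} (hζ : IsPrimitiveRoot ζ n)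
    (hf : f ^ n = 1) (σ : Y → Y) (hσ : ∀ y, ∃ c : k, f (b y) = c • b (σ y)) :
    (n : ℂ) * trL L b f = ∑ j ∈ range n, L (ζ ^ j) * (n *
      finrank k (LinearMap.ker (f - ζ ^ j • LinearMap.id))) := by
  have hn0 : n ≠ 0 := by
    rintro rfl
    exact hn Nat.cast_zero
  have : NeZero n := ⟨hn0⟩
  -- the permutation
  have hc0 : ∀ (y : Y) (c : k), f (b y) = c • b (σ y) → c ≠ 0 := by
    rintro y c hc rfl
    have h1 : (f ^ n) (b y) = 0 := by
      obtain ⟨m, rfl⟩ := Nat.exists_eq_succ_of_ne_zero hn0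
      rw [pow_succ, Module.End.mul_apply, hc, zero_smul, map_zero]
    rw [hf] at h1
    exact b.ne_zero y h1
  have hit : ∀ (m : ℕ) (y : Y), ∃ c : k, c ≠ 0 ∧ (f ^ m) (b y) = c • b (σ^[m] y) := by
    intro m
    induction m with
    | zero => exact fun y => ⟨1, one_ne_zero, by simp⟩
    | succ m ih =>
      intro y
      obtain ⟨c, hc⟩ := hσ y
      obtain ⟨d, hd0, hd⟩ := ih (σ y)
      refine ⟨c * d, mul_ne_zero (hc0 y c hc) hd0, ?_⟩
      rw [pow_succ, Module.End.mul_apply, hc, map_smul, hd, smul_smul, Function.iterate_succ_apply]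
  have hσn : ∀ y, σ^[n] y = y := by
    intro y
    obtain ⟨c, hc, h1⟩ := hit n y
    rw [hf] at h1
    have h2 := congrArg (fun v => b.repr v (σ^[n] y)) h1
    simp only [Module.End.one_apply, Basis.repr_self, map_smul, Finsupp.smul_apply,
      Finsupp.single_eq_same, smul_eq_mul, mul_one] at h2
    by_contra h3
    rw [Finsupp.single_eq_of_ne h3] at h2
    exact hc h2.symm
  let σe : Equiv.Perm Y :=
    { toFun := σ
      invFun := σ^[n - 1]
      left_inv := fun y => by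
        change σ^[n - 1] (σ y) = y
        rw [← Function.iterate_succ_apply, Nat.succ_eq_add_one, Nat.sub_add_cancel
          (Nat.one_le_iff_ne_zero.2 hn0), hσn]
      right_inv := fun y => by
        have h1 := Function.iterate_succ_apply' σ (n - 1) y
        rw [Nat.succ_eq_add_one, Nat.sub_add_cancel (Nat.one_le_iff_ne_zero.2 hn0), hσn] at h1
        exact h1.symm }
  have hpow : ∀ (m : ℕ) (y : Y), (σe ^ m) y = σ^[m] y := by
    intro m y
    rw [Equiv.Perm.coe_pow]
    rfl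
  have hσe : σe ^ n = 1 := by
    ext y
    rw [hpow, hσn]
    rfl
  letI : MulAction (Multiplicative (ZMod n)) Y := MulAction.compHom Y (zhom n σe hσe)
  have hact : ∀ (i : ZMod n) (y : Y), Multiplicative.ofAdd i • y = σ^[i.val] y := by
    intro i y
    rw [← hpow]
    rfl
  have hcard : Nat.card (Multiplicative (ZMod n)) = n := by
    rw [Nat.card_congr Multiplicative.toAdd, Nat.card_zmod]
  -- the representations
  have hfz : ∀ j, ((ζ ^ j)⁻¹ • f) ^ n = 1 := by
    intro j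
    rw [smul_pow, hf, inv_pow, ← pow_mul, mul_comm, pow_mul, hζ.pow_eq_one, one_pow, inv_one,
      one_smul]
  have hmono : ∀ j, Mono b (zhom n ((ζ ^ j)⁻¹ • f) (hfz j) :
      Representation k (Multiplicative (ZMod n)) V) := by
    intro j g y
    obtain ⟨c, -, hc⟩ := hit g.toAdd.val y
    refine ⟨(ζ ^ j)⁻¹ ^ g.toAdd.val * c, ?_⟩
    change (((ζ ^ j)⁻¹ • f) ^ g.toAdd.val) (b y) = _
    rw [smul_pow, LinearMap.smul_apply, hc, smul_smul]
    congr 2
  have hdg0 : ∀ (i : ZMod n) (y : Y), dg b (f ^ i.val) y = 0 ∨ dg b (f ^ i.val) y ^ n = 1 := by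
    intro i y
    have h1 : (zhom n ((ζ ^ 0)⁻¹ • f) (hfz 0)) (Multiplicative.ofAdd i) = f ^ i.val := by
      rw [zhom_apply, pow_zero, inv_one, one_smul]
    rw [← h1]
    by_cases h2 : Multiplicative.ofAdd i • y = y
    · right
      have h3 := (hmono 0).dg_pow h2
      rwa [hcard] at h3
    · left
      exact (hmono 0).ne h2
  have htr : ∀ (j : ℕ) (i : ZMod n), trL L b (((ζ ^ j)⁻¹ • f) ^ i.val) =
      L ((ζ ^ j)⁻¹ ^ i.val) * trL L b (f ^ i.val) := by
    intro j i
    unfold trL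
    rw [Finset.mul_sum]
    refine Finset.sum_congr rfl fun y _ => ?_
    rw [← hL.mul' (by
      rw [← pow_mul, mul_comm, pow_mul, inv_pow, ← pow_mul, mul_comm j n, pow_mul, hζ.pow_eq_one,
        one_pow, inv_one, one_pow]) (hdg0 i y)]
    congr 1
    unfold dg
    rw [smul_pow, LinearMap.smul_apply, map_smul, Finsupp.smul_apply, smul_eq_mul]
  -- the eigenspaces
  have hker : ∀ j, (n : ℂ) * finrank k (LinearMap.ker (f - ζ ^ j • LinearMap.id)) =
      ∑ i : ZMod n, L ((ζ ^ j)⁻¹ ^ i.val) * trL L b (f ^ i.val) := by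
    intro j
    have h1 := card_mul_finrank_inv (A := Multiplicative (ZMod n)) (by rw [hcard]; exact hn)
      (by rw [hcard]; exact hL) (hmono j)
    rw [hcard] at h1
    have h2 : Representation.invariants (zhom n ((ζ ^ j)⁻¹ • f) (hfz j) :
        Representation k (Multiplicative (ZMod n)) V) =
        LinearMap.ker (f - ζ ^ j • LinearMap.id) := by
      ext v
      rw [LinearMap.mem_ker, LinearMap.sub_apply, LinearMap.smul_apply, LinearMap.id_apply,
        sub_eq_zero]
      have hzj : ζ ^ j ≠ 0 := pow_ne_zero _ (hζ.ne_zero hn0)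
      have h3 : (zhom n ((ζ ^ j)⁻¹ • f) (hfz j)) (Multiplicative.ofAdd 1) v = v ↔
          f v = ζ ^ j • v := by
        rw [zhom_one, LinearMap.smul_apply, inv_smul_eq_iff₀ hzj]
      rw [← h3]
      constructor
      · intro h
        exact h _
      · intro h g
        change (((ζ ^ j)⁻¹ • f) ^ g.toAdd.val) v = v
        rw [zhom_one] at h
        have h4 : ∀ m : ℕ, (((ζ ^ j)⁻¹ • f) ^ m) v = v := by
          intro m
          induction m with
          | zero => simp
          | succ m ih => rw [pow_succ, Module.End.mul_apply, h, ih]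
        exact h4 _
    rw [h2] at h1
    rw [h1]
    refine Fintype.sum_equiv Multiplicative.toAdd _ _ fun i => ?_
    rw [← htr]
    rfl
  have h1 : ∀ j ∈ range n, L (ζ ^ j) * (n *
      finrank k (LinearMap.ker (f - ζ ^ j • LinearMap.id)) : ℂ) =
      ∑ i : ZMod n, (L (ζ ^ j) * L ((ζ ^ j)⁻¹ ^ i.val)) * trL L b (f ^ i.val) := by
    intro j _
    rw [hker, Finset.mul_sum]
    exact Finset.sum_congr rfl fun i _ => by rw [mul_assoc]
  rw [Finset.sum_congr rfl h1, Finset.sum_comm]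
  have h2 : ∀ i : ZMod n, ∑ j ∈ range n, (L (ζ ^ j) * L ((ζ ^ j)⁻¹ ^ i.val)) *
      trL L b (f ^ i.val) = if i = 1 then n * trL L b (f ^ i.val) else 0 := by
    intro i
    rw [← Finset.sum_mul, sum_roots hL hn0 hζ]
    split_ifs
    · rfl
    · rw [zero_mul]
  rw [Finset.sum_congr rfl fun i _ => h2 i, Finset.sum_ite_eq', if_pos (mem_univ _),
    ZMod.val_one_eq_one_mod]
  have h3 : f ^ (1 % n) = f := by
    conv_rhs => rw [← pow_one f, ← Nat.div_add_mod 1 n, pow_add, pow_mul, hf, one_pow, one_mul]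
  rw [h3]

/-- **the lifted trace is invariant under isomorphisms** -/
theorem trL_congr [IsAlgClosed k] (hL : Lift k n L) (hn : (n : k) ≠ 0) {Y' : Type*} [Fintype Y']
    {V' : Type*} [AddCommGroup V'] [Module k V'] (b : Basis Y k V) (b' : Basis Y' k V')
    (f : V →ₗ[k] V) (f' : V' →ₗ[k] V') (hf : f ^ n = 1) (σ : Y → Y)
    (hσ : ∀ y, ∃ c : k, f (b y) = c • b (σ y)) (σ' : Y' → Y')
    (hσ' : ∀ y, ∃ c : k, f' (b' y) = c • b' (σ' y)) (e : V ≃ₗ[k] V')
    (he : ∀ v, e (f v) = f' (e v)) : trL L b f = trL L b' f' := by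
  have hn0 : n ≠ 0 := by
    rintro rfl
    exact hn Nat.cast_zero
  have : NeZero n := ⟨hn0⟩
  have : NeZero (n : k) := ⟨hn⟩
  obtain ⟨ζ, hζ⟩ := HasEnoughRootsOfUnity.exists_primitiveRoot k n
  have hpow : ∀ (m : ℕ) (v : V), e ((f ^ m) v) = (f' ^ m) (e v) := by
    intro m
    induction m with
    | zero => exact fun v => rfl
    | succ m ih =>
      intro v
      rw [pow_succ, pow_succ, Module.End.mul_apply, Module.End.mul_apply, ih, he]
  have hf' : f' ^ n = 1 := by
    ext v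
    rw [← e.apply_symm_apply v, ← hpow, hf]
    rfl
  have h1 := trL_eq_spec b f hL hn hζ hf σ hσ
  have h2 := trL_eq_spec b' f' hL hn hζ hf' σ' hσ'
  have h3 : ∀ j : ℕ, finrank k (LinearMap.ker (f - ζ ^ j • LinearMap.id)) =
      finrank k (LinearMap.ker (f' - ζ ^ j • LinearMap.id)) := by
    intro j
    refine LinearEquiv.finrank_eq (e.submoduleMap _ |>.trans (LinearEquiv.ofEq _ _ ?_))
    ext v
    rw [Submodule.mem_map, LinearMap.mem_ker, LinearMap.sub_apply, LinearMap.smul_apply,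
      LinearMap.id_apply, sub_eq_zero]
    constructor
    · rintro ⟨w, hw, rfl⟩
      rw [LinearMap.mem_ker, LinearMap.sub_apply, LinearMap.smul_apply, LinearMap.id_apply,
        sub_eq_zero] at hw
      change f' (e w) = ζ ^ j • e w
      rw [← he, hw, map_smul]
    · intro hv
      refine ⟨e.symm v, ?_, e.apply_symm_apply v⟩
      rw [LinearMap.mem_ker, LinearMap.sub_apply, LinearMap.smul_apply, LinearMap.id_apply,
        sub_eq_zero]
      apply e.injective
      rw [he, map_smul, e.apply_symm_apply, hv]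
  have h4 : (n : ℂ) * trL L b f = n * trL L b' f' := by
    rw [h1, h2]
    exact Finset.sum_congr rfl fun j _ => by rw [h3]
  exact mul_left_cancel₀ (Nat.cast_ne_zero.2 hn0) h4

/-- lifts exist -/
theorem exists_lift (k : Type*) [Field k] [IsAlgClosed k] {n : ℕ} (hn : (n : k) ≠ 0) :
    ∃ L : k → ℂ, Lift k n L := by
  have hn0 : n ≠ 0 := by
    rintro rfl
    exact hn Nat.cast_zero
  have : NeZero n := ⟨hn0⟩
  have : NeZero (n : k) := ⟨hn⟩
  obtain ⟨ζ, hζ⟩ := HasEnoughRootsOfUnity.exists_primitiveRoot k n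
  have hξ := Complex.isPrimitiveRoot_exp n hn0
  set ξ := Complex.exp (2 * Real.pi * Complex.I / n)
  have hex : ∀ a : k, a ^ n = 1 → ∃ i < n, ζ ^ i = a := fun a ha => hζ.eq_pow_of_pow_eq_one ha
  let L : k → ℂ := fun a => if h : a ^ n = 1 then ξ ^ (hex a h).choose else 0
  have hL : ∀ i : ℕ, L (ζ ^ i) = ξ ^ i := by
    intro i
    have h1 : (ζ ^ i) ^ n = 1 := by rw [← pow_mul, mul_comm, pow_mul, hζ.pow_eq_one, one_pow]
    have h2 := (hex _ h1).choose_spec
    change (if h : (ζ ^ i) ^ n = 1 then ξ ^ (hex (ζ ^ i) h).choose else 0) = _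
    rw [dif_pos h1]
    have h3 : ζ ^ (i % n) = ζ ^ i := by
      conv_rhs => rw [← Nat.div_add_mod i n, pow_add, pow_mul, hζ.pow_eq_one, one_pow, one_mul]
    have h4 := hζ.pow_inj h2.1 (Nat.mod_lt i (Nat.pos_of_ne_zero hn0)) (h2.2.trans h3.symm)
    rw [h4]
    conv_rhs => rw [← Nat.div_add_mod i n, pow_add, pow_mul, hξ.pow_eq_one, one_pow, one_mul]
  refine ⟨L, ?_, ?_, ?_, ?_⟩
  · change (if h : (0 : k) ^ n = 1 then ξ ^ (hex 0 h).choose else 0) = 0
    rw [dif_neg]
    rw [zero_pow hn0]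
    exact zero_ne_one
  · have h1 := hL 0
    rwa [pow_zero, pow_zero] at h1
  · intro a c ha hc
    obtain ⟨i, -, rfl⟩ := hex a ha
    obtain ⟨j, -, rfl⟩ := hex c hc
    rw [← pow_add, hL, hL, hL, pow_add]
  · intro a ha h1
    obtain ⟨i, hi, rfl⟩ := hex a ha
    rw [hL] at h1
    have h2 := hξ.pow_inj hi (Nat.pos_of_ne_zero hn0) (h1.trans (pow_zero ξ).symm)
    rw [h2, pow_zero]

end

end P179H854
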