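import Vale.Agent.P179.R2.H12.Wat1
import Vale.Agent.P179.R2.H872.Line
import Vale.Agent.P179.R2.H854.Mono2

/-!
# Equivariant comparison of blocks: the definitions and the statements
-/

namespace P179H854

open Finset Module Subgroup P179H524 P179C P179A P179P P179Y P179R P179H12

open scoped Classical

universe u

section defs

variable {k : Type u} [Field k] {G : Type} [Group G]

/-- conjugation of functions as a linear map -/
def cjL (y : G) : (G → k) →ₗ[k] (G → k) where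
  toFun ψ := P179Y.cj y ψ
  map_add' _ _ := rfl
  map_smul' _ _ := rfl

theorem cjL_apply (y : G) (ψ : G → k) : cjL y ψ = P179Y.cj y ψ := rfl

/-- the eigenspace of the conjugation by `y` on `W` -/
def eig (W : Submodule k (G → k)) (y : G) (c : k) : Submodule k (G → k) where
  carrier := {ψ | ψ ∈ W ∧ P179Y.cj y ψ = c • ψ}
  add_mem' := by
    rintro a b ⟨ha, ha'⟩ ⟨hb, hb'⟩
    exact ⟨add_mem ha hb, by rw [cj_add, ha', hb', smul_add]⟩
  zero_mem' := ⟨zero_mem _, by rw [smul_zero]; rfl⟩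
  smul_mem' := by
    rintro r a ⟨ha, ha'⟩
    exact ⟨Submodule.smul_mem _ _ ha, by rw [cj_smul, ha', smul_comm]⟩

theorem mem_eig {W : Submodule k (G → k)} {y : G} {c : k} {ψ : G → k} :
    ψ ∈ eig W y c ↔ ψ ∈ W ∧ P179Y.cj y ψ = c • ψ := Iff.rfl

/-- the lifted trace of the conjugation by `y` on `W`, from the eigenspaces -/
noncomputable def bt (L : k → ℂ) (ζ : k) (n : ℕ) (W : Submodule k (G → k)) (y : G) : ℂ :=
  ∑ j ∈ range n, L (ζ ^ j) * (finrank k (eig W y (ζ ^ j)) : ℂ)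

variable [Fintype G]

/-- the `N`-invariant functions on the coset `g N`, depending only on the regular parts and fixed
by `e`; the condition on the regular parts concerns the elements of `g N` only -/
noncomputable def LG (p : ℕ) (N : Subgroup G) (e : G → k) (g : G) : Submodule k (G → k) where
  carrier := {ψ | (∀ h, g⁻¹ * h ∉ N → ψ h = 0) ∧ (∀ m ∈ N, ∀ h, ψ (m * h * m⁻¹) = ψ h) ∧
    (∀ h, g⁻¹ * h ∈ N → ψ (pr p h) = ψ h) ∧ ∀ y, ∑ h : G, e h * ψ (h * y) = ψ y}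
  add_mem' := by
    rintro a b ⟨ha, ha', ha'', ha'''⟩ ⟨hb, hb', hb'', hb'''⟩
    refine ⟨fun g hg => ?_, fun m hm g => ?_, fun x hx => ?_, fun y => ?_⟩
    · rw [Pi.add_apply, ha g hg, hb g hg, add_zero]
    · simp only [Pi.add_apply, ha' m hm, hb' m hm]
    · simp only [Pi.add_apply, ha'' x hx, hb'' x hx]
    · simp only [Pi.add_apply, mul_add, Finset.sum_add_distrib]
      rw [ha''', hb''']
  zero_mem' := ⟨fun _ _ => rfl, fun _ _ _ => rfl, fun _ _ => rfl, fun y => by simp⟩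
  smul_mem' := by
    rintro t a ⟨ha, ha', ha'', ha'''⟩
    refine ⟨fun g hg => ?_, fun m hm g => ?_, fun x hx => ?_, fun y => ?_⟩
    · rw [Pi.smul_apply, ha g hg, smul_zero]
    · simp only [Pi.smul_apply, ha' m hm]
    · simp only [Pi.smul_apply, ha'' x hx]
    · simp only [Pi.smul_apply, smul_eq_mul]
      conv_rhs => rw [← ha''' y, Finset.mul_sum]
      exact Finset.sum_congr rfl fun g _ => by ring

theorem mem_LG {p : ℕ} {N : Subgroup G} {e : G → k} {g : G} {ψ : G → k} : ψ ∈ LG p N e g ↔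
    (∀ h, g⁻¹ * h ∉ N → ψ h = 0) ∧ (∀ m ∈ N, ∀ h, ψ (m * h * m⁻¹) = ψ h) ∧
    (∀ h, g⁻¹ * h ∈ N → ψ (pr p h) = ψ h) ∧ ∀ y, ∑ h : G, e h * ψ (h * y) = ψ y := Iff.rfl

end defs

section stmts

/-- **(W1)** graded Watanabe theorem -/
def W1S (p : ℕ) (k : Type u) [Field k] : Prop :=
  ∀ (L : k → ℂ) (ζ : k) (n : ℕ) (G : Type) [Group G] [Fintype G] (D P : Subgroup G)
    (l : (G → k) → k), BP p D l → IsPGroup p D → D ≤ centralizer (D : Set G) →
    ¬ p ∣ (centralizer (D : Set G)).relIndex (stabT D l) → P ≤ D →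
    ∀ a ∈ stabT D l, ∀ t ∈ stabT D l, a ∈ normalizer (P : Set G) → t ∈ normalizer (P : Set G) →
    t * a * t⁻¹ * a⁻¹ ∈ centralizer (P : Set G) →
    bt L ζ n (LG p (centralizer (P : Set G)) (eH (centralizer (P : Set G)) l) a) t =
    bt L ζ n (LG p (centralizer ((P ⊔ (D ⊓ centralizer
        ((stabT D l ⊓ centralizer (P : Set G) : Subgroup G) : Set G) ⊓ centralizer {a}) :
          Subgroup G) : Set G))
      (eH (centralizer ((P ⊔ (D ⊓ centralizer
        ((stabT D l ⊓ centralizer (P : Set G) : Subgroup G) : Set G) ⊓ centralizer {a}) :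
          Subgroup G) : Set G)) l) a) t

/-- **(W2.1)** the number of simple modules in terms of commuting pairs -/
def SumS (p : ℕ) (k : Type u) [Field k] : Prop :=
  ∀ (L : k → ℂ) (ζ : k) (G : Type) [Group G] [Fintype G] (N : Subgroup G) [N.Normal]
    (e : G → k), ¬ p ∣ N.index → (∀ x, x ∉ N → e x = 0) → IsCF e → conv e e = e →
    Lift k N.index L → IsPrimitiveRoot ζ N.index → ∀ r : G ⧸ N → G, (∀ a, (r a : G ⧸ N) = a) →
    (N.index : ℂ) * numSimpleIn (mkF e) = ∑ᶠ z : (G ⧸ N) × (G ⧸ N),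
      if z.1 * z.2 = z.2 * z.1 then bt L ζ N.index (LG p N e (r z.1)) (r z.2) else 0

/-- **(W2.2)** invariance under `SL₂(ℤ)` -/
def SL2S (p : ℕ) (k : Type u) [Field k] : Prop :=
  ∀ (L : k → ℂ) (ζ : k) (n : ℕ) (G : Type) [Group G] [Fintype G] (N : Subgroup G) (e : G → k),
    Lift k n L → IsPrimitiveRoot ζ n → ¬ p ∣ n → (∀ x, x ∉ N → e x = 0) → conv e e = e →
    (∀ m ∈ N, ∀ x, e (m * x * m⁻¹) = e x) →
    ∀ g y : G, g ∈ normalizer (N : Set G) → y ∈ normalizer (N : Set G) → P179Y.cj g e = e →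
    P179Y.cj y e = e → y * g * y⁻¹ * g⁻¹ ∈ N → g ^ n ∈ N → y ^ n ∈ N →
    ∀ i j r m : ℤ, i * m - j * r = 1 →
    bt L ζ n (LG p N e (g ^ i * y ^ j)) (g ^ r * y ^ m) = bt L ζ n (LG p N e g) y

end stmts

section congr

variable {k : Type u} [Field k] {G G' : Type} [Group G] [Group G']

/-- isomorphic spaces have the same lifted traces -/
theorem bt_congr {W : Submodule k (G → k)} {W' : Submodule k (G' → k)} (φ : W ≃ₗ[k] W') {y : G}
    {y' : G'} (hs : ∀ ψ ∈ W, P179Y.cj y ψ ∈ W)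
    (hφ : ∀ ψ : W, (φ ⟨P179Y.cj y ψ, hs _ ψ.2⟩ : G' → k) = P179Y.cj y' (φ ψ : G' → k))
    (L : k → ℂ) (ζ : k) (n : ℕ) : bt L ζ n W y = bt L ζ n W' y' := by
  unfold bt
  refine Finset.sum_congr rfl fun j _ => ?_
  congr 2
  have key : ∀ ψ : W, P179Y.cj y (ψ : G → k) = ζ ^ j • (ψ : G → k) ↔
      P179Y.cj y' (φ ψ : G' → k) = ζ ^ j • (φ ψ : G' → k) := by
    intro ψ
    have h1 : (φ (ζ ^ j • ψ) : G' → k) = ζ ^ j • (φ ψ : G' → k) := by
      rw [map_smul]
      rfl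
    rw [← hφ, ← h1]
    constructor
    · intro h
      congr 2
      exact Subtype.ext h
    · intro h
      exact congrArg Subtype.val (φ.injective (Subtype.ext h))
  refine LinearEquiv.finrank_eq
    { toFun := fun x => ⟨φ ⟨x.1, x.2.1⟩, (φ ⟨x.1, x.2.1⟩).2, (key ⟨x.1, x.2.1⟩).1 x.2.2⟩
      map_add' := fun a b => Subtype.ext (by
        have h1 : (⟨(a + b : eig W y (ζ ^ j)).1, (a + b).2.1⟩ : W) =
            ⟨a.1, a.2.1⟩ + ⟨b.1, b.2.1⟩ := rfl
        change ((φ ⟨(a + b : eig W y (ζ ^ j)).1, (a + b).2.1⟩ : W') : G' → k) = _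
        rw [h1, map_add]
        rfl)
      map_smul' := fun c a => Subtype.ext (by
        have h1 : (⟨(c • a : eig W y (ζ ^ j)).1, (c • a).2.1⟩ : W) = c • ⟨a.1, a.2.1⟩ := rfl
        change ((φ ⟨(c • a : eig W y (ζ ^ j)).1, (c • a).2.1⟩ : W') : G' → k) = _
        rw [h1, map_smul]
        rfl)
      invFun := fun x => ⟨φ.symm ⟨x.1, x.2.1⟩, (φ.symm ⟨x.1, x.2.1⟩).2, by
        rw [key, φ.apply_symm_apply]
        exact x.2.2⟩
      left_inv := fun x => Subtype.ext (by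
        change ((φ.symm ⟨(φ ⟨x.1, x.2.1⟩ : W').1, _⟩ : W) : G → k) = x.1
        have h1 : (⟨(φ ⟨x.1, x.2.1⟩ : W').1, (φ ⟨x.1, x.2.1⟩ : W').2⟩ : W') = φ ⟨x.1, x.2.1⟩ := rfl
        rw [h1, φ.symm_apply_apply])
      right_inv := fun x => Subtype.ext (by
        change ((φ ⟨(φ.symm ⟨x.1, x.2.1⟩ : W).1, _⟩ : W') : G' → k) = x.1
        have h1 : (⟨(φ.symm ⟨x.1, x.2.1⟩ : W).1, (φ.symm ⟨x.1, x.2.1⟩ : W).2⟩ : W) =
          φ.symm ⟨x.1, x.2.1⟩ := rfl
        rw [h1, φ.apply_symm_apply]) }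

/-- the lifted trace of a monomial operator -/
theorem trL_eq_bt {L : k → ℂ} {ζ : k} {n : ℕ} (hL : Lift k n L) (hn : (n : k) ≠ 0)
    (hζ : IsPrimitiveRoot ζ n) {W : Submodule k (G → k)} {Y : Type*} [Fintype Y]
    (b : Basis Y k W) (f : W →ₗ[k] W) (y : G) (hf : ∀ ψ : W, (f ψ : G → k) = P179Y.cj y ψ)
    (hfn : f ^ n = 1) (σ : Y → Y) (hσ : ∀ i, ∃ c : k, f (b i) = c • b (σ i)) :
    trL L b f = bt L ζ n W y := by
  have hn0 : n ≠ 0 := by
    rintro rfl
    exact hn Nat.cast_zero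
  have h1 := trL_eq_spec b f hL hn hζ hfn σ hσ
  have h2 : ∀ j : ℕ, finrank k (LinearMap.ker (f - ζ ^ j • LinearMap.id)) =
      finrank k (eig W y (ζ ^ j)) := by
    intro j
    have key : ∀ ψ : W, ψ ∈ LinearMap.ker (f - ζ ^ j • LinearMap.id) ↔
        P179Y.cj y (ψ : G → k) = ζ ^ j • (ψ : G → k) := by
      intro ψ
      rw [LinearMap.mem_ker, LinearMap.sub_apply, LinearMap.smul_apply, LinearMap.id_apply,
        sub_eq_zero, ← hf]
      exact ⟨fun h => by rw [h]; rfl, fun h => Subtype.ext h⟩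
    exact LinearEquiv.finrank_eq
      { toFun := fun x => ⟨x.1.1, x.1.2, (key x.1).1 x.2⟩
        map_add' := fun _ _ => rfl
        map_smul' := fun _ _ => rfl
        invFun := fun x => ⟨⟨x.1, x.2.1⟩, (key ⟨x.1, x.2.1⟩).2 x.2.2⟩
        left_inv := fun _ => rfl
        right_inv := fun _ => rfl }
  have h3 : (n : ℂ) * trL L b f = n * bt L ζ n W y := by
    rw [h1, bt, Finset.mul_sum]
    refine Finset.sum_congr rfl fun j _ => ?_
    rw [h2]
    ring
  exact mul_left_cancel₀ (Nat.cast_ne_zero.2 hn0) h3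

end congr

end P179H854
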