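import Vale.Agent.P179.R2.H854.Tr6
import Vale.Agent.P179.R2.H854.Fx2
import Vale.Agent.P179.H166.TheoremC
import Vale.Agent.P179.R2.H12.Tr4

/-!
# The comparison for a normal `p`-subgroup with cyclic action
-/

namespace P179H854

open Subgroup Finset P179H524 P179C P179A P179P P179Y P179H12 P179H872 P179H443

open scoped Classical

universe u

section Restr

variable {k : Type u} [Field k] {G : Type} [Group G] [Fintype G]

/-- idempotent functions supported on a subgroup -/
theorem conv_restr {X : Subgroup G} {e : G → k} (he : ∀ x, x ∉ X → e x = 0)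
    (hee : conv e e = e) : conv (fun x : X => e x) (fun x : X => e x) = fun x : X => e x := by
  have h1 : (mkF fun x : X => e x) * (mkF fun x : X => e x) = mkF fun x : X => e x := by
    apply inc_injective X
    rw [map_mul, inc_mkF X e he, ← mkF_conv, hee]
  rw [← mkF_conv] at h1
  funext x
  have h2 := congrArg (fun z : MonoidAlgebra k X => z.coeff x) h1
  simp only [coeff_mkF] at h2
  exact h2

theorem numSimple_map {p : ℕ} [Fact p.Prime] [IsAlgClosed k] [CharP k p] {Γ : Subgroup G}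
    (X : Subgroup Γ) (f : G → k) {Y : Subgroup G} (hY : ∀ x, x ∈ Y ↔ ∃ h : x ∈ Γ, (⟨x, h⟩ : Γ) ∈ X) :
    numSimpleIn (mkF fun t : X => f ((t : Γ) : G)) = numSimpleIn (mkF fun t : Y => f t) := by
  let φ : X ≃* Y :=
    { toFun := fun x => ⟨((x : Γ) : G), (hY _).2 ⟨(x : Γ).2, x.2⟩⟩
      invFun := fun y => ⟨⟨(y : G), ((hY _).1 y.2).1⟩, ((hY _).1 y.2).2⟩
      left_inv := fun x => rfl
      right_inv := fun x => rfl
      map_mul' := fun x y => rfl }
  refine numSimpleIn_equiv (p := p) φ _ _ fun x => ?_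
  rw [coeff_mkF, coeff_mkF]
  rfl

end Restr

section Cmp

variable {p : ℕ} [hp : Fact p.Prime] {k : Type u} [Field k]

/-- **comparison of two Clifford counts**, for a cyclic group -/
theorem clf_compare' (hclf : ClfStmt p k) (h3 : 3 < p) {G1 G2 : Type}
    [Group G1] [Fintype G1] [Group G2] [Fintype G2] {A : Type} [hA0 : Group A] [Finite A]
    [hc : IsCyclic A] (hA : Nat.card A ∣ p - 1) (π1 : G1 →* A) (hπ1 : Function.Surjective π1)
    (π2 : G2 →* A) (hπ2 : Function.Surjective π2) {N1 : Subgroup G1}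
    (hN1 : ∀ x, x ∈ N1 ↔ π1 x = 1) {N2 : Subgroup G2} (hN2 : ∀ x, x ∈ N2 ↔ π2 x = 1)
    {e1 : G1 → k} (heN1 : ∀ x, x ∉ N1 → e1 x = 0) (hcf1 : IsCF e1) (hee1 : conv e1 e1 = e1)
    {e2 : G2 → k} (heN2 : ∀ x, x ∉ N2 → e2 x = 0) (hcf2 : IsCF e2) (hee2 : conv e2 e2 = e2)
    (h0 : numSimpleIn (mkF fun x : N1 => e1 x) = numSimpleIn (mkF fun x : N2 => e2 x))
    (hlt : numSimpleIn (mkF fun x : N1 => e1 x) < p)
    (hmod : ∀ S : Subgroup A, numSimpleIn (mkF fun t : S.comap π1 => e1 t) ≡
      numSimpleIn (mkF fun t : S.comap π2 => e2 t) [MOD p]) (S : Subgroup A) :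
    numSimpleIn (mkF fun t : S.comap π1 => e1 t) =
      numSimpleIn (mkF fun t : S.comap π2 => e2 t) := by
  letI : CommGroup A := IsCyclic.commGroup
  exact clf_compare hclf h3 hA π1 hπ1 π2 hπ2 hN1 hN2 heN1 hcf1 hee1 heN2 hcf2 hee2 h0 hlt hmod S

end Cmp

section

variable {p : ℕ} [hp : Fact p.Prime] {k : Type u} [Field k] [IsAlgClosed k] [CharP k p]
  {G : Type} [Group G] [Fintype G] {D M : Subgroup G} {l : (G → k) → k}

/-- the congruence for the intermediate groups -/
theorem mod_between (red : integralClosure ℤ ℂ →+* k) (hl : BP p D l)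
    (hD : IsPGroup p D) (hab : D ≤ centralizer (D : Set G))
    (hT : ¬ p ∣ (centralizer (D : Set G)).relIndex (stabT D l)) (hMn : M.Normal)
    (hM : IsPGroup p M) (hMD : M ≤ D) {C : Subgroup G} (hC : C = centralizer (M : Set G))
    {b1 : MonoidAlgebra k C} (hb1 : IsBlock b1) (hlb1 : Low C l b1)
    {β : MonoidAlgebra k (centralizer (D : Set G))} (hβ : IsBlock β)
    (hlβ : Low (centralizer (D : Set G)) l β) {S : Subgroup G} (hCS : C ≤ S)
    (hS : S ≤ stH C l) :
    numSimpleIn (mkF fun t : S => bF C b1 t) ≡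
      numSimpleIn (mkF fun t : (stabT D l ⊓ S : Subgroup G) => bF (centralizer (D : Set G)) β t)
        [MOD p] := by
  have hCC : centralizer (D : Set G) ≤ C := by
    rw [hC]
    exact centralizer_le hMD
  have hDS : D ≤ S := hab.trans (hCC.trans hCS)
  have hDc : centralizer (D : Set G) ≤ S := hCC.trans hCS
  obtain ⟨hb, hlb⟩ := block_between (p := p) hC hMn hM (hMD.trans hDS) hCS hS
    (BP.mulH hl hD hab hCC) (BP.mulH hl hD hab hDc) hb1 hlb1
  have hab0 : ∀ a ∈ D, ∀ c ∈ D, a * c = c * a := fun a ha c hc =>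
    ((mem_centralizer_iff.1 (hab ha)) c hc).symm
  have hdf := isDefectGroup_low (p := p) hl hD hab0 hT hDS hDc hb hlb
  rw [← numWeightsIn_below red hl hD hab hT hDS hDc hb hlb hdf hβ hlβ]
  refine theoremC p red _ hb _ hdf fun a ha c hc => ?_
  exact ((mem_centralizer_iff.1 (comm_subgroupOf hab hDS ha)) c hc).symm

/-- **the equality from the one for the centraliser of `M`** -/
theorem eq_of_cent (red : integralClosure ℤ ℂ →+* k) (hclf : ClfStmt p k)
    (h3 : 3 < p) (hl : BP p D l)
    (hD : IsPGroup p D) (hab : D ≤ centralizer (D : Set G))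
    (hT : ¬ p ∣ (centralizer (D : Set G)).relIndex (stabT D l)) (hMn : M.Normal)
    (hM : IsPGroup p M) (hMD : M ≤ D) {C : Subgroup G} (hC : C = centralizer (M : Set G))
    {b1 : MonoidAlgebra k C} (hb1 : IsBlock b1) (hlb1 : Low C l b1)
    {β : MonoidAlgebra k (centralizer (D : Set G))} (hβ : IsBlock β)
    (hlβ : Low (centralizer (D : Set G)) l β)
    (hn : (C.subgroupOf (stH C l)).Normal) (hcyc : IsCyclic (stH C l ⧸ C.subgroupOf (stH C l)))
    (hidx : C.relIndex (stH C l) ∣ p - 1)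
    (h0 : numSimpleIn b1 = numSimpleIn (mkF fun t : (stabT D l ⊓ C : Subgroup G) =>
      bF (centralizer (D : Set G)) β t)) (hlt : numSimpleIn b1 < p) :
    numSimpleIn (mkF fun t : stH C l => bF C b1 t) =
      numSimpleIn (mkF fun t : stabT D l => bF (centralizer (D : Set G)) β t) := by
  have hCC : centralizer (D : Set G) ≤ C := by
    rw [hC]
    exact centralizer_le hMD
  have hDC : D ≤ C := hab.trans hCC
  have hCn : C.Normal := by
    rw [hC]
    infer_instance
  have hN : ∀ g : G, g ∈ normalizer (C : Set G) := by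
    intro g
    rw [normalizer_eq_top (H := C)]
    exact mem_top g
  have hmC : MulH C l := BP.mulH hl hD hab hCC
  have hmD : MulH (centralizer (D : Set G)) l := BP.mulH hl hD hab le_rfl
  have hTΓ : stabT D l ≤ stH C l := fun n hn => stabT_le_stH hl hCC hn (hN n)
  let A := stH C l ⧸ C.subgroupOf (stH C l)
  let π1 : stH C l →* A := QuotientGroup.mk' _
  let π2 : stabT D l →* A := π1.comp (Subgroup.inclusion hTΓ)
  have hπ1 : Function.Surjective π1 := QuotientGroup.mk'_surjective _
  have hπ2 : Function.Surjective π2 := by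
    intro a
    obtain ⟨g, rfl⟩ := hπ1 a
    obtain ⟨c, hc, hcg⟩ := exists_stab hl hD hab hT hDC hCC g.2
    refine ⟨⟨c⁻¹ * g, hcg⟩, ?_⟩
    refine QuotientGroup.eq.2 ?_
    rw [mem_subgroupOf]
    change (c⁻¹ * (g : G))⁻¹ * (g : G) ∈ C
    have h1 : (c⁻¹ * (g : G))⁻¹ * (g : G) = (g : G)⁻¹ * c * (g : G)⁻¹⁻¹ := by group
    rw [h1]
    exact (mem_normalizer_iff.1 (hN (g : G)⁻¹) _).1 hc
  have hN1 : ∀ x, x ∈ C.subgroupOf (stH C l) ↔ π1 x = 1 := fun x =>
    (QuotientGroup.eq_one_iff x).symm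
  have hN2 : ∀ x, x ∈ C.subgroupOf (stabT D l) ↔ π2 x = 1 := by
    intro x
    change _ ↔ π1 (Subgroup.inclusion hTΓ x) = 1
    rw [← hN1, mem_subgroupOf, mem_subgroupOf]
    rfl
  -- the idempotents
  have he1 : ∀ x, x ∉ C → bF C b1 x = 0 := (invOn_bF hb1.1).2
  have he2 : ∀ x, x ∉ centralizer (D : Set G) → bF (centralizer (D : Set G)) β x = 0 :=
    (invOn_bF hβ.1).2
  have hcf1 : IsCF (fun x : stH C l => bF C b1 x) := fun t x =>
    bF_cj_of_mem_stH hmC hb1 hlb1 t.2 x
  have hcf2 : IsCF (fun x : stabT D l => bF (centralizer (D : Set G)) β x) := fun t x =>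
    bF_cj_of_mem_stH hmD hβ hlβ (stabT_le_stH hl le_rfl t.2
      (mem_normalizer_iff.2 fun y => (conj_mem_cent t.2.1 y).symm)) x
  have hee1 : conv (fun x : stH C l => bF C b1 x) (fun x : stH C l => bF C b1 x) =
      fun x : stH C l => bF C b1 x :=
    conv_restr (fun x hx => he1 x fun h => hx (le_stH h)) (conv_bF_self hb1)
  have hee2 : conv (fun x : stabT D l => bF (centralizer (D : Set G)) β x)
      (fun x : stabT D l => bF (centralizer (D : Set G)) β x) =
      fun x : stabT D l => bF (centralizer (D : Set G)) β x :=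
    conv_restr (fun x hx => he2 x fun h => hx (cent_le_stabT D l h)) (conv_bF_self hβ)
  -- the normal subgroups
  have hl1 : numSimpleIn (mkF fun x : C.subgroupOf (stH C l) =>
      (fun x : stH C l => bF C b1 x) x) = numSimpleIn b1 := by
    rw [numSimple_map (p := p) (C.subgroupOf (stH C l)) (bF C b1) (Y := C) fun x =>
      ⟨fun h => ⟨le_stH h, mem_subgroupOf.2 h⟩, fun h => mem_subgroupOf.1 h.2⟩, mkF_bF]
  have hl2 : numSimpleIn (mkF fun x : C.subgroupOf (stabT D l) =>
      (fun x : stabT D l => bF (centralizer (D : Set G)) β x) x) =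
      numSimpleIn (mkF fun t : (stabT D l ⊓ C : Subgroup G) =>
        bF (centralizer (D : Set G)) β t) :=
    numSimple_map (p := p) (C.subgroupOf (stabT D l)) (bF (centralizer (D : Set G)) β) fun x =>
      ⟨fun h => ⟨h.1, mem_subgroupOf.2 h.2⟩, fun h => ⟨h.1, mem_subgroupOf.1 h.2⟩⟩
  have key := clf_compare' (A := A) hclf h3 hidx π1 hπ1 π2 hπ2 hN1 hN2
    (e1 := fun x : stH C l => bF C b1 x)
    (fun x hx => he1 x fun h => hx (mem_subgroupOf.2 h)) hcf1 hee1
    (e2 := fun x : stabT D l => bF (centralizer (D : Set G)) β x)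
    (fun x hx => he2 x fun h => hx (mem_subgroupOf.2 (hCC h))) hcf2 hee2
    (by rw [hl1, hl2, h0]) (by rw [hl1]; exact hlt) (fun S => by
      have h1 := mod_between red hl hD hab hT hMn hM hMD hC hb1 hlb1 hβ hlβ
        (S := (S.comap π1).map (stH C l).subtype) (by
          intro c hc
          refine ⟨⟨c, le_stH hc⟩, ?_, rfl⟩
          change π1 _ ∈ S
          rw [(hN1 _).1 (mem_subgroupOf.2 hc)]
          exact one_mem S) (by
          rintro _ ⟨x, -, rfl⟩
          exact x.2)
      have h2 := numSimple_map (p := p) (S.comap π1) (bF C b1)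
        (Y := (S.comap π1).map (stH C l).subtype) fun x => by
          constructor
          · rintro ⟨y, hy, rfl⟩
            exact ⟨y.2, hy⟩
          · rintro ⟨h, hx⟩
            exact ⟨⟨x, h⟩, hx, rfl⟩
      have h3 := numSimple_map (p := p) (S.comap π2) (bF (centralizer (D : Set G)) β)
        (Y := stabT D l ⊓ (S.comap π1).map (stH C l).subtype) fun x => by
          constructor
          · rintro ⟨hxT, y, hy, rfl⟩
            exact ⟨hxT, hy⟩
          · rintro ⟨h, hx⟩
            exact ⟨h, ⟨x, hTΓ h⟩, hx, rfl⟩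
      rw [← h2, ← h3] at h1
      exact h1) ⊤
  have h5 := numSimple_map (p := p) ((⊤ : Subgroup A).comap π1) (bF C b1) (Y := stH C l)
    fun x => ⟨fun h => ⟨h, mem_top _⟩, fun h => h.1⟩
  have h6 := numSimple_map (p := p) ((⊤ : Subgroup A).comap π2) (bF (centralizer (D : Set G)) β)
    (Y := stabT D l) fun x => ⟨fun h => ⟨h, mem_top _⟩, fun h => h.1⟩
  rw [← h5, ← h6]
  exact key

end

end P179H854
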