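import Vale.Agent.P179.R2.H854.EqT
import Vale.Agent.P179.R2.H843.Clf5

/-!
# The lines of the simple modules and the lifted traces
-/

namespace P179H854

open P179H524 P179C P179A P179R P179H872 P179H843 Finset MonoidAlgebra Module

universe u

section lines

variable {k : Type u} [Field k] {Γ : Type} [Group Γ] [Fintype Γ] {N : Subgroup Γ} [hN : N.Normal]
  {c : MonoidAlgebra k N}

open scoped Classical in
/-- the basis of the functions on a coset -/
theorem exists_basis_LX (p : ℕ) [hp : Fact p.Prime] [IsAlgClosed k] [CharP k p]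
    (hidx : ¬ p ∣ N.index) (hc : ∀ g : Γ, cjA g c = c)
    (hcc : c ∈ Subalgebra.center k (MonoidAlgebra k N)) (hc2 : c * c = c) (g : Γ) :
    ∃ b : Basis {K : XK c // smX hc g K = K} k (LX p c g), ∀ K, (b K : Γ → k) ∈ LK p c g K.1.1 := by
  have : Finite (XK c) := finite_XK hcc hc2
  have : Fintype (XK c) := Fintype.ofFinite _
  have hex : ∀ K : {K : XK c // smX hc g K = K}, ∃ ψ ∈ LK p c g K.1.1, ψ ≠ 0 :=
    fun K => LK_ex p hidx hc K.2
  choose t ht ht0 using hex
  let w : {K : XK c // smX hc g K = K} → LX p c g := fun K => ⟨t K, (ht K).1⟩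
  have hli : LinearIndependent k w := by
    rw [Fintype.linearIndependent_iff]
    intro a ha K
    let v : XK c → Γ → k := fun K => if h : smX hc g K = K then a ⟨K, h⟩ • t ⟨K, h⟩ else 0
    have h1 : ∀ K, v K ∈ LK p c g K.1 := by
      intro K
      by_cases h : smX hc g K = K
      · have h2 : v K = a ⟨K, h⟩ • t ⟨K, h⟩ := dif_pos h
        rw [h2]
        exact Submodule.smul_mem _ _ (ht ⟨K, h⟩)
      · have h2 : v K = 0 := dif_neg h
        rw [h2]
        exact zero_mem _
    have h2 : ∑ K, v K = 0 := by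
      have h3 : ∑ K : {K : XK c // smX hc g K = K}, a K • t K = 0 := by
        have h3 := congrArg Subtype.val ha
        rw [AddSubmonoidClass.coe_finset_sum] at h3
        exact h3
      rw [← Finset.sum_filter_of_ne (p := fun K => smX hc g K = K)
        (fun K _ hK => by_contra fun h => hK (dif_neg h)),
        Finset.sum_subtype (p := fun K => smX hc g K = K) _ fun x => by simp, ← h3]
      refine Finset.sum_congr rfl fun K _ => ?_
      exact dif_pos K.2
    have h3 := XK_indep hcc hc2 h1 h2 K.1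
    have h4 : v K.1 = a K • t K := dif_pos K.2
    rw [h4, smul_eq_zero] at h3
    exact h3.resolve_right (ht0 K)
  have hspan : ⊤ ≤ Submodule.span k (Set.range w) := by
    rintro ⟨ψ, hψ⟩ -
    obtain ⟨v, hv, hsum⟩ := XK_dec hcc hc2 p hidx hψ
    have h1 : ∀ K, ∃ a : k, v K = a • (if h : smX hc g K = K then t ⟨K, h⟩ else 0) := by
      intro K
      by_cases h : smX hc g K = K
      · rw [dif_pos h]
        exact LK_line' (ht ⟨K, h⟩) (ht0 ⟨K, h⟩) (hv K)
      · refine ⟨0, ?_⟩
        rw [zero_smul]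
        by_contra h0
        exact h (LK_stable hc (hv K) h0)
    choose a ha using h1
    have h2 : (⟨ψ, hψ⟩ : LX p c g) = ∑ K : {K : XK c // smX hc g K = K}, a K.1 • w K := by
      apply Subtype.ext
      rw [AddSubmonoidClass.coe_finset_sum]
      change ψ = _
      conv_lhs => rw [hsum]
      rw [← Finset.sum_filter_of_ne (p := fun K => smX hc g K = K)
        (fun K _ hK => by_contra fun h => hK (by rw [ha K, dif_neg h, smul_zero])),
        Finset.sum_subtype (p := fun K => smX hc g K = K) _ fun x => by simp]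
      refine Finset.sum_congr rfl fun K _ => ?_
      rw [ha K.1, dif_pos K.2]
      rfl
    rw [h2]
    exact Submodule.sum_mem _ fun K _ => Submodule.smul_mem _ _ (Submodule.subset_span ⟨K, rfl⟩)
  refine ⟨Basis.mk hli hspan, fun K => ?_⟩
  rw [Basis.mk_apply]
  exact ht K

/-- the pairing of a stable simple module -/
theorem exists_beta (p : ℕ) [hp : Fact p.Prime] [CharP k p] (hidx : ¬ p ∣ N.index)
    (hc : ∀ g : Γ, cjA g c = c) (hab : ∀ a b : Γ, a * b * a⁻¹ * b⁻¹ ∈ N) (K : XK c)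
    (hK : ∀ h : Γ, smX hc h K = K) : ∃ β : Γ → Γ → k,
      (∀ y g, ∀ ψ ∈ LK p c g K.1, cjF y ψ = β y g • ψ) ∧
      (∀ y g g', β y (g * g') = β y g * β y g') ∧ (∀ y g, β y g * β g y = 1) ∧
      (∀ g, β g g = 1) ∧ (∀ y g, g ∈ N → β y g = 1) := by
  obtain ⟨n, hn, A, hA, hA1, hKA⟩ := K.2
  have hex : ∀ x : Γ, ∃ a ∈ IP (uhom A), a.1 = x := by
    intro x
    obtain ⟨φ, hφ, hφne⟩ := LK_ex p hidx hc (hK x)
    rw [hKA] at hφ
    obtain ⟨X, hX, hXg, -⟩ := LK_form hA hφ hφne
    exact ⟨X, hX, hXg⟩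
  have hspan := span_uhom hA
  refine ⟨al (uhom A), fun y g ψ hψ => ?_, fun y g g' => al_mul _ hspan hex (hab _ _) (hab _ _),
    fun y g => al_symm _ hspan hex (hab _ _), fun g => al_self _ hspan hex g,
    fun y g hg => al_of_mem_right _ hspan hex hg⟩
  by_cases hne : ψ = 0
  · rw [hne, cjF_zero, smul_zero]
  rw [hKA] at hψ
  obtain ⟨X, hX, hXg, rfl⟩ := LK_form hA hψ hne
  funext h
  change tX A X (y⁻¹ * h * y) = al (uhom A) y g * tX A X h
  rw [tX_conj hA hex hX (hab _ _), hXg]

/-- the lifted trace as a sum over the stable simple modules -/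
theorem bt_eq_sum (p : ℕ) [hp : Fact p.Prime] [IsAlgClosed k] [CharP k p]
    (hidx : ¬ p ∣ N.index) (hc : ∀ g : Γ, cjA g c = c)
    (hab : ∀ a b : Γ, a * b * a⁻¹ * b⁻¹ ∈ N)
    (hcc : c ∈ Subalgebra.center k (MonoidAlgebra k N)) (hc2 : c * c = c) {L : k → ℂ} {ζ : k}
    {n : ℕ} (hL : Lift k n L) (hn : (n : k) ≠ 0) (hζ : IsPrimitiveRoot ζ n) (g y : Γ)
    (hy : y ^ n ∈ N)
    (hgen : ∀ K : XK c, smX hc g K = K → smX hc y K = K → ∀ h, smX hc h K = K)
    (β : XK c → Γ → Γ → k) (hβ : ∀ K, (∀ h, smX hc h K = K) →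
      ∀ y g, ∀ ψ ∈ LK p c g K.1, cjF y ψ = β K y g • ψ) :
    bt L ζ n (LX p c g) y = ∑ᶠ K : {K : XK c // ∀ h, smX hc h K = K}, L (β K.1 y g) := by
  classical
  have : Finite (XK c) := finite_XK hcc hc2
  have : Fintype (XK c) := Fintype.ofFinite _
  obtain ⟨b, hb⟩ := exists_basis_LX p hidx hc hcc hc2 g
  let f : LX p c g →ₗ[k] LX p c g :=
    { toFun := fun ψ => ⟨cjF y ψ.1, cjF_LX hc hab y ψ.2⟩
      map_add' := fun _ _ => rfl
      map_smul' := fun _ _ => rfl }
  have hpow : ∀ (m : ℕ) (ψ : LX p c g), ((f ^ m) ψ : Γ → k) = cjF (y ^ m) (ψ : Γ → k) := by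
    intro m
    induction m with
    | zero => exact fun ψ => by rw [pow_zero, pow_zero, cjF_one]; rfl
    | succ m ih =>
      intro ψ
      rw [pow_succ, Module.End.mul_apply, ih, pow_succ, cjF_mul]
      rfl
  have hfn : f ^ n = 1 := by
    refine LinearMap.ext fun ψ => Subtype.ext ?_
    rw [hpow]
    funext h
    change (ψ : Γ → k) ((y ^ n)⁻¹ * h * (y ^ n)) = (ψ : Γ → k) h
    have h1 := ψ.2.2.1 _ (inv_mem hy) h
    rw [inv_inv] at h1
    exact h1
  let σ : {K : XK c // smX hc g K = K} → {K : XK c // smX hc g K = K} :=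
    fun K => ⟨smX hc y K.1, (smX_fix_iff hc hab g y K.1).2 K.2⟩
  have hσ : ∀ K, ∃ r : k, f (b K) = r • b (σ K) := by
    intro K
    have h1 := cjF_LK hc hab y (hb K)
    have h2 : (b (σ K) : Γ → k) ≠ 0 := fun h => b.ne_zero (σ K) (Subtype.ext h)
    obtain ⟨r, hr⟩ := LK_line' (hb (σ K)) h2 h1
    exact ⟨r, Subtype.ext hr⟩
  rw [← trL_eq_bt hL hn hζ b f y (fun _ => rfl) hfn σ hσ, finsum_eq_sum_of_fintype]
  unfold trL
  -- the diagonal coefficients
  have hdg : ∀ K : {K : XK c // smX hc g K = K}, L (dg b f K) =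
      if h : ∀ h, smX hc h K.1 = K.1 then L (β K.1 y g) else 0 := by
    intro K
    split_ifs with h
    · congr 1
      have h1 : f (b K) = β K.1 y g • b K := Subtype.ext (hβ K.1 h y g _ (hb K))
      unfold dg
      rw [h1]
      simp
    · have h1 : σ K ≠ K := by
        intro h2
        exact h (hgen K.1 K.2 (congrArg Subtype.val h2))
      obtain ⟨r, hr⟩ := hσ K
      have h2 : dg b f K = 0 := by
        unfold dg
        rw [hr, map_smul, Finsupp.smul_apply, Basis.repr_self,
          Finsupp.single_eq_of_ne (Ne.symm h1), smul_zero]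
      rw [h2, hL.zero]
  rw [Finset.sum_congr rfl fun K _ => hdg K]
  have h1 : ∀ (P : XK c → Prop) [Fintype {K : XK c // P K}] (F : XK c → ℂ), ∑ K : {K : XK c // P K}, F K.1 =
      ∑ K : XK c, if P K then F K else 0 := by
    intro P _ F
    rw [← Finset.sum_filter]
    exact (Finset.sum_subtype _ (fun x => by simp) _).symm
  rw [h1 (fun K => smX hc g K = K)
    (fun K => if h : ∀ h, smX hc h K = K then L (β K y g) else 0),
    h1 (fun K => ∀ h, smX hc h K = K) fun K => L (β K y g)]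
  refine Finset.sum_congr rfl fun K _ => ?_
  by_cases hK : ∀ h, smX hc h K = K
  · rw [if_pos (hK g), dif_pos hK, if_pos hK]
  · rw [dif_neg hK, if_neg hK, ite_self]

end lines

end P179H854
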