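import Vale.Agent.P179.R2.H854.EqD

/-!
# Lifted traces in a subgroup and in the group
-/

namespace P179H854

open Finset Module Subgroup P179H524 P179C P179A P179P P179Y P179R P179H12

open scoped Classical

universe u

variable {k : Type u} [Field k]

/-- isomorphic spaces have the same lifted traces, second form -/
theorem bt_congr_key {G G' : Type} [Group G] [Group G'] {W : Submodule k (G → k)}
    {W' : Submodule k (G' → k)} (φ : W ≃ₗ[k] W') {y : G} {y' : G'}
    (key : ∀ (ψ : W) (c : k), P179Y.cj y (ψ : G → k) = c • (ψ : G → k) ↔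
      P179Y.cj y' (φ ψ : G' → k) = c • (φ ψ : G' → k))
    (L : k → ℂ) (ζ : k) (n : ℕ) : bt L ζ n W y = bt L ζ n W' y' := by
  unfold bt
  refine Finset.sum_congr rfl fun j _ => ?_
  congr 2
  refine LinearEquiv.finrank_eq
    { toFun := fun x => ⟨φ ⟨x.1, x.2.1⟩, (φ ⟨x.1, x.2.1⟩).2, (key ⟨x.1, x.2.1⟩ _).1 x.2.2⟩
      map_add' := fun a b => Subtype.ext (by
        have h1 : (⟨(a + b : eig W y (ζ ^ j)).1, (a + b).2.1⟩ : W) =
            ⟨a.1, a.2.1⟩ + ⟨b.1, b.2.1⟩ := rfl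
        change ((φ ⟨(a + b : eig W y (ζ ^ j)).1, (a + b).2.1⟩ : W') : G' → k) = _
        rw [h1, map_add]
        rfl)
      map_smul' := fun c a => Subtype.ext (by
        have h1 : (⟨(c • a : eig W y (ζ ^ j)).1, (c • a).2.1⟩ : W) = c • ⟨a.1, a.2.1⟩ := rfl
        change ((φ ⟨(c • a : eig W y (ζ ^ j)).1, (c • a).2.1⟩ : W') : G' → k) = _
        rw [h1, map_smul]
        rfl)
      invFun := fun x => ⟨φ.symm ⟨x.1, x.2.1⟩, (φ.symm ⟨x.1, x.2.1⟩).2, by
        rw [key, φ.apply_symm_apply]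
        exact x.2.2⟩
      left_inv := fun x => Subtype.ext (by
        change ((φ.symm ⟨(φ ⟨x.1, x.2.1⟩ : W').1, _⟩ : W) : G → k) = x.1
        have h1 : (⟨(φ ⟨x.1, x.2.1⟩ : W').1, (φ ⟨x.1, x.2.1⟩ : W').2⟩ : W') = φ ⟨x.1, x.2.1⟩ := rfl
        rw [h1, φ.symm_apply_apply])
      right_inv := fun x => Subtype.ext (by
        change ((φ ⟨(φ.symm ⟨x.1, x.2.1⟩ : W).1, _⟩ : W') : G' → k) = x.1
        have h1 : (⟨(φ.symm ⟨x.1, x.2.1⟩ : W).1, (φ.symm ⟨x.1, x.2.1⟩ : W).2⟩ : W) =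
          φ.symm ⟨x.1, x.2.1⟩ := rfl
        rw [h1, φ.apply_symm_apply]) }

section sub

variable {G : Type} [Group G] [Fintype G] {H N : Subgroup G} {e : G → k} {p : ℕ}

omit [Field k] [Fintype G] in
theorem sum_subE [Fintype G] {M : Type*} [AddCommMonoid M] (H : Subgroup G) (f : G → M)
    (hf : ∀ x, x ∉ H → f x = 0) : ∑ x : G, f x = ∑ x : H, f x := by
  rw [← Finset.sum_subset (s₁ := univ.filter fun x => x ∈ H) (s₂ := univ) (Finset.subset_univ _)
    fun x _ hx => hf x fun h => hx (mem_filter.2 ⟨mem_univ _, h⟩)]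
  exact (Finset.sum_subtype _ (fun x => by simp) _)

theorem pr_coe (p : ℕ) (H : Subgroup G) (x : H) : ((pr p x : H) : G) = pr p (x : G) := by
  unfold pr
  rw [Subgroup.coe_pow, Subgroup.orderOf_coe]

theorem ext_mem_LG (hNH : N ≤ H) (he : ∀ x, x ∉ N → e x = 0) {g : H} {ψ : H → k}
    (hψ : ψ ∈ LG p (N.subgroupOf H) (fun x : H => e x) g) : ext H ψ ∈ LG p N e (g : G) := by
  obtain ⟨h1, h2, h3, h4⟩ := hψ
  have hin : ∀ h : G, (g : G)⁻¹ * h ∈ N → h ∈ H := by
    intro h hh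
    have h5 := mul_mem g.2 (hNH hh)
    rwa [mul_inv_cancel_left] at h5
  refine ⟨fun h hh => ?_, fun m hm h => ?_, fun h hh => ?_, fun y => ?_⟩
  · by_cases hH : h ∈ H
    · rw [ext_of_mem H _ hH]
      apply h1
      rw [mem_subgroupOf]
      exact hh
    · exact ext_of_not_mem H _ hH
  · by_cases hH : h ∈ H
    · have hH' : m * h * m⁻¹ ∈ H := mul_mem (mul_mem (hNH hm) hH) (inv_mem (hNH hm))
      rw [ext_of_mem H _ hH, ext_of_mem H _ hH']
      exact h2 ⟨m, hNH hm⟩ (mem_subgroupOf.2 hm) ⟨h, hH⟩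
    · rw [ext_of_not_mem H _ hH, ext_of_not_mem]
      intro h5
      apply hH
      have h6 := mul_mem (mul_mem (inv_mem (hNH hm)) h5) (hNH hm)
      have e1 : m⁻¹ * (m * h * m⁻¹) * m = h := by group
      rwa [e1] at h6
  · have hH := hin h hh
    have hH' : pr p h ∈ H := pow_mem hH _
    rw [ext_of_mem H _ hH, ext_of_mem H _ hH', ← h3 ⟨h, hH⟩ (mem_subgroupOf.2 hh)]
    congr 1
    exact Subtype.ext (pr_coe p H ⟨h, hH⟩).symm
  · by_cases hy : y ∈ H
    · rw [ext_of_mem H _ hy, ← h4 ⟨y, hy⟩, sum_subE H _ fun x hx => by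
        rw [he x fun h => hx (hNH h), zero_mul]]
      refine Finset.sum_congr rfl fun x _ => ?_
      rw [ext_of_mem H _ (mul_mem x.2 hy)]
      rfl
    · rw [ext_of_not_mem H _ hy]
      refine Finset.sum_eq_zero fun x _ => ?_
      by_cases hx : x ∈ N
      · rw [ext_of_not_mem, mul_zero]
        intro h5
        exact hy (by simpa using mul_mem (inv_mem (hNH hx)) h5)
      · rw [he x hx, zero_mul]

theorem res_mem_LG (hNH : N ≤ H) (he : ∀ x, x ∉ N → e x = 0) {g : H} {ψ : G → k}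
    (hψ : ψ ∈ LG p N e (g : G)) :
    (fun x : H => ψ x) ∈ LG p (N.subgroupOf H) (fun x : H => e x) g := by
  obtain ⟨h1, h2, h3, h4⟩ := hψ
  refine ⟨fun h hh => ?_, fun m hm h => ?_, fun h hh => ?_, fun y => ?_⟩
  · exact h1 _ fun h5 => hh (mem_subgroupOf.2 h5)
  · exact h2 m (mem_subgroupOf.1 hm) h
  · change ψ ((pr p h : H) : G) = ψ h
    rw [← h3 h (mem_subgroupOf.1 hh)]
    exact congrArg ψ (pr_coe p H h)
  · change ∑ h : H, e h * ψ ((h * y : H) : G) = ψ y
    rw [← h4 y, sum_subE H _ fun x hx => by rw [he x fun h => hx (hNH h), zero_mul]]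
    rfl

theorem ext_res_LG (hNH : N ≤ H) {g : H} {ψ : G → k} (hψ : ψ ∈ LG p N e (g : G)) :
    ext H (fun x : H => ψ x) = ψ := by
  funext x
  by_cases hx : x ∈ H
  · rw [ext_of_mem H _ hx]
  · rw [ext_of_not_mem H _ hx, hψ.1]
    intro h5
    exact hx (by simpa using mul_mem g.2 (hNH h5))

omit [Fintype G] in
theorem res_ext (ψ : H → k) : (fun x : H => ext H ψ x) = ψ := by
  funext x
  rw [ext_of_mem H _ x.2]

/-- **the transfer lemma** -/
theorem bt_sub (hNH : N ≤ H) (he : ∀ x, x ∉ N → e x = 0) (g y : H) (L : k → ℂ) (ζ : k) (n : ℕ) :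
    bt L ζ n (LG p (N.subgroupOf H) (fun x : H => e x) g) y = bt L ζ n (LG p N e (g : G)) (y : G)
      := by
  refine bt_congr_key
    { toFun := fun ψ => ⟨ext H ψ.1, ext_mem_LG hNH he ψ.2⟩
      map_add' := fun a b => Subtype.ext (by
        funext x
        by_cases hx : x ∈ H
        · simp [P179Y.ext, hx]
        · simp [P179Y.ext, hx])
      map_smul' := fun c a => Subtype.ext (by
        funext x
        by_cases hx : x ∈ H
        · simp [P179Y.ext, hx]
        · simp [P179Y.ext, hx])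
      invFun := fun ψ => ⟨fun x : H => ψ.1 x, res_mem_LG hNH he ψ.2⟩
      left_inv := fun ψ => Subtype.ext (res_ext ψ.1)
      right_inv := fun ψ => Subtype.ext (ext_res_LG hNH ψ.2) } ?_ L ζ n
  intro ψ c
  change P179Y.cj y ψ.1 = c • ψ.1 ↔ P179Y.cj (y : G) (ext H ψ.1) = c • ext H ψ.1
  constructor
  · intro h
    funext x
    by_cases hx : x ∈ H
    · have h1 := congrFun h ⟨x, hx⟩
      have hx' : (y : G)⁻¹ * x * y ∈ H := mul_mem (mul_mem (inv_mem y.2) hx) y.2
      change ext H ψ.1 ((y : G)⁻¹ * x * y) = c * ext H ψ.1 x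
      rw [ext_of_mem H _ hx, ext_of_mem H _ hx']
      exact h1
    · have hx' : (y : G)⁻¹ * x * y ∉ H := by
        intro h1
        apply hx
        have h2 := mul_mem (mul_mem y.2 h1) (inv_mem y.2)
        have e1 : (y : G) * ((y : G)⁻¹ * x * y) * (y : G)⁻¹ = x := by group
        rwa [e1] at h2
      change ext H ψ.1 ((y : G)⁻¹ * x * y) = c * ext H ψ.1 x
      rw [ext_of_not_mem H _ hx, ext_of_not_mem H _ hx', mul_zero]
  · intro h
    funext x
    have h1 := congrFun h (x : G)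
    have hx' : (y : G)⁻¹ * x * y ∈ H := mul_mem (mul_mem (inv_mem y.2) x.2) y.2
    change ext H ψ.1 ((y : G)⁻¹ * x * y) = c * ext H ψ.1 x at h1
    rw [ext_of_mem H _ x.2, ext_of_mem H _ hx'] at h1
    exact h1

end sub

end P179H854
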