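import Mathlib

/-!
# The number of pairs generating a cyclic group is prime to `p`
-/

namespace P179H854

open Finset ArithmeticFunction

/-- Jordan's function, as a convolution -/
noncomputable def jor : ArithmeticFunction ℤ :=
  (ArithmeticFunction.moebius * ((ArithmeticFunction.pow 2 : ArithmeticFunction ℕ) :
    ArithmeticFunction ℤ))

theorem jor_mult : jor.IsMultiplicative :=
  isMultiplicative_moebius.mul isMultiplicative_pow.natCast

theorem jor_prime_pow {q s : ℕ} (hq : q.Prime) :
    jor (q ^ (s + 1)) = (q : ℤ) ^ (2 * s) * ((q : ℤ) - 1) * ((q : ℤ) + 1) := by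
  unfold jor
  rw [ArithmeticFunction.mul_apply, Nat.sum_divisorsAntidiagonal
    (fun a b => (ArithmeticFunction.moebius a) *
      (((ArithmeticFunction.pow 2 : ArithmeticFunction ℕ) : ArithmeticFunction ℤ) b)),
    Nat.divisors_prime_pow hq, Finset.sum_map, Finset.sum_range_succ', Finset.sum_range_succ']
  have h0 : ∑ k ∈ Finset.range s, (ArithmeticFunction.moebius (q ^ (k + 1 + 1))) *
      (((ArithmeticFunction.pow 2 : ArithmeticFunction ℕ) : ArithmeticFunction ℤ)
        (q ^ (s + 1) / q ^ (k + 1 + 1))) = 0 := by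
    refine Finset.sum_eq_zero fun k _ => ?_
    rw [moebius_apply_prime_pow hq (by omega), if_neg (by omega), zero_mul]
  have h1 : (q ^ (s + 1) / q ^ (0 + 1) : ℕ) = q ^ s := by
    rw [Nat.pow_div (by omega) hq.pos]
    congr 1
  have h2 : (q ^ (s + 1) / q ^ 0 : ℕ) = q ^ (s + 1) := by simp
  simp only [Function.Embedding.coeFn_mk]
  rw [h0, h1, h2, moebius_apply_prime_pow hq (by omega), if_pos (by omega), natCoe_apply,
    natCoe_apply, pow_apply, pow_apply, if_neg (by simp), if_neg (by simp)]
  simp only [pow_zero, moebius_apply_one]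
  push_cast
  ring

/-- `p` does not divide Jordan's function at the divisors of `p - 1`, `p > 3` -/
theorem not_dvd_jor {p n : ℕ} (hp : p.Prime) (h3 : 3 < p) (hn : n ∣ p - 1) (hn0 : n ≠ 0) :
    ¬ (p : ℤ) ∣ jor n := by
  rw [jor_mult.multiplicative_factorization _ hn0]
  have hpz : Prime (p : ℤ) := Nat.prime_iff_prime_int.1 hp
  rw [Finsupp.prod, hpz.dvd_finsetProd_iff]
  rintro ⟨q, hq, hdvd⟩
  have hqp : q.Prime := Nat.prime_of_mem_primeFactors (by simpa using hq)
  have hqn : q ∣ n := Nat.dvd_of_mem_primeFactors (by simpa using hq)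
  have hs : n.factorization q ≠ 0 := Finsupp.mem_support_iff.1 hq
  obtain ⟨s, hs⟩ := Nat.exists_eq_succ_of_ne_zero hs
  rw [hs, Nat.succ_eq_add_one, jor_prime_pow hqp] at hdvd
  have hq1 : q ∣ p - 1 := hqn.trans hn
  have hqle : q ≤ p - 1 := Nat.le_of_dvd (by omega) hq1
  have hq2 := hqp.two_le
  rcases hpz.dvd_or_dvd hdvd with h | h
  · rcases hpz.dvd_or_dvd h with h | h
    · have h4 := hpz.dvd_of_dvd_pow h
      have h5 : p ∣ q := Int.natCast_dvd_natCast.1 h4
      exact absurd (Nat.le_of_dvd (by omega) h5) (by omega)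
    · have h5 : p ∣ q - 1 := by
        have h6 : ((q - 1 : ℕ) : ℤ) = (q : ℤ) - 1 := by
          rw [Nat.cast_sub (by omega)]
          simp
        rw [← h6] at h
        exact Int.natCast_dvd_natCast.1 h
      exact absurd (Nat.le_of_dvd (by omega) h5) (by omega)
  · have h5 : p ∣ q + 1 := by
      have h6 : ((q + 1 : ℕ) : ℤ) = (q : ℤ) + 1 := by push_cast; ring
      rw [← h6] at h
      exact Int.natCast_dvd_natCast.1 h
    have h6 := Nat.le_of_dvd (by omega) h5
    have h7 : q = p - 1 := by omega
    have h8 : p % 2 = 1 := by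
      rcases hp.eq_two_or_odd with h | h
      · omega
      · exact h
    have h9 : 2 ∣ q := by
      rw [h7]
      omega
    have h10 := (Nat.prime_dvd_prime_iff_eq Nat.prime_two hqp).1 h9
    omega

/-- the number of elements of order `m` of `S × S`, `S` cyclic of order `m` -/
theorem card_order_eq_jor {S : Type*} [CommGroup S] [Fintype S] [DecidableEq S] [IsCyclic S] :
    ((#{z : S × S | orderOf z = Nat.card S} : ℕ) : ℤ) = jor (Nat.card S) := by
  have hm : Nat.card S ≠ 0 := Nat.card_pos.ne'
  have h1 : ∀ d, d ∣ Nat.card S → #{z : S × S | z ^ d = 1} = d ^ 2 := by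
    intro d hd
    have hd0 : d ≠ 0 := ne_zero_of_dvd_ne_zero hm hd
    have h2 : #{x : S | x ^ d = 1} = d := by
      have h3 := IsCyclic.card_powMonoidHom_ker (G := S) d
      rw [Nat.gcd_eq_right hd] at h3
      have h4 : #{x : S | x ^ d = 1} = Nat.card (powMonoidHom d : S →* S).ker := by
        rw [Nat.card_eq_fintype_card, Fintype.card_subtype]
        refine congrArg Finset.card ?_
        ext x
        simp only [Finset.mem_filter, Finset.mem_univ, true_and, MonoidHom.mem_ker,
          powMonoidHom_apply]
      rw [h4, h3]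
    have h3 : (Finset.univ.filter fun z : S × S => z ^ d = 1) =
        (Finset.univ.filter fun x : S => x ^ d = 1) ×ˢ
          (Finset.univ.filter fun x : S => x ^ d = 1) := by
      ext ⟨a, b⟩
      simp [Prod.ext_iff]
    rw [h3, Finset.card_product, h2, sq]
  have h2 : ∀ d > 0, d ∈ {d | d ∣ Nat.card S} → (∑ i ∈ d.divisors,
      ((#{z : S × S | orderOf z = i} : ℕ) : ℤ)) = ((d ^ 2 : ℕ) : ℤ) := by
    intro d _ hd
    rw [← h1 d hd, ← sum_card_orderOf_eq_card_pow_eq_one (ne_zero_of_dvd_ne_zero hm hd)]
    push_cast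
    rfl
  rw [sum_eq_iff_sum_mul_moebius_eq_on (R := ℤ) {d | d ∣ Nat.card S}
    (fun a b hab hb => hab.trans hb)] at h2
  rw [← h2 _ Nat.card_pos (dvd_refl _)]
  unfold jor
  rw [ArithmeticFunction.mul_apply]
  refine Finset.sum_congr rfl fun x hx => ?_
  have hx2 : x.2 ≠ 0 := by
    intro h
    have := (Nat.mem_divisorsAntidiagonal.1 hx)
    rw [h, mul_zero] at this
    exact this.2 this.1.symm
  rw [natCoe_apply, pow_apply, if_neg (by simp)]
  simp

/-- in a cyclic group, two elements generate the group iff the pair has maximal order -/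
theorem closure_pair_eq_top {S : Type*} [CommGroup S] [Finite S] [IsCyclic S] (x y : S) :
    Subgroup.closure {x, y} = ⊤ ↔ orderOf (x, y) = Nat.card S := by
  have hx : x ∈ Subgroup.closure {x, y} := Subgroup.subset_closure (by simp)
  have hy : y ∈ Subgroup.closure {x, y} := Subgroup.subset_closure (by simp)
  have h1 : orderOf (x, y) = Nat.card (Subgroup.closure {x, y}) := by
    rw [Prod.orderOf_mk]
    apply Nat.dvd_antisymm
    · refine Nat.lcm_dvd ?_ ?_
      · have := orderOf_dvd_natCard (⟨x, hx⟩ : Subgroup.closure {x, y})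
        rwa [Subgroup.orderOf_mk] at this
      · have := orderOf_dvd_natCard (⟨y, hy⟩ : Subgroup.closure {x, y})
        rwa [Subgroup.orderOf_mk] at this
    · obtain ⟨g, hg⟩ := IsCyclic.exists_generator (α := Subgroup.closure {x, y})
      rw [← orderOf_eq_card_of_forall_mem_zpowers hg, orderOf_dvd_iff_pow_eq_one]
      have h2 : ∀ z ∈ Subgroup.closure {x, y}, z ^ (Nat.lcm (orderOf x) (orderOf y)) = 1 := by
        intro z hz
        induction hz using Subgroup.closure_induction with
        | mem z hz =>
          rcases hz with rfl | rfl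
          · exact orderOf_dvd_iff_pow_eq_one.1 (Nat.dvd_lcm_left _ _)
          · exact orderOf_dvd_iff_pow_eq_one.1 (Nat.dvd_lcm_right _ _)
        | one => exact one_pow _
        | mul a b _ _ ha hb => rw [mul_pow, ha, hb, one_mul]
        | inv a _ ha => rw [inv_pow, ha, inv_one]
      exact Subtype.ext (h2 g g.2)
  rw [h1]
  constructor
  · intro h
    rw [h, Subgroup.card_top]
  · intro h
    exact Subgroup.eq_top_of_card_eq _ h

/-- **the arithmetic of fixed points**: a function on the subgroups of a cyclic group of order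
dividing `p - 1`, `p > 3`, whose sums over all pairs of elements of the subgroups are divisible by
`p`, is divisible by `p` -/
theorem fix_arith {p : ℕ} (hp : p.Prime) (h3 : 3 < p) {A : Type*} [CommGroup A] [Finite A]
    [IsCyclic A] (hn : Nat.card A ∣ p - 1) (F : Subgroup A → ℤ)
    (h : ∀ S : Subgroup A, (p : ℤ) ∣ ∑ᶠ z : S × S, F (Subgroup.closure {(z.1 : A), (z.2 : A)})) :
    ∀ S, (p : ℤ) ∣ F S := by
  classical
  suffices H : ∀ n : ℕ, ∀ S : Subgroup A, Nat.card S = n → (p : ℤ) ∣ F S from
    fun S => H _ S rfl
  intro n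
  induction n using Nat.strong_induction_on with
  | _ n ih =>
    intro S hS
    have := Fintype.ofFinite S
    have hsum := h S
    rw [finsum_eq_sum_of_fintype, ← Finset.sum_filter_add_sum_filter_not Finset.univ
      (fun z : S × S => orderOf z = Nat.card S)] at hsum
    have htop : ∀ z : S × S, orderOf z = Nat.card S ↔
        Subgroup.closure {(z.1 : A), (z.2 : A)} = S := by
      intro z
      have h1 := closure_pair_eq_top z.1 z.2
      have h2 : Subgroup.closure {(z.1 : A), (z.2 : A)} =
          (Subgroup.closure {z.1, z.2}).map S.subtype := by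
        rw [MonoidHom.map_closure, Set.image_pair]
        rfl
      rw [← h1, h2]
      constructor
      · intro h
        rw [h, ← MonoidHom.range_eq_map, Subgroup.range_subtype]
      · intro h
        apply Subgroup.map_injective S.subtype_injective
        rw [h, ← MonoidHom.range_eq_map, Subgroup.range_subtype]
    have hA : ∑ z ∈ Finset.univ.filter (fun z : S × S => orderOf z = Nat.card S),
        F (Subgroup.closure {(z.1 : A), (z.2 : A)}) = jor (Nat.card S) * F S := by
      rw [← card_order_eq_jor, Finset.sum_congr rfl (g := fun _ => F S), Finset.sum_const,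
        nsmul_eq_mul]
      intro z hz
      rw [(htop z).1 (Finset.mem_filter.1 hz).2]
    have hB : (p : ℤ) ∣ ∑ z ∈ Finset.univ.filter (fun z : S × S => ¬ orderOf z = Nat.card S),
        F (Subgroup.closure {(z.1 : A), (z.2 : A)}) := by
      refine Finset.dvd_sum fun z hz => ?_
      have h1 := (Finset.mem_filter.1 hz).2
      rw [htop] at h1
      have hle : Subgroup.closure {(z.1 : A), (z.2 : A)} ≤ S := by
        rw [Subgroup.closure_le]
        rintro _ (rfl | rfl)
        · exact z.1.2
        · exact z.2.2
      have hlt : Nat.card (Subgroup.closure {(z.1 : A), (z.2 : A)}) < n := by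
        rw [← hS]
        by_contra hcon
        exact h1 (Subgroup.eq_of_le_of_card_ge hle (not_lt.1 hcon))
      exact ih _ hlt _ rfl
    rw [hA] at hsum
    have hC := (Int.dvd_add_left hB).1 hsum
    rcases (Nat.prime_iff_prime_int.1 hp).dvd_or_dvd hC with h4 | h4
    · exact absurd h4 (not_dvd_jor hp h3 ((Subgroup.card_subgroup_dvd_card S).trans hn)
        Nat.card_pos.ne')
    · exact h4

end P179H854
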