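import Vale.Agent.P179.R2.H854.Kr1
import Vale.Agent.P179.R2.H292.ExpDvd

/-!
# The Knörr–Robinson sum of `B ≀ C_p`, from the rules for the numbers of simple modules
-/

namespace P179H854

open Subgroup P179A P179N P179R P179C P179H524 P179H443 RegularWreathProduct

open scoped Classical

universe u

/-- the rule for the product subgroups -/
def RuleP (p : ℕ) (k : Type u) [Field k] : Prop :=
  ∀ (G Q : Type) [Group G] [Finite G] [Group Q] [Fintype Q], Nat.card Q = p →
    ∀ e : MonoidAlgebra k G, IsBlock e → ∀ K x : Q → Subgroup G, (∀ q, Good p (K q) (x q)) →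
      nT (ehat Q e) (PP K) = ∏ q, nT e (K q)

/-- the rule for the subgroups `K ≀ Q` -/
def RuleW (p : ℕ) (k : Type u) [Field k] : Prop :=
  ∀ (G Q : Type) [Group G] [Finite G] [Group Q] [Fintype Q], Nat.card Q = p →
    ∀ e : MonoidAlgebra k G, IsBlock e → ∀ K x : Subgroup G, Good p K x →
      p * nT (ehat Q e) (bR Q K) = nT e K ^ p + (p - 1) * nT e K

/-- the rule for the subgroups `K × Q` -/
def RuleD (p : ℕ) (k : Type u) [Field k] : Prop :=
  ∀ (G Q : Type) [Group G] [Finite G] [Group Q] [Fintype Q], Nat.card Q = p →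
    ∀ e : MonoidAlgebra k G, IsBlock e → ∀ K x : Subgroup G, Good p K x →
      nT (ehat Q e) (dD Q K) = nT e K

section Card

variable {p : ℕ} [hp : Fact p.Prime] {G Q : Type} [Group G] [Finite G] [Group Q] [Fintype Q]

omit hp in
theorem card_PP (K : Q → Subgroup G) : Nat.card (PP K) = ∏ q, Nat.card (K q) := by
  rw [← Nat.card_pi]
  exact Nat.card_congr
    { toFun := fun w q => ⟨w.1.left q, (mem_PP.1 w.2).2 q⟩
      invFun := fun y => ⟨incl G Q fun q => (y q : G), mem_PP.2 ⟨rfl, fun q => (y q).2⟩⟩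
      left_inv := fun w => Subtype.ext (eq_incl (mem_PP.1 w.2).1).symm
      right_inv := fun _ => rfl }

omit hp in
theorem card_bR (K : Subgroup G) : Nat.card (bR Q K) = Nat.card K ^ Nat.card Q * Nat.card Q := by
  have h1 : Nat.card (Q → K) = Nat.card K ^ Nat.card Q := Nat.card_fun
  rw [← h1, ← Nat.card_prod]
  exact Nat.card_congr
    { toFun := fun w => (fun q => ⟨w.1.left q, w.2 q⟩, w.1.right)
      invFun := fun t => ⟨⟨fun q => (t.1 q : G), t.2⟩, fun q => (t.1 q).2⟩
      left_inv := fun _ => rfl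
      right_inv := fun _ => rfl }

omit hp in
theorem card_dD (K : Subgroup G) : Nat.card (dD Q K) = Nat.card K * Nat.card Q := by
  rw [← Nat.card_prod]
  refine Nat.card_congr
    { toFun := fun w => (⟨w.1.left 1, (mem_dD'.1 w.2).1⟩, w.1.right)
      invFun := fun t => ⟨⟨fun _ => t.1, t.2⟩, ⟨t.1, t.1.2, fun _ => rfl⟩⟩
      left_inv := fun w => ?_
      right_inv := fun _ => rfl }
  apply Subtype.ext
  have h := (mem_dD'.1 w.2).2
  ext q
  · exact (h q).symm
  · rfl

end Card

/-- **The Knörr–Robinson sum of `B ≀ C_p`.** -/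
theorem krWr_of {p : ℕ} [hp : Fact p.Prime] {k : Type u} [Field k] [IsAlgClosed k] [CharP k p]
    (hP : RuleP p k) (hW : RuleW p k) (hD : RuleD p k) {G Q : Type} [Group G] [Finite G] [Group Q]
    [Fintype Q] (hQ : Nat.card Q = p) {e : MonoidAlgebra k G} (he : IsBlock e)
    (he' : IsBlock (ehat Q e)) :
    (p : ℤ) * P179B.krSum p (ehat Q e) = P179B.krSum p e ^ p - P179B.krSum p e := by
  have hp0 : 0 < p := hp.out.pos
  have h1 := Phi_wreath (p := p) hQ (wt e) (wt (ehat Q e)) (fun g K => wt_cj he.1 g K)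
    (fun g K => wt_cj he'.1 g K) (fun K x hg => by
      rw [wt, hP G Q hQ e he K x hg, card_PP]
      push_cast
      rw [← Finset.prod_mul_distrib]
      rfl) (fun K x hg => by
      have h2 : (p : ℤ) * nT (ehat Q e) (bR Q K) = (nT e K : ℤ) ^ p + ((p : ℤ) - 1) * nT e K := by
        have h3 := hW G Q hQ e he K x hg
        have h4 : ((p * nT (ehat Q e) (bR Q K) : ℕ) : ℤ) =
          ((nT e K ^ p + (p - 1) * nT e K : ℕ) : ℤ) := by rw [h3]
        push_cast [Nat.cast_sub hp.out.one_le] at h4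
        exact h4
      rw [wt, card_bR, hQ, wt]
      push_cast
      have h5 : (Nat.card K : ℤ) ^ p = (Nat.card K : ℤ) ^ (p - 1) * Nat.card K := by
        rw [← pow_succ, Nat.sub_add_cancel hp0]
      rw [mul_assoc, h2, mul_pow, mul_add]
      congr 1
      rw [h5]
      ring) (fun K x hg => by
      rw [wt, wt, hD G Q hQ e he K x hg, card_dD, hQ]
      push_cast
      ring)
  rw [← card_mul_krSum (p := p) he, ← card_mul_krSum (p := p) he', card_wr, hQ] at h1
  push_cast at h1
  have hG : (Nat.card G : ℤ) ≠ 0 := by exact_mod_cast Nat.card_pos.ne'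
  have h5 : (Nat.card G : ℤ) ^ p = (Nat.card G : ℤ) ^ (p - 1) * Nat.card G := by
    rw [← pow_succ, Nat.sub_add_cancel hp0]
  have h6 : (Nat.card G : ℤ) ^ p * ((p : ℤ) * P179B.krSum p (ehat Q e)) =
      (Nat.card G : ℤ) ^ p * (P179B.krSum p e ^ p - P179B.krSum p e) := by
    rw [← mul_assoc, h1, mul_pow, mul_sub, h5]
    ring
  exact mul_left_cancel₀ (pow_ne_zero _ hG) h6

end P179H854
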