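import Vale.Agent.P179.R2.H967.WatF
import Vale.Agent.P179.R2.H843.Clf5
import Vale.Agent.P179.R2.H843.EqClose

/-!
# Equality for abelian defect groups of rank two and a normal `p`-subgroup, and its consequences
-/

namespace P179H854

open Subgroup P179C P179H443

universe u

variable {p : ℕ} [hp : Fact p.Prime] {k : Type u} [Field k] [IsAlgClosed k] [CharP k p]

/-- **equality for abelian defect groups of rank two and a normal `p`-subgroup centralised by an
element of the inertial group which does not centralise the defect group** -/
theorem locR2 (red : integralClosure ℤ ℂ →+* k) (h3 : 3 < p) : LocR2 p k red :=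
  locR2_of red (P179H843.clfStmt p k) (P179H967.watStmt red) h3

end P179H854
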