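import Mathlib

/-!
# Invariants of a monomial action and lifted traces
-/

namespace P179H854

open Finset Module

open scoped Classical

/-- a lift of the `n`-th roots of unity of a field to the complex numbers -/
structure Lift (k : Type*) [Field k] (n : ℕ) (L : k → ℂ) : Prop where
  zero : L 0 = 0
  one : L 1 = 1
  mul : ∀ a b : k, a ^ n = 1 → b ^ n = 1 → L (a * b) = L a * L b
  inj : ∀ a : k, a ^ n = 1 → L a = 1 → a = 1

section

variable {k : Type*} [Field k] {A : Type*} [Group A] [Fintype A] {Y : Type*} [Fintype Y]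
  [MulAction A Y] {V : Type*} [AddCommGroup V] [Module k V]

/-- monomial actions -/
def Mono (b : Basis Y k V) (τ : Representation k A V) : Prop :=
  ∀ g y, ∃ c : k, τ g (b y) = c • b (g • y)

/-- the diagonal coefficients -/
noncomputable def dg (b : Basis Y k V) (f : V →ₗ[k] V) (y : Y) : k := b.repr (f (b y)) y

/-- the lifted trace -/
noncomputable def trL (L : k → ℂ) (b : Basis Y k V) (f : V →ₗ[k] V) : ℂ := ∑ y, L (dg b f y)

variable {b : Basis Y k V} {τ : Representation k A V}

omit [Fintype A] [Fintype Y] in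
theorem Mono.eq (h : Mono b τ) {g : A} {y : Y} (hg : g • y = y) :
    τ g (b y) = dg b (τ g) y • b y := by
  obtain ⟨c, hc⟩ := h g y
  rw [hg] at hc
  unfold dg
  rw [hc]
  simp

omit [Fintype A] [Fintype Y] in
theorem Mono.ne (h : Mono b τ) {g : A} {y : Y} (hg : g • y ≠ y) : dg b (τ g) y = 0 := by
  obtain ⟨c, hc⟩ := h g y
  unfold dg
  rw [hc, map_smul, Finsupp.smul_apply, Basis.repr_self, Finsupp.single_eq_of_ne (Ne.symm hg),
    smul_zero]

omit [Fintype A] [Fintype Y] in
theorem Mono.dg_mul (h : Mono b τ) {g g' : A} {y : Y} (hg : g • y = y) (hg' : g' • y = y) :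
    dg b (τ (g * g')) y = dg b (τ g) y * dg b (τ g') y := by
  have h1 : τ (g * g') (b y) = (dg b (τ g) y * dg b (τ g') y) • b y := by
    rw [map_mul, Module.End.mul_apply, h.eq hg', map_smul, h.eq hg, smul_smul, mul_comm]
  unfold dg at h1 ⊢
  rw [h1]
  simp

omit [Fintype A] [Fintype Y] in
theorem Mono.dg_one (y : Y) : dg b (τ (1 : A)) y = 1 := by
  unfold dg
  rw [map_one]
  simp

omit [Fintype Y] in
theorem Mono.dg_pow (h : Mono b τ) {g : A} {y : Y} (hg : g • y = y) :
    dg b (τ g) y ^ Nat.card A = 1 := by
  have h1 : ∀ n : ℕ, dg b (τ g) y ^ n = dg b (τ (g ^ n)) y := by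
    intro n
    induction n with
    | zero => rw [pow_zero, pow_zero, Mono.dg_one]
    | succ n ih =>
      have h2 : g ^ n • y = y := by
        have h3 : g ∈ MulAction.stabilizer A y := hg
        exact pow_mem h3 n
      rw [pow_succ, pow_succ, h.dg_mul h2 hg, ih]
  rw [h1, pow_card_eq_one', Mono.dg_one]

/-- the sum over the group -/
noncomputable def sw (b : Basis Y k V) (τ : Representation k A V) (y : Y) : V := ∑ g, τ g (b y)

omit [Fintype Y] [MulAction A Y] in
theorem sw_inv (g : A) (y : Y) : τ g (sw b τ y) = sw b τ y := by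
  unfold sw
  rw [map_sum]
  exact Fintype.sum_equiv (Equiv.mulLeft g) _ _ fun x => by
    rw [Equiv.coe_mulLeft, map_mul]
    rfl

omit [Fintype Y] in
theorem sw_smul (h : Mono b τ) (g : A) (y : Y) : ∃ c : k, sw b τ (g • y) = c • sw b τ y := by
  obtain ⟨c, hc⟩ := h g y
  have hc0 : c ≠ 0 := by
    intro h0
    rw [h0, zero_smul] at hc
    have h1 : τ g⁻¹ (τ g (b y)) = b y := by
      rw [← Module.End.mul_apply, ← map_mul, inv_mul_cancel, map_one]
      rfl
    rw [hc, map_zero] at h1
    exact b.ne_zero y h1.symm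
  refine ⟨c⁻¹, ?_⟩
  have h1 : b (g • y) = c⁻¹ • τ g (b y) := by rw [hc, smul_smul, inv_mul_cancel₀ hc0, one_smul]
  unfold sw
  rw [h1, Finset.smul_sum]
  exact Fintype.sum_equiv (Equiv.mulRight g) _ _ fun x => by
    rw [Equiv.coe_mulRight, map_mul, map_smul]
    rfl

/-- the good points -/
def MGood (b : Basis Y k V) (τ : Representation k A V) (y : Y) : Prop :=
  ∀ g : A, g • y = y → dg b (τ g) y = 1

omit [Fintype A] [Fintype Y] in
theorem good_smul (h : Mono b τ) (g : A) (y : Y) : MGood b τ (g • y) ↔ MGood b τ y := by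
  have key : ∀ (g : A) (y : Y), MGood b τ y → MGood b τ (g • y) := by
    intro g y hy s hs
    have h1 : (g⁻¹ * s * g) • y = y := by
      rw [mul_smul, mul_smul, hs, inv_smul_smul]
    have h2 := hy _ h1
    have h3 : τ (g⁻¹ * s * g) (b y) = b y := by
      rw [h.eq h1, h2, one_smul]
    obtain ⟨c, hc⟩ := h g y
    have hc0 : c ≠ 0 := by
      intro h0
      rw [h0, zero_smul] at hc
      have h1 : τ g⁻¹ (τ g (b y)) = b y := by
        rw [← Module.End.mul_apply, ← map_mul, inv_mul_cancel, map_one]
        rfl
      rw [hc, map_zero] at h1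
      exact b.ne_zero y h1.symm
    have h4 : τ s (b (g • y)) = b (g • y) := by
      have h5 : b (g • y) = c⁻¹ • τ g (b y) := by
        rw [hc, smul_smul, inv_mul_cancel₀ hc0, one_smul]
      have h6 : s * g = g * (g⁻¹ * s * g) := by group
      rw [h5, map_smul, ← Module.End.mul_apply, ← map_mul, h6, map_mul, Module.End.mul_apply, h3]
    unfold dg
    rw [h4]
    simp
  refine ⟨fun hy => ?_, key g y⟩
  have h1 := key g⁻¹ (g • y) hy
  rwa [inv_smul_smul] at h1

omit [Fintype Y] in
theorem sw_bad (h : Mono b τ) {y : Y} (hy : ¬ MGood b τ y) : sw b τ y = 0 := by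
  unfold MGood at hy
  push Not at hy
  obtain ⟨g, hg, hg1⟩ := hy
  have h1 : sw b τ y = dg b (τ g) y • sw b τ y := by
    have h2 : sw b τ y = ∑ x, τ (x * g) (b y) :=
      (Fintype.sum_equiv (Equiv.mulRight g) (fun x => τ (x * g) (b y)) (fun x => τ x (b y))
        fun x => rfl).symm
    conv_lhs => rw [h2]
    unfold sw
    rw [Finset.smul_sum]
    refine Finset.sum_congr rfl fun x _ => ?_
    rw [map_mul, Module.End.mul_apply, h.eq hg, map_smul]
  have h3 : (1 - dg b (τ g) y) • sw b τ y = 0 := by
    rw [sub_smul, one_smul, ← h1, sub_self]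
  rcases smul_eq_zero.1 h3 with h4 | h4
  · exact absurd (sub_eq_zero.1 h4).symm hg1
  · exact h4

omit [Fintype Y] in
theorem repr_sw_self (h : Mono b τ) {y : Y} (hy : MGood b τ y) :
    b.repr (sw b τ y) y = Nat.card (MulAction.stabilizer A y) := by
  unfold sw
  rw [map_sum, Finsupp.finset_sum_apply]
  have h1 : ∀ g : A, b.repr (τ g (b y)) y = if g ∈ MulAction.stabilizer A y then 1 else 0 := by
    intro g
    split_ifs with hg
    · exact hy g hg
    · exact h.ne hg
  rw [Finset.sum_congr rfl fun g _ => h1 g, ← Finset.sum_filter, Finset.sum_const, nsmul_eq_mul,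
    mul_one, Nat.card_eq_fintype_card, Fintype.card_subtype]

omit [Fintype Y] in
theorem repr_sw_ne (h : Mono b τ) {y z : Y} (hz : z ∉ MulAction.orbit A y) :
    b.repr (sw b τ y) z = 0 := by
  unfold sw
  rw [map_sum, Finsupp.finset_sum_apply]
  refine Finset.sum_eq_zero fun g _ => ?_
  obtain ⟨c, hc⟩ := h g y
  rw [hc, map_smul, Finsupp.smul_apply, Basis.repr_self, Finsupp.single_eq_of_ne, smul_zero]
  rintro rfl
  exact hz ⟨g, rfl⟩

/-- the dimension of the invariants is the number of the good orbits -/
theorem finrank_inv (hA : (Nat.card A : k) ≠ 0) (h : Mono b τ) :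
    finrank k τ.invariants = Nat.card {ω : Quotient (MulAction.orbitRel A Y) //
      MGood b τ ω.out} := by
  let Ω := {ω : Quotient (MulAction.orbitRel A Y) // MGood b τ ω.out}
  let w : Ω → V := fun ω => sw b τ ω.1.out
  have hst : ∀ y : Y, (Nat.card (MulAction.stabilizer A y) : k) ≠ 0 := by
    intro y h0
    apply hA
    obtain ⟨m, hm⟩ := Subgroup.card_subgroup_dvd_card (MulAction.stabilizer A y)
    rw [hm]
    push_cast
    rw [h0, zero_mul]
  have hout : ∀ ω : Quotient (MulAction.orbitRel A Y), ∀ y, y ∈ MulAction.orbit A ω.out ↔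
      (Quotient.mk _ y : Quotient (MulAction.orbitRel A Y)) = ω := by
    intro ω y
    rw [← MulAction.orbitRel_apply, ← Quotient.eq (r := MulAction.orbitRel A Y), Quotient.out_eq]
  have hli : LinearIndependent k w := by
    rw [linearIndependent_iff']
    intro s c hc ω hω
    have h1 := congrArg (fun v => b.repr v ω.1.out) hc
    simp only [map_sum, map_smul, Finsupp.finset_sum_apply, Finsupp.smul_apply, map_zero,
      Finsupp.coe_zero, Pi.zero_apply] at h1
    rw [Finset.sum_eq_single_of_mem ω hω] at h1
    · rw [show b.repr (w ω) ω.1.out = _ from repr_sw_self h ω.2, smul_eq_mul, mul_eq_zero] at h1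
      exact h1.resolve_right (hst _)
    · intro ω' _ hne
      rw [show b.repr (w ω') ω.1.out = 0 from repr_sw_ne h ?_, smul_zero]
      rw [hout]
      intro h2
      apply hne
      apply Subtype.ext
      rw [← h2, Quotient.out_eq]
  have hspan : τ.invariants = Submodule.span k (Set.range w) := by
    apply le_antisymm
    · intro v hv
      have h1 : (Nat.card A : k) • v = ∑ y, b.repr v y • sw b τ y := by
        have h2 : ∑ g : A, τ g v = (Nat.card A : k) • v := by
          rw [Finset.sum_congr rfl fun g _ => hv g, Finset.sum_const, Finset.card_univ,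
            ← Nat.card_eq_fintype_card, ← Nat.cast_smul_eq_nsmul k]
        rw [← h2]
        unfold sw
        simp only [Finset.smul_sum]
        rw [Finset.sum_comm]
        refine Finset.sum_congr rfl fun g _ => ?_
        conv_lhs => rw [← b.sum_repr v, map_sum]
        exact Finset.sum_congr rfl fun y _ => map_smul _ _ _
      have h3 : v = (Nat.card A : k)⁻¹ • ∑ y, b.repr v y • sw b τ y := by
        rw [← h1, smul_smul, inv_mul_cancel₀ hA, one_smul]
      rw [h3]
      refine Submodule.smul_mem _ _ (Submodule.sum_mem _ fun y _ => Submodule.smul_mem _ _ ?_)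
      by_cases hy : MGood b τ y
      · have h4 : y ∈ MulAction.orbit A (Quotient.mk (MulAction.orbitRel A Y) y).out := by
          rw [hout]
        obtain ⟨g, hg⟩ := h4
        have hg' : g • (Quotient.mk (MulAction.orbitRel A Y) y).out = y := hg
        obtain ⟨c, hc⟩ := sw_smul h g (Quotient.mk (MulAction.orbitRel A Y) y).out
        rw [hg'] at hc
        rw [hc]
        refine Submodule.smul_mem _ _ (Submodule.subset_span ⟨⟨Quotient.mk _ y, ?_⟩, rfl⟩)
        rw [← good_smul h g, hg']
        exact hy
      · rw [sw_bad h hy]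
        exact Submodule.zero_mem _
    · rw [Submodule.span_le]
      rintro _ ⟨ω, rfl⟩ g
      exact sw_inv g _
  rw [hspan, finrank_span_eq_card hli, Nat.card_eq_fintype_card]

variable {L : k → ℂ}

omit [Fintype Y] in
theorem sum_good (hL : Lift k (Nat.card A) L) (h : Mono b τ) (y : Y) :
    ∑ g : A, L (dg b (τ g) y) = if MGood b τ y then (Nat.card (MulAction.stabilizer A y) : ℂ) else 0
      := by
  split_ifs with hy
  · have h1 : ∀ g : A, L (dg b (τ g) y) = if g ∈ MulAction.stabilizer A y then 1 else 0 := by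
      intro g
      split_ifs with hg
      · rw [hy g hg, hL.one]
      · rw [h.ne hg, hL.zero]
    rw [Finset.sum_congr rfl fun g _ => h1 g, ← Finset.sum_filter, Finset.sum_const, nsmul_eq_mul,
      mul_one, Nat.card_eq_fintype_card, Fintype.card_subtype]
  · unfold MGood at hy
    push Not at hy
    obtain ⟨g, hg, hg1⟩ := hy
    have h1 : ∑ x : A, L (dg b (τ x) y) = ∑ x : A, L (dg b (τ (x * g)) y) :=
      (Fintype.sum_equiv (Equiv.mulRight g) (fun x => L (dg b (τ (x * g)) y))
        (fun x => L (dg b (τ x) y)) fun x => rfl).symm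
    have h2 : ∀ x : A, L (dg b (τ (x * g)) y) = L (dg b (τ x) y) * L (dg b (τ g) y) := by
      intro x
      by_cases hx : x • y = y
      · rw [h.dg_mul hx hg, hL.mul _ _ (h.dg_pow hx) (h.dg_pow hg)]
      · rw [h.ne hx, hL.zero, zero_mul, h.ne, hL.zero]
        rw [mul_smul, hg]
        exact hx
    rw [Finset.sum_congr rfl fun x _ => h2 x, ← Finset.sum_mul] at h1
    have h3 : L (dg b (τ g) y) ≠ 1 := fun h4 => hg1 (hL.inj _ (h.dg_pow hg) h4)
    have h4 : (∑ x : A, L (dg b (τ x) y)) * (1 - L (dg b (τ g) y)) = 0 := by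
      rw [mul_sub, mul_one, ← h1, sub_self]
    exact (mul_eq_zero.1 h4).resolve_right fun h5 => h3 (sub_eq_zero.1 h5).symm

/-- **Burnside's lemma for monomial actions** -/
theorem card_mul_finrank_inv (hA : (Nat.card A : k) ≠ 0) (hL : Lift k (Nat.card A) L)
    (h : Mono b τ) : (Nat.card A : ℂ) * finrank k τ.invariants = ∑ g : A, trL L b (τ g) := by
  unfold trL
  rw [Finset.sum_comm, Finset.sum_congr rfl fun y _ => sum_good hL h y, finrank_inv hA h,
    ← Finset.sum_fiberwise univ (fun y => (Quotient.mk _ y : Quotient (MulAction.orbitRel A Y)))]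
  have h1 : ∀ ω : Quotient (MulAction.orbitRel A Y),
      ∑ y with (Quotient.mk _ y : Quotient (MulAction.orbitRel A Y)) = ω,
        (if MGood b τ y then (Nat.card (MulAction.stabilizer A y) : ℂ) else 0) =
        if MGood b τ ω.out then (Nat.card A : ℂ) else 0 := by
    intro ω
    have h2 : ∀ y, (Quotient.mk _ y : Quotient (MulAction.orbitRel A Y)) = ω →
        y ∈ MulAction.orbit A ω.out := by
      intro y hy
      rw [← MulAction.orbitRel_apply, ← Quotient.eq (r := MulAction.orbitRel A Y), Quotient.out_eq]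
      exact hy
    have h3 : ∀ y ∈ univ.filter (fun y =>
        (Quotient.mk _ y : Quotient (MulAction.orbitRel A Y)) = ω),
        (if MGood b τ y then (Nat.card (MulAction.stabilizer A y) : ℂ) else 0) =
        if MGood b τ ω.out then (Nat.card (MulAction.stabilizer A ω.out) : ℂ) else 0 := by
      intro y hy
      obtain ⟨g, hg⟩ := h2 y (mem_filter.1 hy).2
      have hg' : g • ω.out = y := hg
      have h4 : Nat.card (MulAction.stabilizer A y) =
          Nat.card (MulAction.stabilizer A ω.out) := by
        rw [← hg', MulAction.stabilizer_smul_eq_stabilizer_map_conj]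
        exact Nat.card_congr (Subgroup.equivMapOfInjective _ _
          (MulAut.conj g).injective).toEquiv.symm
      rw [h4]
      exact if_congr (by rw [← hg', good_smul h]) rfl rfl
    rw [Finset.sum_congr rfl h3, Finset.sum_const, nsmul_eq_mul]
    split_ifs with hg
    · have h5 : (univ.filter (fun y =>
        (Quotient.mk _ y : Quotient (MulAction.orbitRel A Y)) = ω)).card =
          Nat.card (MulAction.orbit A ω.out) := by
        rw [Nat.card_eq_fintype_card, Fintype.card_subtype]
        congr 1
        ext y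
        rw [mem_filter, mem_filter]
        refine and_congr_right fun _ => ⟨h2 y, fun hy => ?_⟩
        rw [← MulAction.orbitRel_apply, ← Quotient.eq (r := MulAction.orbitRel A Y),
          Quotient.out_eq] at hy
        exact hy
      rw [h5]
      have h6 := MulAction.card_orbit_mul_card_stabilizer_eq_card_group A ω.out
      rw [← Nat.card_eq_fintype_card, ← Nat.card_eq_fintype_card, ← Nat.card_eq_fintype_card] at h6
      exact_mod_cast h6
    · rw [mul_zero]
  rw [Finset.sum_congr rfl fun ω _ => h1 ω, ← Finset.sum_filter, Finset.sum_const, nsmul_eq_mul,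
    mul_comm, Nat.card_eq_fintype_card, Fintype.card_subtype]

end

end P179H854
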