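import Mathlib

/-!
# Alternating pairings on commuting pairs which vanish at elements with fixed points
-/

namespace P179H854

open Subgroup

/-- a finite commutative group acting on a nontrivial finite commutative group has a subgroup with
nontrivial fixed points and cyclic quotient -/
theorem exists_cyclic_quot {K D : Type*} [CommGroup K] [Finite K] [CommGroup D] [Finite D]
    [Nontrivial D] (act : K →* MulAut D) :
    ∃ c : K, ∀ k : K, ∃ i : ℤ, ∃ d : D, d ≠ 1 ∧ act (c ^ (-i) * k) d = d := by
  classical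
  let V := Additive D
  let ρ : K →* AddMonoid.End V :=
    { toFun := fun k => MonoidHom.toAdditive (act k).toMonoidHom
      map_one' := by
        ext v
        rw [map_one]
        rfl
      map_mul' := fun a b => by
        ext v
        rw [map_mul]
        rfl }
  let R := MonoidAlgebra ℤ K
  let φ : R →ₐ[ℤ] AddMonoid.End V := MonoidAlgebra.lift ℤ (AddMonoid.End V) K ρ
  let _ : Module R V := Module.compHom V (φ : R →+* AddMonoid.End V)
  have hsm : ∀ (r : R) (v : V), r • v = φ r v := fun _ _ => rfl
  have : Finite V := inferInstanceAs (Finite D)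
  have : Nontrivial V := inferInstanceAs (Nontrivial D)
  have : Finite (Submodule R V) :=
    Finite.of_injective (fun W : Submodule R V => (W : Set V)) SetLike.coe_injective
  obtain ⟨W, hW, -⟩ := (eq_bot_or_exists_atom_le (⊤ : Submodule R V)).resolve_left top_ne_bot
  have hWs : IsSimpleModule R W := isSimpleModule_iff_isAtom.2 hW
  have hmax : (Module.annihilator R W).IsMaximal := IsSimpleModule.annihilator_isMaximal
  let I := Module.annihilator R W
  have hdom : IsDomain (R ⧸ I) := Ideal.Quotient.isDomain I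
  let θ : K →* R ⧸ I := ((Ideal.Quotient.mk I : R →+* R ⧸ I) : R →* R ⧸ I).comp
    (MonoidAlgebra.of ℤ K)
  let θu : K →* (R ⧸ I)ˣ := θ.toHomUnits
  have hfin : Finite θu.range := Finite.of_surjective _ θu.rangeRestrict_surjective
  obtain ⟨⟨_, c, rfl⟩, hc⟩ := IsCyclic.exists_generator (α := θu.range)
  obtain ⟨w, hw, hw0⟩ := Submodule.exists_mem_ne_zero_of_ne_bot hW.1
  refine ⟨c, fun k => ?_⟩
  obtain ⟨i, hi⟩ := mem_zpowers_iff.1 (hc ⟨θu k, k, rfl⟩)
  have hi' : θu c ^ i = θu k := congrArg Subtype.val hi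
  refine ⟨i, Additive.toMul w, fun h => hw0 h, ?_⟩
  set n := c ^ (-i) * k with hn
  have h1 : θu n = 1 := by
    rw [hn, map_mul, map_zpow, ← hi', zpow_neg, inv_mul_cancel]
  have h2 : θ n = 1 := by
    have := congrArg Units.val h1
    simpa [θu] using this
  have h3 : MonoidAlgebra.of ℤ K n - 1 ∈ I := by
    rw [← Ideal.Quotient.eq, map_one]
    exact h2
  have h4 : (MonoidAlgebra.of ℤ K n - 1) • (⟨w, hw⟩ : W) = 0 := Module.mem_annihilator.1 h3 _
  have h5 : (MonoidAlgebra.of ℤ K n - 1) • w = 0 := congrArg Subtype.val h4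
  rw [sub_smul, one_smul, sub_eq_zero, hsm] at h5
  have h6 : φ (MonoidAlgebra.of ℤ K n) = ρ n := MonoidAlgebra.lift_of _ _
  rw [h6] at h5
  exact h5

/-- **an alternating pairing on commuting pairs which vanishes at the elements with nontrivial
fixed points is trivial** -/
theorem pairing_trivial {E D M : Type*} [Group E] [Finite E] [CommGroup D] [Finite D]
    [Nontrivial D] [CommGroup M] (act : E →* MulAut D) (γ : E → E → M)
    (hmul : ∀ x y z, Commute x y → Commute x z → γ x (y * z) = γ x y * γ x z)
    (hinv : ∀ x y, Commute x y → γ y x = (γ x y)⁻¹) (hself : ∀ x, γ x x = 1)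
    (hfix : ∀ x y, Commute x y → (∃ d : D, d ≠ 1 ∧ act x d = d) → γ x y = 1) :
    ∀ x y, Commute x y → γ x y = 1 := by
  intro x y hxy
  let K : Subgroup E := closure {x, y}
  have hcomm : ∀ a ∈ K, ∀ b ∈ K, a * b = b * a := by
    have h1 : ∀ a ∈ ({x, y} : Set E), ∀ b ∈ ({x, y} : Set E), a * b = b * a := by
      rintro a (rfl | rfl) b (rfl | rfl)
      · rfl
      · exact hxy
      · exact hxy.symm
      · rfl
    intro a ha b hb
    have h2 := (isMulCommutative_closure h1).is_comm.comm (⟨a, ha⟩ : K) ⟨b, hb⟩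
    exact congrArg Subtype.val h2
  let _ : CommGroup K :=
    { (inferInstance : Group K) with
      mul_comm := fun a b => Subtype.ext (hcomm a a.2 b b.2) }
  obtain ⟨c, hc⟩ := exists_cyclic_quot (act.comp K.subtype)
  have hC : ∀ a b : K, Commute (a : E) b := fun a b => hcomm a a.2 b b.2
  -- the pairing on `K`
  let g : K → K →* M := fun a =>
    { toFun := fun b => γ a b
      map_one' := by
        have h1 := hmul a 1 1 (Commute.one_right _) (Commute.one_right _)
        rw [mul_one] at h1
        have h2 : γ (a : E) 1 = 1 := by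
          have := mul_eq_left.1 h1.symm
          exact this
        exact h2
      map_mul' := fun b b' => hmul a b b' (hC a b) (hC a b') }
  have hg : ∀ a b : K, g a b = γ a b := fun _ _ => rfl
  have hgi : ∀ a b : K, g b a = (g a b)⁻¹ := fun a b => hinv a b (hC a b)
  have hfix' : ∀ k : K, ∃ i : ℤ, ∀ b : K, g (c ^ (-i) * k) b = 1 := by
    intro k
    obtain ⟨i, d, hd, hcd⟩ := hc k
    exact ⟨i, fun b => hfix _ _ (hC _ b) ⟨d, hd, hcd⟩⟩
  -- values with `c`
  have hcc : ∀ k : K, g c k = 1 := by
    intro k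
    obtain ⟨i, hi⟩ := hfix' k
    have h1 : k = c ^ i * (c ^ (-i) * k) := by
      rw [← mul_assoc, ← zpow_add, add_neg_cancel, zpow_zero, one_mul]
    rw [h1, map_mul, map_zpow, hgi (c ^ (-i) * k) c, hi, inv_one, mul_one]
    have h2 : g c c = 1 := hself c
    rw [h2, one_zpow]
  have hall : ∀ a b : K, g a b = 1 := by
    intro a b
    obtain ⟨i, hi⟩ := hfix' b
    have h1 : b = c ^ i * (c ^ (-i) * b) := by
      rw [← mul_assoc, ← zpow_add, add_neg_cancel, zpow_zero, one_mul]
    rw [h1, map_mul, map_zpow, hgi (c ^ (-i) * b) a, hi, inv_one, mul_one, hgi c a, hcc, inv_one,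
      one_zpow]
  exact hall ⟨x, subset_closure (by simp)⟩ ⟨y, subset_closure (by simp)⟩

end P179H854
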