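import Vale.Agent.P179.H166.KN1

/-!
# Sums over the normal `p`-chains above a subgroup
-/

namespace P179H854

open Subgroup P179A P179N

open scoped Classical

section Defs

variable {G : Type*} [Group G] [Finite G]

/-- the normal `p`-chains all of whose members are strictly above `x` and contained in `M` -/
noncomputable def above (p : ℕ) (M x : Subgroup G) : Finset (Finset (Subgroup G)) :=
  (chains p G).filter fun s => Nml s ∧ ∀ Q ∈ s, x < Q ∧ Q ≤ M

/-- the alternating sum over the normal `p`-chains above `x` in `K ⊓ L` -/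
noncomputable def Phi (p : ℕ) (φ : Subgroup G → ℤ) (L K x : Subgroup G) : ℤ :=
  ∑ s ∈ above p (K ⊓ L) x, (-1) ^ s.card * φ (K ⊓ stab s)

/-- the `p`-subgroups strictly above `x` and contained in `M` -/
noncomputable def up (p : ℕ) (M x : Subgroup G) : Finset (Subgroup G) :=
  (Set.toFinite {y : Subgroup G | IsPGroup p y ∧ x < y ∧ y ≤ M}).toFinset

theorem mem_up {p : ℕ} {M x y : Subgroup G} :
    y ∈ up p M x ↔ IsPGroup p y ∧ x < y ∧ y ≤ M := by
  simp [up]

theorem mem_above {p : ℕ} {M x : Subgroup G} {s : Finset (Subgroup G)} :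
    s ∈ above p M x ↔ IsPChain p s ∧ Nml s ∧ ∀ Q ∈ s, x < Q ∧ Q ≤ M := by
  simp [above]

/-- `K` lies between `x C(x)` and `N(x)` -/
def Good (p : ℕ) (K x : Subgroup G) : Prop :=
  IsPGroup p x ∧ x ≤ K ∧ K ≤ normalizer (x : Set G) ∧ centralizer (x : Set G) ≤ K

end Defs

section Rec

variable {p : ℕ} {G : Type*} [Group G]

theorem stab_insert (y : Subgroup G) (s : Finset (Subgroup G)) :
    stab (insert y s) = normalizer (y : Set G) ⊓ stab s := by
  ext g
  rw [mem_inf, mem_stab, mem_stab]
  simp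

variable [Finite G]

theorem above_eq (M x : Subgroup G) : above p M x =
    insert ∅ (((up p M x).sigma fun y => above p (M ⊓ normalizer (y : Set G)) y).image
      fun t => insert t.1 t.2) := by
  ext s
  rw [mem_above, Finset.mem_insert, Finset.mem_image]
  constructor
  · rintro ⟨hs, hn, h⟩
    rcases s.eq_empty_or_nonempty with h0 | h0
    · exact Or.inl h0
    · right
      obtain ⟨R, hR, hmin⟩ := Finset.exists_minimal h0
      have hle : ∀ Q ∈ s, R ≤ Q := by
        intro Q hQ
        rcases hs.2.total (Finset.mem_coe.2 hR) (Finset.mem_coe.2 hQ) with h1 | h1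
        · exact h1
        · exact hmin hQ h1
      refine ⟨⟨R, s.erase R⟩, ?_, Finset.insert_erase hR⟩
      rw [Finset.mem_sigma, mem_up, mem_above]
      refine ⟨⟨(hs.1 R hR).1, (h R hR).1, (h R hR).2⟩, ?_, ?_, ?_⟩
      · refine ⟨fun Q hQ => hs.1 Q (Finset.mem_of_mem_erase hQ), ?_⟩
        intro Q hQ Q' hQ' hne
        exact hs.2 (Finset.mem_coe.2 (Finset.mem_of_mem_erase (Finset.mem_coe.1 hQ)))
          (Finset.mem_coe.2 (Finset.mem_of_mem_erase (Finset.mem_coe.1 hQ'))) hne
      · intro Q hQ Q' hQ'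
        exact hn Q (Finset.mem_of_mem_erase hQ) Q' (Finset.mem_of_mem_erase hQ')
      · intro Q hQ
        have hQs := Finset.mem_of_mem_erase hQ
        exact ⟨lt_of_le_of_ne (hle Q hQs) (Finset.ne_of_mem_erase hQ).symm,
          le_inf (h Q hQs).2 (hn R hR Q hQs)⟩
  · rintro (rfl | ⟨⟨y, s'⟩, hm, rfl⟩)
    · refine ⟨⟨fun Q hQ => absurd hQ (Finset.notMem_empty Q), ?_⟩,
        fun Q hQ => absurd hQ (Finset.notMem_empty Q), fun Q hQ => absurd hQ (Finset.notMem_empty Q)⟩
      intro Q hQ
      simp at hQ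
    · rw [Finset.mem_sigma, mem_up, mem_above] at hm
      obtain ⟨⟨hy1, hy2, hy3⟩, hs, hn, h⟩ := hm
      have hyne : y ≠ ⊥ := fun h0 => not_lt_bot (h0 ▸ hy2)
      refine ⟨⟨?_, ?_⟩, ?_, ?_⟩
      · intro Q hQ
        rcases Finset.mem_insert.1 hQ with rfl | hQ
        · exact ⟨hy1, hyne⟩
        · exact hs.1 Q hQ
      · intro Q hQ Q' hQ' hne
        rw [Finset.mem_coe, Finset.mem_insert] at hQ hQ'
        rcases hQ with rfl | hQ
        · rcases hQ' with rfl | hQ'
          · exact absurd rfl hne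
          · exact Or.inl (h Q' hQ').1.le
        · rcases hQ' with rfl | hQ'
          · exact Or.inr (h Q hQ).1.le
          · exact hs.2 (Finset.mem_coe.2 hQ) (Finset.mem_coe.2 hQ') hne
      · intro Q hQ Q' hQ'
        rcases Finset.mem_insert.1 hQ with rfl | hQ
        · rcases Finset.mem_insert.1 hQ' with rfl | hQ'
          · exact le_normalizer
          · exact (h Q' hQ').2.trans inf_le_right
        · rcases Finset.mem_insert.1 hQ' with rfl | hQ'
          · exact (h Q hQ).1.le.trans le_normalizer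
          · exact hn Q hQ Q' hQ'
      · intro Q hQ
        rcases Finset.mem_insert.1 hQ with rfl | hQ
        · exact ⟨hy2, hy3⟩
        · exact ⟨hy2.trans (h Q hQ).1, (h Q hQ).2.trans inf_le_left⟩

/-- **(Rec)** the recursion -/
theorem Phi_rec (φ : Subgroup G → ℤ) (L K x : Subgroup G) :
    Phi p φ L K x = φ K - ∑ y ∈ up p (K ⊓ L) x, Phi p φ L (K ⊓ normalizer (y : Set G)) y := by
  unfold Phi
  rw [above_eq, Finset.sum_insert, Finset.sum_image, Finset.sum_sigma]
  · have h0 : stab (∅ : Finset (Subgroup G)) = ⊤ := by simp [stab]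
    rw [Finset.card_empty, pow_zero, one_mul, h0, inf_top_eq, sub_eq_add_neg,
      ← Finset.sum_neg_distrib]
    congr 1
    refine Finset.sum_congr rfl fun y _ => ?_
    rw [← Finset.sum_neg_distrib]
    have h1 : K ⊓ L ⊓ normalizer (y : Set G) = K ⊓ normalizer (y : Set G) ⊓ L := by
      rw [inf_right_comm]
    rw [h1]
    refine Finset.sum_congr rfl fun s hs => ?_
    rw [mem_above] at hs
    have hy : y ∉ s := fun h => lt_irrefl _ (hs.2.2 y h).1
    rw [Finset.card_insert_of_notMem hy, stab_insert, inf_assoc, pow_succ]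
    ring
  · rintro ⟨y, s⟩ hm ⟨y', s'⟩ hm' he
    rw [Finset.mem_coe, Finset.mem_sigma, mem_above] at hm hm'
    have hy : y ∉ s := fun h => lt_irrefl _ (hm.2.2.2 y h).1
    have hy' : y' ∉ s' := fun h => lt_irrefl _ (hm'.2.2.2 y' h).1
    have he' : insert y s = insert y' s' := he
    have h1 : y' ≤ y := by
      have : y ∈ insert y' s' := he' ▸ Finset.mem_insert_self y s
      rcases Finset.mem_insert.1 this with h | h
      · exact h.ge
      · exact (hm'.2.2.2 y h).1.le
    have h2 : y ≤ y' := by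
      have : y' ∈ insert y s := he' ▸ Finset.mem_insert_self y' s'
      rcases Finset.mem_insert.1 this with h | h
      · exact h.ge
      · exact (hm.2.2.2 y' h).1.le
    have h3 : y = y' := le_antisymm h2 h1
    subst h3
    have h4 : s = s' := by
      rw [← Finset.erase_insert hy, he', Finset.erase_insert hy']
    rw [h4]
  · rw [Finset.mem_image]
    rintro ⟨t, -, h⟩
    exact Finset.insert_ne_empty _ _ h

end Rec

section Zero

variable {p : ℕ} [hp : Fact p.Prime] {G : Type*} [Group G] [Finite G]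

/-- growth of the normaliser in a `p`-group -/
theorem lt_inf_normalizer {y S : Subgroup G} (hS : IsPGroup p S) (h : y < S) :
    y < S ⊓ normalizer (y : Set G) := by
  refine lt_of_le_of_ne (le_inf h.le le_normalizer) ?_
  intro he
  have := hS.isNilpotent
  have hnc := Group.normalizerCondition_of_isNilpotent (G := S)
  have h1 := hnc (y.subgroupOf S) (lt_top_iff_ne_top.2 fun h2 => by
    rw [subgroupOf_eq_top] at h2
    exact absurd h2 h.not_ge)
  obtain ⟨x, hx1, hx2⟩ := SetLike.exists_of_lt h1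
  apply hx2
  rw [mem_subgroupOf, he]
  refine mem_inf.2 ⟨x.2, ?_⟩
  rw [mem_normalizer_iff] at hx1 ⊢
  intro z
  constructor
  · intro hz
    exact (hx1 ⟨z, h.le hz⟩).1 hz
  · intro hz
    have hz' : z ∈ S := by
      have h3 := mul_mem (mul_mem (inv_mem x.2) (h.le hz)) x.2
      simpa [mul_assoc] using h3
    exact (hx1 ⟨z, hz'⟩).2 hz

omit [Finite G] in
theorem inf_eq_of_le_normalizer {K R : Subgroup G} (h : K ≤ normalizer (R : Set G)) :
    K ⊓ normalizer (R : Set G) = K := inf_eq_left.2 h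

/-- **(Z)** -/
theorem Phi_eq_zero (φ : Subgroup G → ℤ) (L : Subgroup G) : ∀ (n : ℕ) (K x R : Subgroup G),
    Nat.card G - Nat.card x ≤ n → IsPGroup p R → x < R → R ≤ K ⊓ L →
    K ≤ normalizer (R : Set G) → K ≤ normalizer (x : Set G) → Phi p φ L K x = 0 := by
  intro n
  induction n with
  | zero =>
    intro K x R hn _ hxR _ _ _
    exfalso
    have h1 : Nat.card x < Nat.card R := by
      have := Fintype.ofFinite G
      exact Set.Finite.card_lt_card (Set.toFinite _) hxR
    have h2 : Nat.card R ≤ Nat.card G := Subgroup.card_le_card_group R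
    omega
  | succ n ih =>
    intro K x R hn hR hxR hRK hKR hKx
    have hcard : ∀ y : Subgroup G, x < y → Nat.card G - Nat.card y ≤ n := by
      intro y hy
      have h1 : Nat.card x < Nat.card y := Set.Finite.card_lt_card (Set.toFinite _) hy
      have h2 : Nat.card y ≤ Nat.card G := Subgroup.card_le_card_group y
      omega
    rw [Phi_rec, ← Finset.sum_filter_add_sum_filter_not (up p (K ⊓ L) x) fun y => R ≤ y]
    have h1 : ∑ y ∈ (up p (K ⊓ L) x).filter (fun y => ¬ R ≤ y),
        Phi p φ L (K ⊓ normalizer (y : Set G)) y = 0 := by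
      refine Finset.sum_eq_zero fun y hy => ?_
      rw [Finset.mem_filter, mem_up] at hy
      obtain ⟨⟨hy1, hy2, hy3⟩, hy4⟩ := hy
      have hyR : y ≤ normalizer (R : Set G) := (hy3.trans inf_le_left).trans hKR
      have hS : IsPGroup p (y ⊔ R : Subgroup G) :=
        IsPGroup.to_sup_of_normal_right' hy1 hR hyR
      have hlt : y < y ⊔ R := lt_of_le_of_ne le_sup_left fun h => hy4 (h ▸ le_sup_right)
      refine ih _ y ((y ⊔ R) ⊓ normalizer (y : Set G)) (hcard y hy2) hS.to_inf_left
        (lt_inf_normalizer hS hlt) ?_ ?_ inf_le_right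
      · refine le_inf (le_inf ?_ inf_le_right) ?_
        · exact inf_le_left.trans (sup_le (hy3.trans inf_le_left) (hRK.trans inf_le_left))
        · exact inf_le_left.trans (sup_le (hy3.trans inf_le_right) (hRK.trans inf_le_right))
      · intro g hg
        rw [mem_inf] at hg
        exact mem_norm_inf_norm (mem_normalizer_sup hg.2 (hKR hg.1)) hg.2
    have h2 : (up p (K ⊓ L) x).filter (fun y => R ≤ y) = insert R (up p (K ⊓ L) R) := by
      ext y
      rw [Finset.mem_filter, mem_up, Finset.mem_insert, mem_up]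
      constructor
      · rintro ⟨⟨h3, h4, h5⟩, h6⟩
        rcases h6.eq_or_lt with h7 | h7
        · exact Or.inl h7.symm
        · exact Or.inr ⟨h3, h7, h5⟩
      · rintro (rfl | ⟨h3, h4, h5⟩)
        · exact ⟨⟨hR, hxR, hRK⟩, le_rfl⟩
        · exact ⟨⟨h3, hxR.trans h4, h5⟩, h4.le⟩
    have h3 : R ∉ up p (K ⊓ L) R := fun h => lt_irrefl _ (mem_up.1 h).2.1
    rw [h1, add_zero, h2, Finset.sum_insert h3, inf_eq_of_le_normalizer hKR]
    have h4 := Phi_rec (p := p) φ L K R
    rw [h4]
    ring

end Zero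

section Transport

variable {p : ℕ} {G G' : Type*} [Group G] [Finite G] [Group G'] [Finite G']

omit [Finite G] in
theorem Good.next {K x y : Subgroup G} (h : Good p K x) (hy : IsPGroup p y) (hxy : x < y)
    (hyK : y ≤ K) : Good p (K ⊓ normalizer (y : Set G)) y :=
  ⟨hy, le_inf hyK le_normalizer, inf_le_right, le_inf
    ((centralizer_le (show (x : Set G) ⊆ y from hxy.le)).trans h.2.2.2)
    (fun g hg => by
      rw [mem_normalizer_iff]
      rw [mem_centralizer_iff] at hg
      intro z
      constructor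
      · intro hz
        rw [← hg z hz, mul_inv_cancel_right]
        exact hz
      · intro hz
        have h2 := hg _ hz
        have h3 : g * z = g * (g * z * g⁻¹) := by
          rw [← h2, mul_assoc, inv_mul_cancel, mul_one]
        rw [mul_left_cancel h3]
        exact hz)⟩

/-- **(T)** transport of the sums along an embedding of the lattices of subgroups -/
theorem Phi_transport (F : Subgroup G → Subgroup G') (L : Subgroup G) (L' : Subgroup G')
    (φ : Subgroup G → ℤ) (φ' : Subgroup G' → ℤ) (c : ℤ)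
    (hle : ∀ y y' : Subgroup G, F y ≤ F y' ↔ y ≤ y')
    (hpg : ∀ y : Subgroup G, IsPGroup p (F y) ↔ IsPGroup p y)
    (hL : ∀ y : Subgroup G, F y ≤ L' ↔ y ≤ L)
    (hsurj : ∀ (K x : Subgroup G) (y' : Subgroup G'), F x ≤ y' → y' ≤ F K → ∃ y, F y = y')
    (hN : ∀ K y : Subgroup G, F K ⊓ normalizer (F y : Set G') = F (K ⊓ normalizer (y : Set G)))
    (P : Subgroup G → Subgroup G → Prop)
    (hP : ∀ K x y : Subgroup G, P K x → IsPGroup p y → x < y → y ≤ K →
      P (K ⊓ normalizer (y : Set G)) y)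
    (hφ : ∀ K x : Subgroup G, P K x → φ' (F K) = c * φ K) :
    ∀ (n : ℕ) (K x : Subgroup G), Nat.card G - Nat.card x ≤ n → P K x →
      Phi p φ' L' (F K) (F x) = c * Phi p φ L K x := by
  have hinj : Function.Injective F := fun a b h =>
    le_antisymm ((hle a b).1 h.le) ((hle b a).1 h.ge)
  have hlt : ∀ y y' : Subgroup G, F y < F y' ↔ y < y' := by
    intro y y'
    rw [lt_iff_le_not_ge, lt_iff_le_not_ge, hle, hle]
  have hup : ∀ K x : Subgroup G, up p (F K ⊓ L') (F x) = (up p (K ⊓ L) x).image F := by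
    intro K x
    ext y'
    rw [mem_up, Finset.mem_image]
    constructor
    · rintro ⟨h1, h2, h3⟩
      obtain ⟨y, rfl⟩ := hsurj K x y' h2.le (h3.trans inf_le_left)
      refine ⟨y, mem_up.2 ⟨(hpg y).1 h1, (hlt _ _).1 h2, ?_⟩, rfl⟩
      rw [le_inf_iff] at h3 ⊢
      exact ⟨(hle _ _).1 h3.1, (hL _).1 h3.2⟩
    · rintro ⟨y, hy, rfl⟩
      rw [mem_up, le_inf_iff] at hy
      exact ⟨(hpg y).2 hy.1, (hlt _ _).2 hy.2.1, le_inf ((hle _ _).2 hy.2.2.1) ((hL _).2 hy.2.2.2)⟩
  intro n
  induction n with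
  | zero =>
    intro K x hn hg
    have h0 : up p (K ⊓ L) x = ∅ := by
      rw [Finset.eq_empty_iff_forall_notMem]
      intro y hy
      have h1 : Nat.card x < Nat.card y := Set.Finite.card_lt_card (Set.toFinite _) (mem_up.1 hy).2.1
      have h2 : Nat.card y ≤ Nat.card G := Subgroup.card_le_card_group y
      omega
    rw [Phi_rec, Phi_rec, hup, h0, Finset.image_empty, Finset.sum_empty, Finset.sum_empty,
      sub_zero, sub_zero, hφ K x hg]
  | succ n ih =>
    intro K x hn hg
    rw [Phi_rec, Phi_rec (p := p) φ L K x, hup, Finset.sum_image fun a _ b _ h => hinj h,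
      hφ K x hg, mul_sub, Finset.mul_sum]
    congr 1
    refine Finset.sum_congr rfl fun y hy => ?_
    rw [mem_up] at hy
    have h1 : Nat.card x < Nat.card y := Set.Finite.card_lt_card (Set.toFinite _) hy.2.1
    have h2 : Nat.card y ≤ Nat.card G := Subgroup.card_le_card_group y
    rw [hN]
    exact ih _ y (by omega) (hP K x y hg hy.1 hy.2.1 (hy.2.2.trans inf_le_left))

end Transport

section Conj

variable {p : ℕ} {G : Type*} [Group G]

/-- conjugation of subgroups -/
def cj (g : G) (K : Subgroup G) : Subgroup G := K.map (MulAut.conj g).toMonoidHom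

theorem mem_cj {g x : G} {K : Subgroup G} : x ∈ cj g K ↔ g⁻¹ * x * g ∈ K := by
  unfold cj
  constructor
  · rintro ⟨y, hy, rfl⟩
    have : g⁻¹ * (g * y * g⁻¹) * g = y := by group
    change g⁻¹ * (g * y * g⁻¹) * g ∈ K
    rwa [this]
  · intro h
    exact ⟨_, h, by change g * (g⁻¹ * x * g) * g⁻¹ = x; group⟩

theorem cj_le_cj {g : G} {K K' : Subgroup G} : cj g K ≤ cj g K' ↔ K ≤ K' :=
  map_le_map_iff_of_injective (MulAut.conj g).injective

theorem cj_cj (g h : G) (K : Subgroup G) : cj g (cj h K) = cj (g * h) K := by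
  ext x
  rw [mem_cj, mem_cj, mem_cj]
  have : h⁻¹ * (g⁻¹ * x * g) * h = (g * h)⁻¹ * x * (g * h) := by group
  rw [this]

theorem cj_one (K : Subgroup G) : cj 1 K = K := by
  ext x
  rw [mem_cj]; simp

theorem cj_surj (g : G) (K : Subgroup G) : cj g (cj g⁻¹ K) = K := by
  rw [cj_cj, mul_inv_cancel, cj_one]

theorem cj_pgroup {g : G} {K : Subgroup G} : IsPGroup p (cj g K) ↔ IsPGroup p K := by
  constructor
  · intro h
    exact h.of_equiv (K.equivMapOfInjective _ (MulAut.conj g).injective).symm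
  · intro h
    exact h.map _

theorem cj_inf (g : G) (K K' : Subgroup G) : cj g (K ⊓ K') = cj g K ⊓ cj g K' := by
  ext x
  rw [mem_inf, mem_cj, mem_cj, mem_cj, mem_inf]

theorem cj_normalizer (g : G) (K : Subgroup G) :
    normalizer (cj g K : Set G) = cj g (normalizer (K : Set G)) := by
  ext x
  rw [mem_cj, mem_normalizer_iff, mem_normalizer_iff]
  constructor
  · intro h y
    have := h (g * y * g⁻¹)
    rw [mem_cj, mem_cj] at this
    have e1 : g⁻¹ * (g * y * g⁻¹) * g = y := by group
    have e2 : g⁻¹ * (x * (g * y * g⁻¹) * x⁻¹) * g = g⁻¹ * x * g * y * (g⁻¹ * x * g)⁻¹ := by group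
    rwa [e1, e2] at this
  · intro h y
    rw [mem_cj, mem_cj, h (g⁻¹ * y * g)]
    have e2 : g⁻¹ * x * g * (g⁻¹ * y * g) * (g⁻¹ * x * g)⁻¹ = g⁻¹ * (x * y * x⁻¹) * g := by group
    rw [e2]

variable [Finite G]

/-- conjugation invariance -/
theorem Phi_cj (φ : Subgroup G → ℤ) (hφ : ∀ g K, φ (cj g K) = φ K) (L : Subgroup G) (g : G)
    (hLg : cj g L = L) (K x : Subgroup G) :
    Phi p φ L (cj g K) (cj g x) = Phi p φ L K x := by
  have h := Phi_transport (p := p) (cj g) L L φ φ 1 (fun y y' => cj_le_cj) (fun y => cj_pgroup)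
    (fun y => by
      conv_lhs => rw [← hLg]
      exact cj_le_cj)
    (fun K x y' _ _ => ⟨cj g⁻¹ y', cj_surj g y'⟩)
    (fun K y => by rw [cj_normalizer, ← cj_inf]) (fun _ _ => True)
    (fun _ _ _ _ _ _ _ => trivial) (fun K x _ => by rw [hφ, one_mul])
    _ K x le_rfl trivial
  rwa [one_mul] at h

end Conj

section Elim

variable {p : ℕ} [hp : Fact p.Prime] {G : Type*} [Group G] [Finite G]

omit hp [Finite G] in
theorem normalizer_le_inf {z L : Subgroup G} [L.Normal] :
    normalizer (z : Set G) ≤ normalizer ((z ⊓ L : Subgroup G) : Set G) := by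
  intro g hg
  rw [mem_normalizer_iff] at hg ⊢
  intro y
  rw [mem_inf, mem_inf, hg y]
  refine and_congr_right fun _ => ?_
  constructor
  · intro h
    exact Normal.conj_mem inferInstance y h g
  · intro h
    have := Normal.conj_mem (H := L) inferInstance _ h g⁻¹
    simpa [mul_assoc] using this

/-- the `p`-subgroups of `K` not contained in `L` which meet `L` in `x` -/
noncomputable def outs (p : ℕ) (L K x : Subgroup G) : Finset (Subgroup G) :=
  (Set.toFinite {z : Subgroup G | IsPGroup p z ∧ z ≤ K ∧ ¬ z ≤ L ∧ z ⊓ L = x}).toFinset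

omit hp in
theorem mem_outs {L K x z : Subgroup G} :
    z ∈ outs p L K x ↔ IsPGroup p z ∧ z ≤ K ∧ ¬ z ≤ L ∧ z ⊓ L = x := by
  simp [outs]

omit hp in
/-- **(E)** elimination of the subgroups not contained in `L` -/
theorem Phi_elim (φ : Subgroup G → ℤ) (L : Subgroup G) [L.Normal] : ∀ (n : ℕ)
    (K x : Subgroup G), Nat.card G - Nat.card x ≤ n → x ≤ L →
    Phi p φ ⊤ K x = Phi p φ L K x - ∑ z ∈ outs p L K x, Phi p φ ⊤ (K ⊓ normalizer (z : Set G)) z := by
  intro n
  induction n with
  | zero =>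
    intro K x hn _
    have h0 : ∀ y : Subgroup G, ¬ x < y := by
      intro y hy
      have h1 : Nat.card x < Nat.card y := Set.Finite.card_lt_card (Set.toFinite _) hy
      have h2 : Nat.card y ≤ Nat.card G := Subgroup.card_le_card_group y
      omega
    have h1 : up p (K ⊓ ⊤) x = ∅ := by
      rw [Finset.eq_empty_iff_forall_notMem]
      exact fun y hy => h0 y (mem_up.1 hy).2.1
    have h2 : up p (K ⊓ L) x = ∅ := by
      rw [Finset.eq_empty_iff_forall_notMem]
      exact fun y hy => h0 y (mem_up.1 hy).2.1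
    have h3 : outs p L K x = ∅ := by
      rw [Finset.eq_empty_iff_forall_notMem]
      intro z hz
      obtain ⟨-, -, hz3, hz4⟩ := mem_outs.1 hz
      have h5 : x ≤ z := hz4 ▸ inf_le_left
      rcases h5.eq_or_lt with h6 | h6
      · rw [← h6] at hz3 hz4
        exact hz3 (inf_eq_left.1 hz4)
      · exact h0 z h6
    rw [Phi_rec, Phi_rec (p := p) φ L, h1, h2, h3]
    simp
  | succ n ih =>
    intro K x hn hxL
    rw [Phi_rec, Phi_rec (p := p) φ L K x, sub_sub]
    congr 1
    rw [← Finset.sum_filter_add_sum_filter_not (up p (K ⊓ ⊤) x) fun y => y ≤ L]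
    have hA : (up p (K ⊓ ⊤) x).filter (fun y => y ≤ L) = up p (K ⊓ L) x := by
      ext y
      rw [Finset.mem_filter, mem_up, mem_up, inf_top_eq, le_inf_iff]
      tauto
    have hB : ∑ y ∈ up p (K ⊓ L) x, Phi p φ ⊤ (K ⊓ normalizer (y : Set G)) y =
        ∑ y ∈ up p (K ⊓ L) x, Phi p φ L (K ⊓ normalizer (y : Set G)) y -
        ∑ y ∈ up p (K ⊓ L) x, ∑ z ∈ outs p L K y, Phi p φ ⊤ (K ⊓ normalizer (z : Set G)) z := by
      rw [← Finset.sum_sub_distrib]
      refine Finset.sum_congr rfl fun y hy => ?_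
      rw [mem_up, le_inf_iff] at hy
      have h1 : Nat.card x < Nat.card y := Set.Finite.card_lt_card (Set.toFinite _) hy.2.1
      have h2 : Nat.card y ≤ Nat.card G := Subgroup.card_le_card_group y
      rw [ih _ y (by omega) hy.2.2.2]
      congr 1
      have ho : outs p L (K ⊓ normalizer (y : Set G)) y = outs p L K y := by
        ext z
        rw [mem_outs, mem_outs, le_inf_iff]
        constructor
        · rintro ⟨a, b, c, d⟩
          exact ⟨a, b.1, c, d⟩
        · rintro ⟨a, b, c, d⟩
          refine ⟨a, ⟨b, ?_⟩, c, d⟩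
          have h3 := (le_normalizer (H := z)).trans (normalizer_le_inf (z := z) (L := L))
          rwa [d] at h3
      rw [ho]
      refine Finset.sum_congr rfl fun z hz => ?_
      congr 1
      rw [mem_outs] at hz
      rw [inf_assoc]
      congr 1
      refine inf_eq_right.2 ?_
      have h3 := normalizer_le_inf (z := z) (L := L)
      rwa [hz.2.2.2] at h3
    have hC : ∑ y ∈ (up p (K ⊓ ⊤) x).filter (fun y => ¬ y ≤ L),
        Phi p φ ⊤ (K ⊓ normalizer (y : Set G)) y =
        ∑ y ∈ up p (K ⊓ L) x, ∑ z ∈ outs p L K y, Phi p φ ⊤ (K ⊓ normalizer (z : Set G)) z +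
        ∑ z ∈ outs p L K x, Phi p φ ⊤ (K ⊓ normalizer (z : Set G)) z := by
      have h1 : (up p (K ⊓ ⊤) x).filter (fun y => ¬ y ≤ L) =
          ((up p (K ⊓ L) x).biUnion fun y => outs p L K y) ∪ outs p L K x := by
        ext z
        rw [Finset.mem_filter, mem_up, Finset.mem_union, Finset.mem_biUnion, mem_outs, inf_top_eq]
        constructor
        · rintro ⟨⟨h2, h3, h4⟩, h5⟩
          have h6 : x ≤ z ⊓ L := le_inf h3.le hxL
          rcases h6.eq_or_lt with h7 | h7
          · exact Or.inr ⟨h2, h4, h5, h7.symm⟩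
          · refine Or.inl ⟨z ⊓ L, mem_up.2 ⟨h2.to_inf_left, h7, ?_⟩, mem_outs.2 ⟨h2, h4, h5, rfl⟩⟩
            exact le_inf (inf_le_left.trans h4) inf_le_right
        · rintro (⟨y, hy, hz⟩ | ⟨h2, h3, h4, h5⟩)
          · obtain ⟨h2, h3, h4, h5⟩ := mem_outs.1 hz
            have h6 := (mem_up.1 hy).2.1
            refine ⟨⟨h2, lt_of_lt_of_le h6 (h5 ▸ inf_le_left), h3⟩, h4⟩
          · refine ⟨⟨h2, lt_of_le_of_ne (h5 ▸ inf_le_left) ?_, h3⟩, h4⟩
            rintro rfl
            exact h4 (inf_eq_left.1 h5)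
      rw [h1, Finset.sum_union, Finset.sum_biUnion]
      · intro y _ y' _ hne
        rw [Function.onFun, Finset.disjoint_left]
        intro z hz hz'
        exact hne ((mem_outs.1 hz).2.2.2.symm.trans (mem_outs.1 hz').2.2.2)
      · rw [Finset.disjoint_left]
        intro z hz hz'
        obtain ⟨y, hy, hz⟩ := Finset.mem_biUnion.1 hz
        have h2 : x < y := (mem_up.1 hy).2.1
        rw [← (mem_outs.1 hz).2.2.2, (mem_outs.1 hz').2.2.2] at h2
        exact lt_irrefl _ h2
    rw [hA, hB, hC]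
    ring

end Elim

end P179H854
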