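import Vale.Agent.P179.R2.H854.Ph1
import Vale.Agent.P179.H166.WB1
import Vale.Agent.P179.H905.WA1

/-!
# Sums over the normal `p`-chains of a wreath product: subgroups of the base group
-/

namespace P179H854

open Subgroup P179A P179N P179R P179H524 RegularWreathProduct

open scoped Classical

section Sub

variable {G Q : Type} [Group G] [Group Q]

/-- the product subgroups of the base group -/
def PP (K : Q → Subgroup G) : Subgroup (G ≀ᵣ Q) := (Subgroup.pi Set.univ K).map (incl G Q)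

theorem mem_PP {K : Q → Subgroup G} {w : G ≀ᵣ Q} :
    w ∈ PP K ↔ w.right = 1 ∧ ∀ q, w.left q ∈ K q := by
  constructor
  · rintro ⟨y, hy, rfl⟩
    exact ⟨rfl, fun q => (Subgroup.mem_pi _).1 hy q trivial⟩
  · rintro ⟨h1, h2⟩
    exact ⟨w.left, (Subgroup.mem_pi _).2 fun q _ => h2 q, (eq_incl h1).symm⟩

theorem PP_le_base (K : Q → Subgroup G) : PP K ≤ (incl G Q).range := by
  intro w hw
  rw [mem_incl_range]
  exact (mem_PP.1 hw).1

theorem PP_le_PP {K K' : Q → Subgroup G} : PP K ≤ PP K' ↔ ∀ q, K q ≤ K' q := by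
  constructor
  · intro h q a ha
    have h1 : incl G Q (Pi.mulSingle q a) ∈ PP K := by
      rw [mem_PP]
      refine ⟨rfl, fun q' => ?_⟩
      rw [incl_left]
      by_cases hq : q' = q
      · subst hq; simpa using ha
      · rw [Pi.mulSingle_eq_of_ne hq]; exact one_mem _
    have h2 := (mem_PP.1 (h h1)).2 q
    simpa using h2
  · intro h w hw
    rw [mem_PP] at hw ⊢
    exact ⟨hw.1, fun q => h q (hw.2 q)⟩

theorem PP_injective : Function.Injective (PP : (Q → Subgroup G) → Subgroup (G ≀ᵣ Q)) := by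
  intro K K' h
  funext q
  exact le_antisymm (PP_le_PP.1 h.le q) (PP_le_PP.1 h.ge q)

theorem PP_lt_PP {K K' : Q → Subgroup G} (h : ∀ q, K q ≤ K' q) (hne : K ≠ K') : PP K < PP K' :=
  lt_of_le_of_ne (PP_le_PP.2 h) fun he => hne (PP_injective he)

theorem PP_pgroup {p : ℕ} [Fintype Q] {K : Q → Subgroup G} :
    IsPGroup p (PP K) ↔ ∀ q, IsPGroup p (K q) := by
  constructor
  · intro h q a
    have h1 : incl G Q (Pi.mulSingle q (a : G)) ∈ PP K := by
      rw [mem_PP]
      refine ⟨rfl, fun q' => ?_⟩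
      rw [incl_left]
      by_cases hq : q' = q
      · subst hq; simp
      · rw [Pi.mulSingle_eq_of_ne hq]; exact one_mem _
    obtain ⟨n, hn⟩ := h ⟨_, h1⟩
    refine ⟨n, Subtype.ext ?_⟩
    have h2 : (incl G Q (Pi.mulSingle q (a : G))) ^ p ^ n = 1 := congrArg Subtype.val hn
    rw [← map_pow, ← Pi.mulSingle_pow] at h2
    have h3 := congrArg (fun w : G ≀ᵣ Q => w.left q) h2
    simpa using h3
  · intro h
    exact (isPGroup_pi K h).map _

theorem mem_normalizer_iff_cj {G : Type*} [Group G] {g : G} {K : Subgroup G} :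
    g ∈ normalizer (K : Set G) ↔ cj g K = K := by
  constructor
  · intro h
    ext x
    rw [mem_cj]
    have h1 := mem_normalizer_iff.1 (inv_mem h) x
    rw [inv_inv] at h1
    exact h1.symm
  · intro h
    rw [mem_normalizer_iff]
    intro x
    conv_rhs => rw [← h, mem_cj]
    have e : g⁻¹ * (g * x * g⁻¹) * g = x := by group
    rw [e]

theorem cj_PP (w : G ≀ᵣ Q) (y : Q → Subgroup G) :
    cj w (PP y) = PP fun q => cj (w.left q) (y (w.right⁻¹ * q)) := by
  ext u
  constructor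
  · rintro ⟨v, hv, rfl⟩
    rw [SetLike.mem_coe, mem_PP] at hv
    change w * v * w⁻¹ ∈ _
    rw [eq_incl hv.1, wr_conj, mem_PP]
    refine ⟨rfl, fun q => ?_⟩
    rw [incl_left, mem_cj]
    have e : (w.left q)⁻¹ * (w.left q * v.left (w.right⁻¹ * q) * (w.left q)⁻¹) * w.left q =
        v.left (w.right⁻¹ * q) := by group
    rw [e]
    exact hv.2 _
  · intro hu
    rw [mem_PP] at hu
    refine ⟨w⁻¹ * u * w, ?_, by change w * (w⁻¹ * u * w) * w⁻¹ = u; group⟩
    rw [SetLike.mem_coe, mem_PP]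
    have h1 : w⁻¹ * u * w = w⁻¹ * incl G Q u.left * (w⁻¹)⁻¹ := by
      rw [inv_inv, ← eq_incl hu.1]
    rw [h1, wr_conj]
    refine ⟨rfl, fun q => ?_⟩
    rw [incl_left, inv_left', inv_right, inv_inv]
    have h2 := hu.2 (w.right * q)
    rw [mem_cj, inv_mul_cancel_left] at h2
    rwa [inv_inv]

theorem mem_normalizer_PP {w : G ≀ᵣ Q} {y : Q → Subgroup G} :
    w ∈ normalizer (PP y : Set (G ≀ᵣ Q)) ↔ ∀ q, cj (w.left q) (y (w.right⁻¹ * q)) = y q := by
  rw [mem_normalizer_iff_cj, cj_PP]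
  constructor
  · intro h q
    exact congrFun (PP_injective h) q
  · intro h
    congr 1
    funext q
    exact h q

theorem PP_inf_normalizer (K y : Q → Subgroup G) :
    PP K ⊓ normalizer (PP y : Set (G ≀ᵣ Q)) = PP fun q => K q ⊓ normalizer (y q : Set G) := by
  ext w
  rw [mem_inf, mem_PP, mem_PP, mem_normalizer_PP]
  constructor
  · rintro ⟨⟨h1, h2⟩, h3⟩
    refine ⟨h1, fun q => ⟨h2 q, ?_⟩⟩
    have h4 := h3 q
    rw [h1, inv_one, one_mul] at h4
    exact mem_normalizer_iff_cj.2 h4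
  · rintro ⟨h1, h2⟩
    refine ⟨⟨h1, fun q => (h2 q).1⟩, fun q => ?_⟩
    rw [h1, inv_one, one_mul]
    exact mem_normalizer_iff_cj.1 (h2 q).2

theorem bR_inf_base (K : Subgroup G) : bR Q K ⊓ (incl G Q).range = PP fun _ => K := by
  ext w
  rw [mem_inf, mem_incl_range, mem_bR, mem_PP]
  tauto

theorem bR_inf_normalizer (K y : Subgroup G) :
    bR Q K ⊓ normalizer ((PP fun _ => y : Subgroup (G ≀ᵣ Q)) : Set (G ≀ᵣ Q)) =
      bR Q (K ⊓ normalizer (y : Set G)) := by
  ext w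
  rw [mem_inf, mem_bR, mem_normalizer_PP, mem_bR]
  constructor
  · rintro ⟨h1, h2⟩ q
    exact ⟨h1 q, mem_normalizer_iff_cj.2 (h2 q)⟩
  · intro h
    exact ⟨fun q => (h q).1, fun q => mem_normalizer_iff_cj.1 (h q).2⟩

/-- the projections of a subgroup of the base group -/
def pj (z : Subgroup (G ≀ᵣ Q)) (q : Q) : Subgroup G :=
  (z.comap (incl G Q)).map (Pi.evalMonoidHom (fun _ : Q => G) q)

theorem mem_pj {z : Subgroup (G ≀ᵣ Q)} {q : Q} {a : G} :
    a ∈ pj z q ↔ ∃ y : Q → G, incl G Q y ∈ z ∧ y q = a := Iff.rfl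

theorem le_hull {z : Subgroup (G ≀ᵣ Q)} (hz : z ≤ (incl G Q).range) : z ≤ PP (pj z) := by
  intro w hw
  obtain ⟨y, rfl⟩ := hz hw
  rw [mem_PP]
  exact ⟨rfl, fun q => mem_pj.2 ⟨y, hw, rfl⟩⟩

theorem pj_le {z : Subgroup (G ≀ᵣ Q)} {K : Q → Subgroup G} (h : z ≤ PP K) (q : Q) :
    pj z q ≤ K q := by
  intro a ha
  obtain ⟨y, hy, rfl⟩ := mem_pj.1 ha
  exact (mem_PP.1 (h hy)).2 q

theorem le_pj {z : Subgroup (G ≀ᵣ Q)} {x : Q → Subgroup G} (h : PP x ≤ z) (q : Q) :
    x q ≤ pj z q := by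
  intro a ha
  refine mem_pj.2 ⟨Pi.mulSingle q a, h ?_, by simp⟩
  rw [mem_PP]
  refine ⟨rfl, fun q' => ?_⟩
  rw [incl_left]
  by_cases hq : q' = q
  · subst hq; simpa using ha
  · rw [Pi.mulSingle_eq_of_ne hq]; exact one_mem _

theorem pj_pgroup {p : ℕ} {z : Subgroup (G ≀ᵣ Q)} (hz : IsPGroup p z) (q : Q) :
    IsPGroup p (pj z q) :=
  (hz.comap_of_injective _ incl_injective).map _

theorem normalizer_le_hull (z : Subgroup (G ≀ᵣ Q)) :
    normalizer (z : Set (G ≀ᵣ Q)) ≤ normalizer (PP (pj z) : Set (G ≀ᵣ Q)) := by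
  have key : ∀ w ∈ normalizer (z : Set (G ≀ᵣ Q)), cj w (PP (pj z)) ≤ PP (pj z) := by
    intro w hw
    rw [cj_PP, PP_le_PP]
    intro q a ha
    rw [mem_cj] at ha
    obtain ⟨y, hy, h⟩ := mem_pj.1 ha
    refine mem_pj.2 ⟨fun q => w.left q * y (w.right⁻¹ * q) * (w.left q)⁻¹, ?_, ?_⟩
    · rw [← wr_conj]
      exact (mem_normalizer_iff.1 hw _).1 hy
    · change w.left q * y (w.right⁻¹ * q) * (w.left q)⁻¹ = a
      rw [h]
      group
  intro w hw
  rw [mem_normalizer_iff_cj]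
  refine le_antisymm (key w hw) ?_
  have h1 := key w⁻¹ (inv_mem hw)
  have h2 := (cj_le_cj (g := w)).2 h1
  rwa [cj_cj, mul_inv_cancel, cj_one] at h2

end Sub

section Upe

variable {p : ℕ} {G : Type*} [Group G] [Finite G]

/-- the `p`-subgroups between `x` and `M` -/
noncomputable def upe (p : ℕ) (M x : Subgroup G) : Finset (Subgroup G) :=
  (Set.toFinite {y : Subgroup G | IsPGroup p y ∧ x ≤ y ∧ y ≤ M}).toFinset

theorem mem_upe {M x y : Subgroup G} : y ∈ upe p M x ↔ IsPGroup p y ∧ x ≤ y ∧ y ≤ M := by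
  simp [upe]

theorem Good.next' {K x y : Subgroup G} (h : Good p K x) (hy : y ∈ upe p K x) :
    Good p (K ⊓ normalizer (y : Set G)) y := by
  rw [mem_upe] at hy
  rcases hy.2.1.eq_or_lt with h1 | h1
  · subst h1
    rwa [inf_eq_left.2 h.2.2.1]
  · exact h.next hy.1 h1 hy.2.2

/-- the recursion with the bottom term on the other side -/
theorem phi_eq_sum (φ : Subgroup G → ℤ) {K x : Subgroup G} (h : Good p K x) :
    φ K = ∑ y ∈ upe p K x, Phi p φ ⊤ (K ⊓ normalizer (y : Set G)) y := by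
  have h1 : upe p K x = insert x (up p (K ⊓ ⊤) x) := by
    ext y
    rw [mem_upe, Finset.mem_insert, mem_up, inf_top_eq]
    constructor
    · rintro ⟨a, b, c⟩
      rcases b.eq_or_lt with b | b
      · exact Or.inl b.symm
      · exact Or.inr ⟨a, b, c⟩
    · rintro (rfl | ⟨a, b, c⟩)
      · exact ⟨h.1, le_rfl, h.2.1⟩
      · exact ⟨a, b.le, c⟩
  have h2 : x ∉ up p (K ⊓ ⊤) x := fun h => lt_irrefl _ (mem_up.1 h).2.1
  rw [h1, Finset.sum_insert h2, inf_eq_left.2 h.2.2.1]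
  have h3 := Phi_rec (p := p) φ ⊤ K x
  rw [h3]
  ring

end Upe

section Base

variable {p : ℕ} [hp : Fact p.Prime] {G Q : Type} [Group G] [Finite G] [Group Q] [Fintype Q]

/-- **(S)** the recursion above a product subgroup: only the product subgroups contribute -/
theorem Phi_base (φ : Subgroup (G ≀ᵣ Q) → ℤ) (K' : Subgroup (G ≀ᵣ Q)) (K x : Q → Subgroup G)
    (hK : K' ⊓ (incl G Q).range = PP K) :
    Phi p φ (incl G Q).range K' (PP x) = φ K' -
      ∑ y ∈ (Fintype.piFinset fun q => upe p (K q) (x q)).erase x,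
        Phi p φ (incl G Q).range (K' ⊓ normalizer (PP y : Set (G ≀ᵣ Q))) (PP y) := by
  rw [Phi_rec]
  congr 1
  rw [← Finset.sum_image (f := fun y' : Subgroup (G ≀ᵣ Q) => Phi p φ (incl G Q).range
    (K' ⊓ normalizer (y' : Set (G ≀ᵣ Q))) y') (g := PP) (fun a _ b _ h => PP_injective h)]
  symm
  refine Finset.sum_subset ?_ ?_
  · intro y' hy'
    obtain ⟨y, hy, rfl⟩ := Finset.mem_image.1 hy'
    rw [Finset.mem_erase, Fintype.mem_piFinset] at hy
    have h1 := fun q => mem_upe.1 (hy.2 q)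
    rw [mem_up, hK]
    exact ⟨PP_pgroup.2 fun q => (h1 q).1, PP_lt_PP (fun q => (h1 q).2.1) hy.1.symm,
      PP_le_PP.2 fun q => (h1 q).2.2⟩
  · intro y' hy' hn
    rw [mem_up, hK] at hy'
    obtain ⟨hy1, hy2, hy3⟩ := hy'
    have hyb : y' ≤ (incl G Q).range := hy3.trans (PP_le_base _)
    have hP : IsPGroup p (PP (pj y')) := PP_pgroup.2 (pj_pgroup hy1)
    have hle := le_hull hyb
    have hlt : y' < PP (pj y') := by
      refine lt_of_le_of_ne hle fun he => hn ?_
      rw [he]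
      refine Finset.mem_image.2 ⟨pj y', ?_, rfl⟩
      rw [Finset.mem_erase, Fintype.mem_piFinset]
      refine ⟨?_, fun q => mem_upe.2 ⟨pj_pgroup hy1 q, le_pj hy2.le q, pj_le hy3 q⟩⟩
      intro he2
      rw [he2] at he
      exact hy2.ne he.symm
    refine Phi_eq_zero φ _ _ _ y' (PP (pj y') ⊓ normalizer (y' : Set (G ≀ᵣ Q))) le_rfl
      hP.to_inf_left (lt_inf_normalizer hP hlt) ?_ ?_ inf_le_right
    · have h1 : PP (pj y') ≤ K' ⊓ (incl G Q).range := by
        rw [hK]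
        exact PP_le_PP.2 (pj_le hy3)
      refine le_inf (le_inf ?_ inf_le_right) ?_
      · exact inf_le_left.trans (h1.trans inf_le_left)
      · exact inf_le_left.trans (h1.trans inf_le_right)
    · intro g hg
      rw [mem_inf] at hg
      exact mem_norm_inf_norm (normalizer_le_hull y' hg.2) hg.2

/-- **(P)** the product formula -/
theorem Phi_prod (φ : Subgroup G → ℤ) (φ' : Subgroup (G ≀ᵣ Q) → ℤ)
    (h1 : ∀ K x : Q → Subgroup G, (∀ q, Good p (K q) (x q)) → φ' (PP K) = ∏ q, φ (K q)) :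
    ∀ (n : ℕ) (K x : Q → Subgroup G), Nat.card (G ≀ᵣ Q) - Nat.card (PP x) = n →
      (∀ q, Good p (K q) (x q)) →
      Phi p φ' (incl G Q).range (PP K) (PP x) = ∏ q, Phi p φ ⊤ (K q) (x q) := by
  intro n
  induction n using Nat.strong_induction_on with
  | _ n ih =>
  intro K x hn hg
  rw [Phi_base φ' (PP K) K x (inf_eq_left.2 (PP_le_base K)), h1 K x hg]
  have h2 : ∑ y ∈ (Fintype.piFinset fun q => upe p (K q) (x q)).erase x,
      Phi p φ' (incl G Q).range (PP K ⊓ normalizer (PP y : Set (G ≀ᵣ Q))) (PP y) =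
      ∑ y ∈ (Fintype.piFinset fun q => upe p (K q) (x q)).erase x,
        ∏ q, Phi p φ ⊤ (K q ⊓ normalizer (y q : Set G)) (y q) := by
    refine Finset.sum_congr rfl fun y hy => ?_
    rw [Finset.mem_erase, Fintype.mem_piFinset] at hy
    rw [PP_inf_normalizer]
    have h3 := fun q => mem_upe.1 (hy.2 q)
    have hlt : PP x < PP y := PP_lt_PP (fun q => (h3 q).2.1) hy.1.symm
    have h4 : Nat.card (PP x) < Nat.card (PP y) := Set.Finite.card_lt_card (Set.toFinite _) hlt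
    have h5 : Nat.card (PP y) ≤ Nat.card (G ≀ᵣ Q) := Subgroup.card_le_card_group _
    exact ih _ (by omega) _ y rfl fun q => (hg q).next' (hy.2 q)
  rw [h2]
  have hx : x ∈ Fintype.piFinset fun q => upe p (K q) (x q) := by
    rw [Fintype.mem_piFinset]
    exact fun q => mem_upe.2 ⟨(hg q).1, le_rfl, (hg q).2.1⟩
  have h6 : ∏ q, φ (K q) = ∑ y ∈ Fintype.piFinset fun q => upe p (K q) (x q),
      ∏ q, Phi p φ ⊤ (K q ⊓ normalizer (y q : Set G)) (y q) := by
    have h7 := Finset.prod_univ_sum (fun q => upe p (K q) (x q))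
      (fun q a => Phi p φ ⊤ (K q ⊓ normalizer (a : Set G)) a)
    rw [← h7]
    exact Finset.prod_congr rfl fun q _ => phi_eq_sum φ (hg q)
  rw [h6, ← Finset.add_sum_erase _ _ hx, add_sub_cancel_right]
  exact Finset.prod_congr rfl fun q _ => by rw [inf_eq_left.2 (hg q).2.2.1]

end Base

end P179H854
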