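import Vale.Agent.P179.R2.H725.Rec

/-!
# The Knörr–Robinson recursion for central idempotents
-/

namespace P179H854

open Subgroup P179H524 P179A P179K P179R P179C P179N

open P179B (IsNormalChain NChain chainStab)

open scoped Classical Pointwise

universe u

section Add

variable {p : ℕ} [hp : Fact p.Prime] {k : Type u} [Field k] [IsAlgClosed k] [CharP k p]
  (red : integralClosure ℤ ℂ →+* k) {G : Type} [Group G] [Finite G]

/-- the blocks in `e` -/
abbrev Blk (e : MonoidAlgebra k G) : Type u :=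
  {B : {B : MonoidAlgebra k G // IsBlock B} // centralChar B.1 e = 1}

/-- additivity at the stabiliser of a normal chain, simple modules -/
theorem numSimpleIn_trunc_add {e : MonoidAlgebra k G}
    (he : e ∈ Subalgebra.center k (MonoidAlgebra k G)) [Fintype (Blk e)] (s : NChain p G) :
    numSimpleIn (trunc (stab s.1) e) = ∑ B : Blk e, numSimpleIn (trunc (stab s.1) B.1.1) := by
  have := Fintype.ofFinite G
  obtain ⟨r, μ, hμ, -⟩ := exists_L p (k := k) (G := stab s.1)
  have hR := fun i : Fin r => exists_res (p := p) s (μ i)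
  choose ν hν using hR
  have h1 : ∀ (z : MonoidAlgebra k G) (hz : z ∈ Subalgebra.center k (MonoidAlgebra k G)),
      numSimpleIn (trunc (stab s.1) z) = Nat.card {i // ν i ⟨z, hz⟩ = 1} := by
    intro z hz
    rw [hμ _ (trunc_mem _ hz)]
    simp only [hν]
  rw [h1 e he, card_eq_sum ν ⟨e, he⟩]
  exact Finset.sum_congr rfl fun B _ => (h1 B.1.1 B.1.2.1).symm

/-- additivity at the stabiliser of a normal chain, weights -/
theorem numW_trunc_add {e : MonoidAlgebra k G}
    (he : e ∈ Subalgebra.center k (MonoidAlgebra k G)) [Fintype (Blk e)] (s : NChain p G) :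
    numW p red (trunc (stab s.1) e) = ∑ B : Blk e, numW p red (trunc (stab s.1) B.1.1) := by
  have := Fintype.ofFinite G
  have hR := fun q : Quot (P179H524.Weight.Conj (p := p) (G := stab s.1)) =>
    exists_res (p := p) s (mu p red q.out)
  choose ν hν using hR
  have h1 : ∀ (z : MonoidAlgebra k G) (hz : z ∈ Subalgebra.center k (MonoidAlgebra k G)),
      numW p red (trunc (stab s.1) z) = Nat.card {q // ν q ⟨z, hz⟩ = 1} := by
    intro z hz
    rw [numW_eq_numWc red _ (trunc_mem _ hz), numWc_eq_card p red (trunc_mem _ hz)]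
    simp only [hν]
  rw [h1 e he, card_eq_sum ν ⟨e, he⟩]
  exact Finset.sum_congr rfl fun B _ => (h1 B.1.1 B.1.2.1).symm

omit hp in
theorem numSimpleIn_add [Fact p.Prime] {e : MonoidAlgebra k G}
    (he : e ∈ Subalgebra.center k (MonoidAlgebra k G)) [Fintype (Blk e)] :
    numSimpleIn e = ∑ B : Blk e, numSimpleIn B.1.1 := by
  obtain ⟨r, μ, hμ, -⟩ := exists_L p (k := k) (G := G)
  rw [hμ e he, card_eq_sum μ ⟨e, he⟩]
  exact Finset.sum_congr rfl fun B _ => (hμ B.1.1 B.1.2.1).symm

theorem numW_add {e : MonoidAlgebra k G}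
    (he : e ∈ Subalgebra.center k (MonoidAlgebra k G)) [Fintype (Blk e)] :
    numW p red e = ∑ B : Blk e, numW p red B.1.1 := by
  have h1 : ∀ (z : MonoidAlgebra k G) (hz : z ∈ Subalgebra.center k (MonoidAlgebra k G)),
      numW p red z = Nat.card {q : Quot (P179H524.Weight.Conj (p := p) (G := G)) //
        mu p red q.out ⟨z, hz⟩ = 1} := by
    intro z hz
    rw [numW_eq_numWc red _ hz, numWc_eq_card p red hz]
  rw [h1 e he, card_eq_sum (fun q : Quot (P179H524.Weight.Conj (p := p) (G := G)) =>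
    mu p red q.out) ⟨e, he⟩]
  exact Finset.sum_congr rfl fun B _ => (h1 B.1.1 B.1.2.1).symm

/-- **the recursion for a central element `e`**, if the blocks in `e` have nontrivial defect
groups -/
theorem sum_krSum [Fintype (Quot (NChain.Conj (p := p) (G := G)))] {e : MonoidAlgebra k G}
    (he : e ∈ Subalgebra.center k (MonoidAlgebra k G)) [Fintype (Blk e)]
    (hne : ∀ B : Blk e, ∃ D : Subgroup G, IsDefectGroup B.1.1 D ∧ D ≠ ⊥) :
    ∑ B : Blk e, P179B.krSum p B.1.1 = ((numSimpleIn e : ℤ) - numW p red e) +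
      ∑ c : Quot (NChain.Conj (p := p) (G := G)), (-1) ^ c.out.1.card *
        ((numSimpleIn (trunc (stab c.out.1) e) : ℤ) - numW p red (trunc (stab c.out.1) e)) := by
  have h1 : ∀ B : Blk e, P179B.krSum p B.1.1 = (numSimpleIn B.1.1 : ℤ) +
      ∑ c : Quot (NChain.Conj (p := p) (G := G)), (-1) ^ c.out.1.card *
        (numSimpleIn (trunc (stab c.out.1) B.1.1) : ℤ) := by
    intro B
    rw [P179B.krSum, finsum_eq_sum_of_fintype, P179B.numSimpleIn_eq]
    congr 1
    refine Finset.sum_congr rfl fun c _ => ?_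
    rw [numSimpleOver_eq B.1.2 c.out]
  have h2 : ∀ B : Blk e, (numW p red B.1.1 : ℤ) +
      ∑ c : Quot (NChain.Conj (p := p) (G := G)), (-1) ^ c.out.1.card *
        (numW p red (trunc (stab c.out.1) B.1.1) : ℤ) = 0 := by
    intro B
    obtain ⟨D, hD, hD1⟩ := hne B
    rw [← P179H725.weights_cancel red B.1.2 hD hD1, numWeightsIn_eq_numWc p red B.1.2,
      numW_eq_numWc red _ B.1.2.1]
  have h3 : ∑ B : Blk e, P179B.krSum p B.1.1 = ∑ B : Blk e, (((numSimpleIn B.1.1 : ℤ) +
      ∑ c : Quot (NChain.Conj (p := p) (G := G)), (-1) ^ c.out.1.card *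
        (numSimpleIn (trunc (stab c.out.1) B.1.1) : ℤ)) - ((numW p red B.1.1 : ℤ) +
      ∑ c : Quot (NChain.Conj (p := p) (G := G)), (-1) ^ c.out.1.card *
        (numW p red (trunc (stab c.out.1) B.1.1) : ℤ))) := by
    refine Finset.sum_congr rfl fun B _ => ?_
    rw [h1 B, h2 B, sub_zero]
  rw [h3, numSimpleIn_add (p := p) he, numW_add red he]
  have h4 : ∀ c : Quot (NChain.Conj (p := p) (G := G)), (-1 : ℤ) ^ c.out.1.card *
        ((numSimpleIn (trunc (stab c.out.1) e) : ℤ) - numW p red (trunc (stab c.out.1) e)) =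
      ∑ B : Blk e, ((-1) ^ c.out.1.card * (numSimpleIn (trunc (stab c.out.1) B.1.1) : ℤ) -
        (-1) ^ c.out.1.card * (numW p red (trunc (stab c.out.1) B.1.1) : ℤ)) := by
    intro c
    rw [numSimpleIn_trunc_add he, numW_trunc_add red he]
    push_cast
    rw [← Finset.sum_sub_distrib, Finset.mul_sum]
    exact Finset.sum_congr rfl fun B _ => by ring
  rw [Finset.sum_congr rfl fun c _ => h4 c, Finset.sum_comm]
  push_cast
  rw [← Finset.sum_sub_distrib, ← Finset.sum_add_distrib]
  refine Finset.sum_congr rfl fun B _ => ?_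
  rw [Finset.sum_sub_distrib]
  ring

/-- divisibility for the central element `e` from the blocks in `e` and the stabilisers -/
theorem dvd_of_blocks {e : MonoidAlgebra k G}
    (he : e ∈ Subalgebra.center k (MonoidAlgebra k G)) (m : ℤ)
    (hne : ∀ B, IsBlock B → centralChar B e = 1 → ∃ D : Subgroup G, IsDefectGroup B D ∧ D ≠ ⊥)
    (hkr : ∀ B, IsBlock B → centralChar B e = 1 → m ∣ P179B.krSum p B)
    (hloc : ∀ s : NChain p G, m ∣ (numSimpleIn (trunc (stab s.1) e) : ℤ) -
      numW p red (trunc (stab s.1) e)) :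
    m ∣ (numSimpleIn e : ℤ) - numW p red e := by
  have := Fintype.ofFinite (Quot (NChain.Conj (p := p) (G := G)))
  have := P179R.finite_blocks p (k := k) (G := G)
  have := Fintype.ofFinite (Blk e)
  have h1 := sum_krSum (p := p) red he fun B => hne B.1.1 B.1.2 B.2
  have h2 : m ∣ ∑ B : Blk e, P179B.krSum p B.1.1 :=
    Finset.dvd_sum fun B _ => hkr B.1.1 B.1.2 B.2
  have h3 : m ∣ ∑ c : Quot (NChain.Conj (p := p) (G := G)), (-1) ^ c.out.1.card *
        ((numSimpleIn (trunc (stab c.out.1) e) : ℤ) - numW p red (trunc (stab c.out.1) e)) :=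
    Finset.dvd_sum fun c _ => (hloc c.out).mul_left _
  rw [h1] at h2
  exact (dvd_add_left h3).1 h2

end Add

end P179H854
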