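import Vale.Agent.P179.R2.H854.LocR2F
import Vale.Agent.P179.R2.H452.M7

/-!
# Abelian defect groups of rank two
-/

namespace P179H854

open Subgroup P179H443

universe u

section

variable {p : ℕ} [hp : Fact p.Prime] {k : Type u} [Field k] [IsAlgClosed k] [CharP k p]
  (red : integralClosure ℤ ℂ →+* k)

/-- **the congruence modulo the exponent**, abelian defect groups of rank two, `p > 3` -/
theorem dvd_sub_rank2F (h3 : 3 < p) {G : Type} [Group G] [Finite G] {B : MonoidAlgebra k G}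
    (hB : P179B.IsBlock B) {D : Subgroup G} (hD : P179B.IsDefectGroup B D)
    (hab : ∀ a ∈ D, ∀ b ∈ D, a * b = b * a)
    (h1 : Nat.card {x : G // x ∈ D ∧ x ^ p = 1} = p ^ 2) {a : ℕ} {z : G} (hz : z ∈ D)
    (hza : z ^ p ^ a ≠ 1) :
    (p : ℤ) ^ (a + 1) ∣ (P179B.numSimpleIn B : ℤ) - P179B.numWeightsIn p red B :=
  dvd_sub_rank2 red (P179H843.eqRel p k red) (locR2 red h3) hB hD hab h1 hz hza

/-- **equality for the abelian defect groups of rank two which are not homocyclic**, `p > 2` -/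
theorem eq_rank2F (hp2 : p ≠ 2) {G : Type} [Group G] [Finite G] {B : MonoidAlgebra k G}
    (hB : P179B.IsBlock B) {D : Subgroup G} (hD : P179B.IsDefectGroup B D)
    (hab : ∀ a ∈ D, ∀ b ∈ D, a * b = b * a)
    (h1 : Nat.card {x : G // x ∈ D ∧ x ^ p = 1} = p ^ 2)
    (h2 : ∃ a : ℕ, (∃ z ∈ D, z ^ p ^ a ≠ 1) ∧ ∃ x ∈ D, x ^ p = 1 ∧ ∀ y ∈ D, y ^ p ^ a ≠ x) :
    P179B.numSimpleIn B = P179B.numWeightsIn p red B :=
  eq_rank2 red (P179H843.eqRel p k red) (P179H452.m7Stmt red hp2) (fun h3 => locR2 red h3) hp2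
    hB hD hab h1 h2

end

end P179H854
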