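import Vale.Agent.P179.R2.H854.Mono2

/-!
# The lifted traces of a monomial action on a graded space
-/

namespace P179H854

open Finset Module

open scoped Classical

section

variable {k : Type*} [Field k] {Q : Type*} [Group Q] [Fintype Q] {V : Type*} [AddCommGroup V]
  [Module k V] {I : Q → Type*} [∀ a, Fintype (I a)] {VA : Q → Type*} [∀ a, AddCommGroup (VA a)]
  [∀ a, Module k (VA a)] (bA : ∀ a, Basis (I a) k (VA a)) (EW : V ≃ₗ[k] ∀ a, VA a)

/-- the glued basis -/
noncomputable def gb : Basis (Σ a, I a) k V := (Pi.basis bA).map EW.symm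


theorem gb_apply (a : Q) (i : I a) :
    gb bA EW ⟨a, i⟩ = EW.symm (Pi.single a (bA a i)) := by
  unfold gb
  rw [Basis.map_apply, Pi.basis_apply]


theorem gb_repr (v : V) (a : Q) (i : I a) :
    (gb bA EW).repr v ⟨a, i⟩ = (bA a).repr (EW v a) i := by
  unfold gb
  rw [Basis.map_repr, LinearEquiv.trans_apply, LinearEquiv.symm_symm, Pi.basis_repr]

variable [MulAction Q (Σ a, I a)] {τ : Representation k Q V}

/-- **the sum over the commuting pairs** -/
theorem sumA {L : k → ℂ} (hA : (Nat.card Q : k) ≠ 0) (hL : Lift k (Nat.card Q) L)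
    (h : Mono (gb bA EW) τ) (hfst : ∀ (q : Q) (y : Σ a, I a), (q • y).1 = q * y.1 * q⁻¹)
    (f : ∀ a : Q, Q → VA a →ₗ[k] VA a)
    (hf : ∀ a q, a * q = q * a → ∀ v, EW (τ q (EW.symm (Pi.single a v))) a = f a q v) :
    (Nat.card Q : ℂ) * finrank k τ.invariants =
      ∑ᶠ z : Q × Q, if z.1 * z.2 = z.2 * z.1 then trL L (bA z.1) (f z.1 z.2) else 0 := by
  rw [card_mul_finrank_inv hA hL h, finsum_eq_sum_of_fintype, Fintype.sum_prod_type_right]
  refine Finset.sum_congr rfl fun q _ => ?_
  unfold trL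
  rw [Fintype.sum_sigma]
  refine Finset.sum_congr rfl fun a _ => ?_
  dsimp only
  split_ifs with hc
  · refine Finset.sum_congr rfl fun i _ => ?_
    congr 1
    unfold dg
    rw [gb_apply, gb_repr, hf a q hc]
  · refine Finset.sum_eq_zero fun i _ => ?_
    rw [h.ne, hL.zero]
    intro h1
    have h2 := congrArg Sigma.fst h1
    rw [hfst, mul_inv_eq_iff_eq_mul] at h2
    exact hc h2.symm

end

end P179H854
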