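import Vale.Agent.P179.R2.H443.F5
import Vale.Agent.P179.R2.H12.Tst

/-!
# The weights of the block of an intermediate group
-/

namespace P179H854

open Subgroup Finset P179H524 P179C P179A P179P P179Y P179H12 P179H872 P179H443

open scoped Classical

universe u

section

variable {p : ℕ} [hp : Fact p.Prime] {k : Type u} [Field k] [IsAlgClosed k] [CharP k p]
  {G : Type} [Group G] [Fintype G] {D H : Subgroup G} {l : (G → k) → k}

omit [IsAlgClosed k] [CharP k p] hp in
theorem comm_subgroupOf (hab : D ≤ centralizer (D : Set G)) (hDH : D ≤ H) :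
    D.subgroupOf H ≤ centralizer ((D.subgroupOf H : Subgroup H) : Set H) := by
  intro x hx
  rw [mem_cent_subgroupOf hDH]
  exact hab (by simpa [Subgroup.mem_subgroupOf] using hx)

omit [CharP k p] hp in
/-- the central character of the block below a functional -/
theorem Low.char {b : MonoidAlgebra k H} (hlb : Low H l b) :
    ∀ z : H → k, IsCF z → lres H l z = centralChar b (mkF z) := by
  intro z hz
  unfold lres
  rw [hlb _ (invOn_ext0 hz)]
  congr 2
  funext h
  exact ext_coe H z h

/-- the block of the centraliser of `D` in `H` -/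
theorem exists_root_below (hl : BP p D l) (hD : IsPGroup p D)
    (hab : D ≤ centralizer (D : Set G)) (hDH : D ≤ H) (hCH : centralizer (D : Set G) ≤ H)
    {β : MonoidAlgebra k (centralizer (D : Set G))} (hβ : IsBlock β)
    (hlβ : Low (centralizer (D : Set G)) l β) :
    ∃ β' : MonoidAlgebra k (centralizer ((D.subgroupOf H : Subgroup H) : Set H)), IsBlock β' ∧
      Low (centralizer ((D.subgroupOf H : Subgroup H) : Set H)) (lres H l) β' ∧
      bF (centralizer ((D.subgroupOf H : Subgroup H) : Set H)) β' =
        fun n : H => bF (centralizer (D : Set G)) β n := by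
  have hl' := hl.restrict hDH hCH
  have hD' : IsPGroup p (D.subgroupOf H) := hD.comap_subtype
  have habH := comm_subgroupOf hab hDH
  set H' : Subgroup H := centralizer ((D.subgroupOf H : Subgroup H) : Set H) with hH'
  have hmemH' : ∀ x : H, x ∈ H' ↔ (x : G) ∈ centralizer (D : Set G) := mem_cent_subgroupOf hDH
  have hml' : MulH H' (lres H l) := BP.mulH hl' hD' habH le_rfl
  let e : centralizer (D : Set G) ≃* H' :=
    { toFun := fun x => ⟨⟨x, hCH x.2⟩, (hmemH' _).2 x.2⟩
      invFun := fun x => ⟨(x : H), (hmemH' _).1 x.2⟩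
      left_inv := fun x => rfl
      right_inv := fun x => rfl
      map_mul' := fun x y => rfl }
  set β' : MonoidAlgebra k H' := MonoidAlgebra.domCongr k k e β with hβ'def
  have hβ' : IsBlock β' := isBlock_map' _ hβ
  have hbF : bF H' β' = fun n : H => bF (centralizer (D : Set G)) β n := by
    funext n
    unfold bF
    by_cases h : n ∈ H'
    · rw [ext_of_mem H' _ h, ext_of_mem _ _ ((hmemH' n).1 h)]
      exact MonoidAlgebra.coeff_domCongr _ _ _
    · rw [ext_of_not_mem H' _ h, ext_of_not_mem _ _ fun h' => h ((hmemH' n).2 h')]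
  refine ⟨β', hβ', ?_, hbF⟩
  obtain ⟨b2, hb2, hlb2⟩ := exists_blk hml'
  have h1 : β' = b2 := by
    refine hlb2.unique hb2 hβ' ?_
    rw [hbF]
    unfold lres
    have h2 : ext H (fun n : H => bF (centralizer (D : Set G)) β n) =
        bF (centralizer (D : Set G)) β :=
      ext_of_supp fun x hx => (invOn_bF hβ.1).2 x fun h => hx (hCH h)
    rw [h2, hlβ.one hβ]
    exact one_ne_zero
  rw [h1]
  exact hlb2

/-- **(TR5)** the weights of the block of `H` below the pair -/
theorem numWeightsIn_below (red : integralClosure ℤ ℂ →+* k) (hl : BP p D l)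
    (hD : IsPGroup p D) (hab : D ≤ centralizer (D : Set G))
    (hT : ¬ p ∣ (centralizer (D : Set G)).relIndex (stabT D l)) (hDH : D ≤ H)
    (hCH : centralizer (D : Set G) ≤ H) {b : MonoidAlgebra k H} (hb : IsBlock b)
    (hlb : Low H l b) (hDb : IsDefectGroup b (D.subgroupOf H))
    {β : MonoidAlgebra k (centralizer (D : Set G))} (hβ : IsBlock β)
    (hlβ : Low (centralizer (D : Set G)) l β) :
    numWeightsIn p red b =
      numSimpleIn (mkF fun t : (stabT D l ⊓ H : Subgroup G) =>
        bF (centralizer (D : Set G)) β t) := by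
  obtain ⟨β', hβ', hlβ', hbF⟩ := exists_root_below hl hD hab hDH hCH hβ hlβ
  have hab' : ∀ a ∈ D.subgroupOf H, ∀ c ∈ D.subgroupOf H, a * c = c * a := fun a ha c hc =>
    ((mem_centralizer_iff.1 (comm_subgroupOf hab hDH ha)) c hc).symm
  rw [numWeightsIn_eq_stabT red hb hDb hab' (hl.restrict hDH hCH) hD.comap_subtype
    (fun h => hT (h.trans (relIndex_stabT_lres_dvd hDH hCH))) (Low.char hlb) hβ' hlβ']
  let φ : stabT (D.subgroupOf H) (lres H l) ≃* (stabT D l ⊓ H : Subgroup G) :=
    { toFun := fun x => ⟨(x : H), mem_inf.2 ⟨(mem_stabT_lres hDH hCH _).1 x.2, (x : H).2⟩⟩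
      invFun := fun x => ⟨⟨x, (mem_inf.1 x.2).2⟩,
        (mem_stabT_lres hDH hCH _).2 (mem_inf.1 x.2).1⟩
      left_inv := fun x => rfl
      right_inv := fun x => rfl
      map_mul' := fun x y => rfl }
  refine numSimpleIn_equiv (p := p) φ _ _ fun x => ?_
  rw [coeff_mkF, coeff_mkF, hbF]
  rfl

end

end P179H854
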