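import Vale.Agent.P179.R2.H854.Tr

/-!
# The blocks of the groups between `C_G(R)` and the stabiliser of a block of `C_G(R)`
-/

namespace P179H854

open Subgroup Finset P179H524 P179C P179A P179P P179Y P179H12 P179H872 P179H443

open scoped Classical

universe u

section

variable {p : ℕ} [hp : Fact p.Prime] {k : Type u} [Field k] [IsAlgClosed k] [CharP k p]
  {G : Type} [Group G] [Fintype G] {D R H : Subgroup G} {l : (G → k) → k}

omit [CharP k p] hp in
/-- the block of `H` is invariant under the stabiliser -/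
theorem bF_cj_of_mem_stH {C : Subgroup G} {b1 : MonoidAlgebra k C}
    (hml : MulH C l) (hb1 : IsBlock b1) (hlb1 : Low C l b1) {n : G} (hn : n ∈ stH C l) (x : G) :
    bF C b1 (n * x * n⁻¹) = bF C b1 x := by
  have h1 := (mem_stH_iff hml hb1 hlb1 (inv_mem hn.1)).1 (inv_mem hn)
  have h2 := congrFun h1 x
  unfold P179Y.cj at h2
  rwa [inv_inv] at h2

/-- **(TR6)** the block of an intermediate group -/
theorem block_between {C : Subgroup G} (hC : C = centralizer (R : Set G)) (hRn : R.Normal)
    (hR : IsPGroup p R) (hRH : R ≤ H) (hCH : C ≤ H) (hHs : H ≤ stH C l) (hmC : MulH C l)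
    (hmH : MulH H l) {b1 : MonoidAlgebra k C} (hb1 : IsBlock b1) (hlb1 : Low C l b1) :
    IsBlock (mkF fun t : H => bF C b1 t) ∧ Low H l (mkF fun t : H => bF C b1 t) := by
  obtain ⟨b, hb, hlb⟩ := exists_blk hmH
  have heH : ∀ x, x ∉ H → bF C b1 x = 0 := fun x hx => (invOn_bF hb1.1).2 x fun h => hx (hCH h)
  -- the block of `H` is supported on `C`
  have hRn' : (R.subgroupOf H).Normal := inferInstance
  have hR' : IsPGroup p (R.subgroupOf H) := hR.comap_subtype
  have hbb : conv (fun g => b.coeff g) (fun g => b.coeff g) = fun g => b.coeff g := by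
    funext g
    rw [← coeff_mul_eq_conv, hb.2.1]
  have hsupp : ∀ x, x ∉ C → bF H b x = 0 := by
    intro x hx
    by_cases hxH : x ∈ H
    · have h1 := idem_supp (p := p) (R.subgroupOf H) hR' ((P179C.mem_center_iff _).1 hb.1) hbb
        (g := ⟨x, hxH⟩) fun h => hx (by
          rw [hC]
          exact (mem_cent_subgroupOf hRH ⟨x, hxH⟩).1 h)
      rw [← h1]
      exact ext_of_mem H _ hxH
    · exact ext_of_not_mem H _ hxH
  -- the two idempotents
  have he : (mkF fun t : H => bF C b1 t) ∈ Subalgebra.center k (MonoidAlgebra k H) :=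
    mkF_mem fun t x => bF_cj_of_mem_stH hmC hb1 hlb1 (hHs t.2) x
  have hbFe : bF H (mkF fun t : H => bF C b1 t) = bF C b1 := bF_mkF _ heH
  have hee : (mkF fun t : H => bF C b1 t) * (mkF fun t : H => bF C b1 t) =
      mkF fun t : H => bF C b1 t := by
    apply bF_inj
    rw [bF_mul, hbFe, conv_bF_self hb1]
  have hf : (mkF fun t : C => bF H b t) ∈ Subalgebra.center k (MonoidAlgebra k C) :=
    mkF_mem fun t x => (invOn_bF hb.1).1 t (hCH t.2) x
  have hbFf : bF C (mkF fun t : C => bF H b t) = bF H b := bF_mkF _ hsupp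
  have hff : (mkF fun t : C => bF H b t) * (mkF fun t : C => bF H b t) =
      mkF fun t : C => bF H b t := by
    apply bF_inj
    rw [bF_mul, hbFf, conv_bF_self hb]
  -- `b e = b`
  have hinv : InvOn H (bF C b1) := ⟨fun t ht x => bF_cj_of_mem_stH hmC hb1 hlb1 (hHs ht) x, heH⟩
  have h1 : b * (mkF fun t : H => bF C b1 t) = b := by
    have h3 : (mkF fun t : H => bF C b1 t) * b = b * (mkF fun t : H => bF C b1 t) :=
      (Subalgebra.mem_center_iff.1 he b).symm
    rcases hb.2.2.2 (b * (mkF fun t : H => bF C b1 t)) (mul_mem hb.1 he) (by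
      rw [mul_assoc, ← mul_assoc (mkF fun t : H => bF C b1 t) b, h3, mul_assoc b, hee,
        ← mul_assoc, hb.2.1]) (by
      rw [mul_assoc, h3, ← mul_assoc, hb.2.1]) with h | h
    · exfalso
      have h2 : l (conv (bF H b) (bF C b1)) = 1 := by
        rw [hmH.mul _ _ (invOn_bF hb.1) hinv, hlb.one hb, hlb1.one hb1, one_mul]
      rw [← hbFe, ← bF_mul, h, bF_zero, hmH.zero] at h2
      exact zero_ne_one h2
    · exact h
  have h1' : conv (bF H b) (bF C b1) = bF H b := by
    rw [← hbFe, ← bF_mul, h1]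
  -- `f b1 = b1`
  have hcomm : b1 * (mkF fun t : C => bF H b t) = (mkF fun t : C => bF H b t) * b1 :=
    (Subalgebra.mem_center_iff.1 hf b1)
  have h4 : (mkF fun t : C => bF H b t) * b1 = b1 := by
    rcases hb1.2.2.2 ((mkF fun t : C => bF H b t) * b1) (mul_mem hf hb1.1) (by
      rw [mul_assoc, ← mul_assoc b1, hcomm, mul_assoc _ b1 b1, hb1.2.1, ← mul_assoc, hff]) (by
      rw [mul_assoc, hb1.2.1]) with h | h
    · exfalso
      have h5 : bF H b = 0 := by
        rw [← h1', ← hbFf, ← bF_mul, h, bF_zero]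
      have h6 := hlb.one hb
      rw [h5, hmH.zero] at h6
      exact zero_ne_one h6
    · exact h
  have h5 : bF C b1 = bF H b := by
    rw [← h1', ← hbFf, ← bF_mul, h4]
  rw [h5, mkF_bF]
  exact ⟨hb, hlb⟩

end

end P179H854
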